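import Vale.Agent.P184.R2.H270.Fld
import Vale.Agent.P184.Bdl.B4

/-!
# Commutative groups: almost invariant probability measures and invariant means
(after the files H444/GitT and P196)
-/

noncomputable section

open Filter Topology

namespace Vale.Agent.P184.LA

open Classical in
/-- Boxes in commutative groups. -/
theorem folner (G : Type*) [CommGroup G] (S : Finset G) (ε : ℝ) (hε : 0 < ε) :
    ∃ D : Finset G, D.Nonempty ∧
      ∀ g ∈ S, (((D.image (fun x => g * x)) \ D).card : ℝ) < ε * D.card := by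
  -- the boxes
  let box : ℕ → Finset G := fun n =>
    (S.pi (fun _ => Finset.range n)).image (fun a => ∏ s ∈ S.attach, (s : G) ^ (a s.1 s.2))
  have hcard : ∀ n, (box n).card ≤ n ^ S.card := by
    intro n
    refine Finset.card_image_le.trans ?_
    rw [Finset.card_pi]
    simp
  have hmono : ∀ n, box n ⊆ box (n + 1) := by
    intro n
    apply Finset.image_subset_image
    intro a ha
    rw [Finset.mem_pi] at ha ⊢
    intro s hs
    have := Finset.mem_range.1 (ha s hs)
    exact Finset.mem_range.2 (by omega)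
  have hmul : ∀ n, ∀ g ∈ S, (box n).image (fun x => g * x) ⊆ box (n + 1) := by
    intro n g hg x hx
    obtain ⟨y, hy, rfl⟩ := Finset.mem_image.1 hx
    obtain ⟨a, ha, rfl⟩ := Finset.mem_image.1 hy
    rw [Finset.mem_pi] at ha
    refine Finset.mem_image.2 ⟨fun s hs => if s = g then a s hs + 1 else a s hs, ?_, ?_⟩
    · rw [Finset.mem_pi]
      intro s hs
      have := Finset.mem_range.1 (ha s hs)
      rw [Finset.mem_range]
      split_ifs <;> omega
    · have h1 : ∀ s ∈ S.attach, (s : G) ^ (if (s : G) = g then a s.1 s.2 + 1 else a s.1 s.2)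
          = (if s = ⟨g, hg⟩ then g else 1) * (s : G) ^ (a s.1 s.2) := by
        intro s _
        by_cases h : (s : G) = g
        · have h2 : s = ⟨g, hg⟩ := Subtype.ext h
          rw [if_pos h, if_pos h2, pow_succ, mul_comm]
          exact congrArg (fun t => t * _) h
        · have h2 : ¬ s = ⟨g, hg⟩ := fun h3 => h (by rw [h3])
          rw [if_neg h, if_neg h2, one_mul]
      rw [Finset.prod_congr rfl h1, Finset.prod_mul_distrib, Finset.prod_ite_eq',
        if_pos (Finset.mem_attach _ _)]
  have hne : ∀ n, 1 ≤ n → (box n).Nonempty := by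
    intro n hn
    refine Finset.Nonempty.image ?_ _
    refine ⟨fun _ _ => 0, ?_⟩
    rw [Finset.mem_pi]
    intro s _
    exact Finset.mem_range.2 (by omega)
  -- polynomial growth gives a scale with small boundary
  obtain ⟨n, hn, hsmall⟩ : ∃ n, 1 ≤ n ∧ ((box (n + 1)).card : ℝ) < (1 + ε) * (box n).card := by
    by_contra hcon
    push Not at hcon
    have hgrow : ∀ n : ℕ, (1 + ε) ^ n ≤ ((box (n + 1)).card : ℝ) := by
      intro n
      induction n with
      | zero =>
        have := Finset.card_pos.2 (hne 1 le_rfl)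
        simp only [pow_zero, zero_add]
        exact_mod_cast this
      | succ n ih =>
        have h1 := hcon (n + 1) (by omega)
        rw [pow_succ]
        calc (1 + ε) ^ n * (1 + ε) ≤ ((box (n + 1)).card : ℝ) * (1 + ε) :=
              mul_le_mul_of_nonneg_right ih (by positivity)
          _ = (1 + ε) * ((box (n + 1)).card : ℝ) := by ring
          _ ≤ _ := h1
    have hlim := tendsto_pow_const_div_const_pow_of_one_lt S.card
      (show (1 : ℝ) < 1 + ε by linarith)
    have hev := (hlim.comp (Filter.tendsto_add_atTop_nat 1)).eventually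
      (gt_mem_nhds (show (0 : ℝ) < 1 / (1 + ε) by positivity))
    obtain ⟨n, hn⟩ := hev.exists
    simp only [Function.comp] at hn
    have h1 := hgrow n
    have h2 : ((box (n + 1)).card : ℝ) ≤ ((n + 1 : ℕ) : ℝ) ^ S.card := by
      exact_mod_cast hcard (n + 1)
    have h3 : (0 : ℝ) < (1 + ε) ^ (n + 1) := by positivity
    rw [div_lt_div_iff₀ h3 (by positivity)] at hn
    rw [pow_succ] at hn
    have h4 : ((n + 1 : ℕ) : ℝ) ^ S.card < (1 + ε) ^ n := by
      have h5 : (0 : ℝ) < 1 + ε := by positivity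
      have h6 : ((n + 1 : ℕ) : ℝ) ^ S.card * (1 + ε) < (1 + ε) ^ n * (1 + ε) := by linarith
      exact lt_of_mul_lt_mul_right h6 h5.le
    linarith
  refine ⟨box n, hne n hn, fun g hg => ?_⟩
  have h1 : (box n).image (fun x => g * x) \ box n ⊆ box (n + 1) \ box n :=
    Finset.sdiff_subset_sdiff (hmul n g hg) le_rfl
  have h2 : (box (n + 1) \ box n).card = (box (n + 1)).card - (box n).card :=
    Finset.card_sdiff_of_subset (hmono n)
  have h3 := Finset.card_le_card h1
  have h4 := Finset.card_le_card (hmono n)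
  have h5 : (((box n).image (fun x => g * x) \ box n).card : ℝ)
      ≤ (box (n + 1)).card - (box n).card := by
    rw [← Nat.cast_sub h4]
    exact_mod_cast h3.trans h2.le
  linarith

/-- Almost invariant probability measures on commutative groups. -/
theorem exists_almost_inv (G : Type*) [CommGroup G] (S : Finset G) {ε : ℝ} (hε : 0 < ε) :
    ∃ μ : G →₀ ℝ, (∀ a, 0 ≤ μ a) ∧ mass μ = 1 ∧
      ∀ g ∈ S, nrm (μ.mapDomain (fun b => g * b) - μ) ≤ ε := by
  classical
  obtain ⟨D, hD, hF⟩ := folner G S (ε / 2) (by positivity)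
  have hc : (0 : ℝ) < D.card := by exact_mod_cast Finset.card_pos.2 hD
  let μ : G →₀ ℝ := ∑ x ∈ D, Finsupp.single x (D.card : ℝ)⁻¹
  have hμ : ∀ a, μ a = if a ∈ D then (D.card : ℝ)⁻¹ else 0 := by
    intro a
    simp only [μ, Finsupp.finsetSum_apply, Finsupp.single_apply]
    rw [Finset.sum_ite_eq' D a fun _ => (D.card : ℝ)⁻¹]
  refine ⟨μ, fun a => ?_, ?_, fun g hg => ?_⟩
  · rw [hμ]
    split_ifs
    · exact inv_nonneg.2 hc.le
    · exact le_rfl
  · simp only [μ, mass_finset_sum, mass_single, Finset.sum_const, nsmul_eq_mul]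
    exact mul_inv_cancel₀ hc.ne'
  · have hν : ∀ a, μ.mapDomain (fun b => g * b) a = if g⁻¹ * a ∈ D then (D.card : ℝ)⁻¹ else 0 := by
      intro a
      have h1 := Finsupp.mapDomain_apply (mul_right_injective g) μ (g⁻¹ * a)
      rw [mul_inv_cancel_left] at h1
      rw [h1, hμ]
    set D' := D.image (fun x => g * x) with hD'
    have hmem : ∀ a, g⁻¹ * a ∈ D ↔ a ∈ D' := by
      intro a
      rw [hD', Finset.mem_image]
      constructor
      · intro h; exact ⟨_, h, mul_inv_cancel_left _ _⟩
      · rintro ⟨x, hx, rfl⟩; rwa [inv_mul_cancel_left]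
    have hcard : D'.card = D.card := Finset.card_image_of_injective _ (mul_right_injective g)
    have h3 : (D \ D').card = (D' \ D).card := by
      have e1 := Finset.card_sdiff_add_card_inter D D'
      have e2 := Finset.card_sdiff_add_card_inter D' D
      rw [Finset.inter_comm] at e2
      omega
    have hsup : (μ.mapDomain (fun b => g * b) - μ).support ⊆ (D' \ D) ∪ (D \ D') := by
      intro a ha
      rw [Finsupp.mem_support_iff, Finsupp.sub_apply, hν, hμ, if_congr (hmem a) rfl rfl] at ha
      rw [Finset.mem_union, Finset.mem_sdiff, Finset.mem_sdiff]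
      by_cases h1 : a ∈ D' <;> by_cases h2 : a ∈ D
      · rw [if_pos h1, if_pos h2, sub_self] at ha; exact absurd rfl ha
      · exact Or.inl ⟨h1, h2⟩
      · exact Or.inr ⟨h2, h1⟩
      · rw [if_neg h1, if_neg h2, sub_self] at ha; exact absurd rfl ha
    rw [nrm_eq_sum hsup]
    have h4 : ∀ a ∈ (D' \ D) ∪ (D \ D'),
        |(μ.mapDomain (fun b => g * b) - μ) a| ≤ (D.card : ℝ)⁻¹ := by
      intro a _
      rw [Finsupp.sub_apply, hν, hμ]
      have := inv_nonneg.2 hc.le
      split_ifs
      · rw [sub_self, abs_zero]; exact this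
      · rw [sub_zero, abs_of_nonneg this]
      · rw [zero_sub, abs_neg, abs_of_nonneg this]
      · rw [sub_self, abs_zero]; exact this
    refine (Finset.sum_le_card_nsmul _ _ _ h4).trans ?_
    rw [nsmul_eq_mul]
    have h5 : (((D' \ D) ∪ (D \ D')).card : ℝ) ≤ (D' \ D).card + (D' \ D).card := by
      exact_mod_cast (Finset.card_union_le _ _).trans (by rw [h3])
    have h6 := hF g hg
    rw [← div_eq_mul_inv, div_le_iff₀ hc]
    linarith

section Mean

variable {G : Type*} [CommGroup G]

/-- averages -/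
def avg (D : Finset G) (f : G → ℝ) : ℝ := (∑ x ∈ D, f x) / D.card

omit [CommGroup G] in
theorem avg_add (D : Finset G) (f g : G → ℝ) : avg D (f + g) = avg D f + avg D g := by
  unfold avg
  simp only [Pi.add_apply, Finset.sum_add_distrib, add_div]

omit [CommGroup G] in
theorem avg_nonneg (D : Finset G) {f : G → ℝ} (hf : ∀ h, 0 ≤ f h) : 0 ≤ avg D f :=
  div_nonneg (Finset.sum_nonneg fun x _ => hf x) (Nat.cast_nonneg _)

omit [CommGroup G] in
theorem avg_const {D : Finset G} (hD : D.Nonempty) (c : ℝ) : avg D (fun _ => c) = c := by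
  unfold avg
  rw [Finset.sum_const, nsmul_eq_mul]
  have : (D.card : ℝ) ≠ 0 := by
    have := Finset.card_pos.2 hD
    positivity
  field_simp

omit [CommGroup G] in
theorem avg_abs {D : Finset G} (hD : D.Nonempty) {f : G → ℝ} {K : ℝ} (hf : ∀ h, |f h| ≤ K) :
    |avg D f| ≤ K := by
  have hc : (0 : ℝ) < D.card := by exact_mod_cast Finset.card_pos.2 hD
  unfold avg
  rw [abs_div, abs_of_pos hc, div_le_iff₀ hc]
  refine (Finset.abs_sum_le_sum_abs _ _).trans ?_
  refine (Finset.sum_le_card_nsmul _ _ _ fun x _ => hf x).trans (le_of_eq ?_)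
  rw [nsmul_eq_mul, mul_comm]

open Classical in
theorem avg_shift {D : Finset G} (hD : D.Nonempty) {f : G → ℝ} {K : ℝ} (hf : ∀ h, |f h| ≤ K)
    (k : G) {δ : ℝ}
    (hb : ((D.image (fun x => k * x) \ D).card : ℝ) < δ * D.card) :
    |avg D (fun h => f (k * h)) - avg D f| ≤ 2 * K * δ := by
  have hc : (0 : ℝ) < D.card := by exact_mod_cast Finset.card_pos.2 hD
  have hK : 0 ≤ K := (abs_nonneg _).trans (hf 1)
  set D' := D.image (fun x => k * x) with hD'
  have h1 : ∑ x ∈ D, f (k * x) = ∑ x ∈ D', f x :=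
    (Finset.sum_image fun x _ y _ h => mul_left_cancel h).symm
  have h2 : ∑ x ∈ D', f x - ∑ x ∈ D, f x = ∑ x ∈ D' \ D, f x - ∑ x ∈ D \ D', f x := by
    have e1 := Finset.sum_inter_add_sum_sdiff D' D f
    have e2 := Finset.sum_inter_add_sum_sdiff D D' f
    rw [Finset.inter_comm] at e2
    linarith
  have h4 : (D \ D').card = (D' \ D).card := by
    have hcard : D'.card = D.card := Finset.card_image_of_injective _ (mul_right_injective k)
    have e1 := Finset.card_sdiff_add_card_inter D D'
    have e2 := Finset.card_sdiff_add_card_inter D' D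
    rw [Finset.inter_comm] at e2
    omega
  have h5 : ∀ E : Finset G, |∑ x ∈ E, f x| ≤ K * E.card := by
    intro E
    refine (Finset.abs_sum_le_sum_abs _ _).trans ?_
    refine (Finset.sum_le_card_nsmul _ _ _ fun x _ => hf x).trans (le_of_eq ?_)
    rw [nsmul_eq_mul, mul_comm]
  have h6 : avg D (fun h => f (k * h)) - avg D f =
      (∑ x ∈ D' \ D, f x - ∑ x ∈ D \ D', f x) / D.card := by
    unfold avg
    rw [← sub_div, h1, h2]
  rw [h6, abs_div, abs_of_pos hc, div_le_iff₀ hc]
  have h7 := (abs_sub (∑ x ∈ D' \ D, f x) (∑ x ∈ D \ D', f x))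
  have h8 := h5 (D' \ D)
  have h9 := h5 (D \ D')
  rw [h4] at h9
  have h10 : K * ((D' \ D).card : ℝ) ≤ K * (δ * D.card) := mul_le_mul_of_nonneg_left hb.le hK
  linarith

/-- Commutative groups are amenable. -/
theorem isAmenable_of_commGroup (G : Type*) [CommGroup G] : IsAmenable G := by
  classical
  have h1 : ∀ i : Finset G × ℕ, ∃ D : Finset G, D.Nonempty ∧
      ∀ g ∈ i.1, (((D.image (fun x => g * x)) \ D).card : ℝ) < (1 / ((i.2 : ℝ) + 1)) * D.card :=
    fun i => folner G _ _ (by positivity)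
  choose D hD hDb using h1
  let U : Ultrafilter (Finset G × ℕ) := Ultrafilter.of atTop
  have hU : (U : Filter (Finset G × ℕ)) ≤ atTop := Ultrafilter.of_le _
  have hlim : ∀ f : G → ℝ, (∃ K, ∀ h, |f h| ≤ K) →
      ∃ l, Tendsto (fun i => avg (D i) f) U (𝓝 l) := by
    rintro f ⟨K, hK⟩
    have hc : IsCompact (Set.Icc (-K) K) := isCompact_Icc
    have h2 : ((U.map fun i => avg (D i) f : Ultrafilter ℝ) : Filter ℝ) ≤ 𝓟 (Set.Icc (-K) K) := by
      rw [le_principal_iff, Ultrafilter.coe_map, mem_map]
      exact Filter.univ_mem' fun i => abs_le.1 (avg_abs (hD i) hK)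
    obtain ⟨l, _, hl⟩ := hc.ultrafilter_le_nhds _ h2
    exact ⟨l, hl⟩
  let m : (G → ℝ) → ℝ := fun f => limUnder (U : Filter (Finset G × ℕ)) fun i => avg (D i) f
  have hm : ∀ f : G → ℝ, (∃ K, ∀ h, |f h| ≤ K) → Tendsto (fun i => avg (D i) f) U (𝓝 (m f)) :=
    fun f hf => tendsto_nhds_limUnder (hlim f hf)
  refine ⟨m, fun f g hf hg => ?_, fun f hf h0 => ?_, fun c => ?_, fun f k hf => ?_⟩
  · have hfg : ∃ K, ∀ h, |(f + g) h| ≤ K := by
      obtain ⟨K, hK⟩ := hf
      obtain ⟨K', hK'⟩ := hg
      exact ⟨K + K', fun h => (abs_add_le _ _).trans (add_le_add (hK h) (hK' h))⟩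
    refine tendsto_nhds_unique (hm _ hfg) ?_
    have h2 := (hm f hf).add (hm g hg)
    refine h2.congr fun i => (avg_add _ _ _).symm
  · exact ge_of_tendsto' (hm f hf) fun i => avg_nonneg _ h0
  · have h2 : ∃ K, ∀ _ : G, |c| ≤ K := ⟨|c|, fun _ => le_rfl⟩
    refine tendsto_nhds_unique (hm _ h2) ?_
    exact tendsto_const_nhds.congr fun i => (avg_const (hD i) c).symm
  · obtain ⟨K, hK⟩ := hf
    have hf' : ∃ K, ∀ h, |f (k * h)| ≤ K := ⟨K, fun h => hK _⟩
    have h2 := (hm _ hf').sub (hm f ⟨K, hK⟩)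
    have h3 : Tendsto (fun i : Finset G × ℕ => avg (D i) (fun h => f (k * h)) - avg (D i) f)
        U (𝓝 0) := by
      have h4 : Tendsto (fun i : Finset G × ℕ => 2 * K * (1 / ((i.2 : ℝ) + 1))) atTop (𝓝 0) := by
        have h5 : Tendsto (fun i : Finset G × ℕ => i.2) atTop atTop := by
          rw [← prod_atTop_atTop_eq]
          exact tendsto_snd
        have h6 := (tendsto_one_div_add_atTop_nhds_zero_nat (𝕜 := ℝ)).comp h5
        have h7 := h6.const_mul (2 * K)
        rw [mul_zero] at h7
        exact h7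
      refine squeeze_zero_norm' ?_ (h4.mono_left hU)
      refine hU (eventually_atTop.2 ⟨({k}, 0), fun i hi => ?_⟩)
      rw [Real.norm_eq_abs]
      exact avg_shift (hD i) hK k (hDb i k (hi.1 (Finset.mem_singleton_self k)))
    have h8 := tendsto_nhds_unique h2 h3
    exact sub_eq_zero.1 h8

end Mean

/-- Groups with commuting elements are amenable. -/
theorem isAmenable_of_comm (G : Type*) [Group G] (hc : ∀ a b : G, a * b = b * a) :
    IsAmenable G := by
  let _ : CommGroup G := { (inferInstance : Group G) with mul_comm := hc }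
  exact isAmenable_of_commGroup G

end Vale.Agent.P184.LA
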