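import Vale.Agent.P184.R2.H270.Herm

/-!
# Fields on `GL_N(ℚ)` from the finite places: the flow
-/

noncomputable section

namespace Vale.Agent.P184.LA

open Matrix

/-- `d * x` is an integer. -/
def Den (d : ℤ) (x : ℚ) : Prop := ∃ n : ℤ, (d : ℚ) * x = n

theorem exists_den {ι : Type*} (s : Finset ι) (f : ι → ℚ) :
    ∃ d : ℤ, 0 < d ∧ ∀ i ∈ s, Den d (f i) := by
  obtain ⟨b, hb⟩ := IsLocalization.exist_integer_multiples (nonZeroDivisors ℤ) s f
  refine ⟨|(b : ℤ)|, abs_pos.2 (nonZeroDivisors.ne_zero b.2), fun i hi => ?_⟩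
  obtain ⟨n, hn⟩ := hb i hi
  have h2 : ((algebraMap ℤ ℚ) n : ℚ) = (b : ℤ) • f i := hn
  rw [zsmul_eq_mul] at h2
  rcases abs_choice (b : ℤ) with h | h
  · exact ⟨n, by rw [h]; exact h2.symm⟩
  · refine ⟨-n, ?_⟩
    rw [h, Int.cast_neg, neg_mul, Int.cast_neg]
    exact congrArg _ h2.symm

theorem Den.mul {d e : ℤ} {x y : ℚ} (hx : Den d x) (hy : Den e y) : Den (d * e) (x * y) := by
  obtain ⟨n, hn⟩ := hx
  obtain ⟨m, hm⟩ := hy
  refine ⟨n * m, ?_⟩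
  push_cast
  rw [← hn, ← hm]
  ring

theorem finite_den (d : ℤ) (hd : d ≠ 0) :
    {x : ℚ | x ≠ 0 ∧ Den d x ∧ Den d x⁻¹}.Finite := by
  refine ((Set.finite_Icc (-(d * d)) (d * d)).image fun n : ℤ => (n : ℚ) / d).subset ?_
  rintro x ⟨hx, ⟨n, hn⟩, ⟨m, hm⟩⟩
  have hd' : (d : ℚ) ≠ 0 := by exact_mod_cast hd
  refine ⟨n, ?_, ?_⟩
  · have h1 : ((n * m : ℤ) : ℚ) = ((d * d : ℤ) : ℚ) := by
      push_cast
      rw [← hn, ← hm]
      field_simp
    have h2 : n * m = d * d := by exact_mod_cast h1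
    have hm0 : m ≠ 0 := by
      rintro rfl
      rw [mul_zero] at h2
      exact hd (mul_self_eq_zero.1 h2.symm)
    have h3 : |n| ≤ d * d := by
      have h4 : |n| * |m| = d * d := by rw [← abs_mul, h2, abs_mul_self]
      have h5 : 1 ≤ |m| := Int.one_le_abs hm0
      nlinarith [abs_nonneg n]
    exact abs_le.1 h3
  · show (n : ℚ) / d = x
    rw [← hn]
    field_simp

/-- The quotient `GL_N(ℚ) / GL_N(ℤ)`. -/
abbrev QV (N : ℕ) : Type := GLn N ℚ ⧸ VZ N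

/-- Point masses on `GL_N(ℚ) / GL_N(ℤ)`. -/
def Φf {N : ℕ} (x : GLn N ℚ) : QV N →₀ ℝ := Finsupp.single (QuotientGroup.mk x) 1

theorem Φf_ne {N : ℕ} {x : GLn N ℚ} {z : QV N} (h : Φf x z ≠ 0) : QuotientGroup.mk x = z := by
  classical
  by_contra h2
  exact h (by rw [Φf, Finsupp.single_apply, if_neg h2])

variable {N : ℕ}

theorem mem_VZ_of (g : GLn N ℚ) (h1 : ∀ i j, ∃ n : ℤ, g.1 i j = n)
    (h2 : ∀ i j, ∃ n : ℤ, g⁻¹.1 i j = n) : g ∈ VZ N := ⟨mem_IM.2 h1, mem_IM.2 h2⟩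

/-- Contraction at the finite places. -/
theorem contract_fin {d e : ℤ} (hd : d ≠ 0) (he : e ≠ 0) (r : GLn N ℚ) (hr : Low r.1)
    (h1 : ∀ i j, Den d (r.1 i j)) (h2 : ∀ i j, Den d (r⁻¹.1 i j)) (b : Fin N → ℚ)
    (hbe : ∀ i j, Den e (b j / b i)) {t u : Fin N → ℚ} (ht : ∀ i, t i ≠ 0)
    (hu : ∀ i, u i ≠ 0) (htb : ∀ i, t i = ((d * d * e : ℤ) : ℚ)⁻¹ ^ (i : ℕ) * b i)
    (hut : ∀ i, u i = r.1 i i * t i) : (dgl u hu)⁻¹ * r * dgl t ht ∈ VZ N := by
  set c : ℤ := d * d * e with hc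
  have hc0 : (c : ℚ) ≠ 0 := by
    rw [hc]
    push_cast
    have : (d : ℚ) ≠ 0 := by exact_mod_cast hd
    have : (e : ℚ) ≠ 0 := by exact_mod_cast he
    positivity
  have hdq : (d : ℚ) ≠ 0 := by exact_mod_cast hd
  have hdiag := fun i => hr.diag_ne_zero i
  have hdi : ∀ i, (r.1 i i)⁻¹ = r⁻¹.1 i i := fun i =>
    inv_eq_of_mul_eq_one_right (hr.diag_mul_inv i)
  -- the powers
  have hpow : ∀ i j : Fin N, j < i → ∃ m : ℤ,
      (((c : ℚ)⁻¹ ^ (i : ℕ))⁻¹ * ((c : ℚ)⁻¹ ^ (j : ℕ))) = (d * d : ℚ) * (e * m : ℚ) := by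
    intro i j hij
    refine ⟨c ^ ((i : ℕ) - j - 1), ?_⟩
    have h3 : (i : ℕ) = j + (i - j - 1) + 1 := by
      have : (j : ℕ) < i := hij
      omega
    have h4 : (((c : ℚ)⁻¹ ^ (i : ℕ))⁻¹ * ((c : ℚ)⁻¹ ^ (j : ℕ))) = (c : ℚ) ^ ((i : ℕ) - j - 1) * c := by
      rw [inv_pow, inv_inv, inv_pow]
      conv_lhs => rw [h3]
      rw [pow_succ, pow_add]
      field_simp
    rw [h4]
    push_cast
    rw [hc]
    push_cast
    ring
  refine mem_VZ_of _ (fun i j => ?_) fun i j => ?_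
  · rw [dgl_conj]
    rcases lt_trichotomy i j with h | h | h
    · exact ⟨0, by rw [hr i j h]; simp⟩
    · refine ⟨1, ?_⟩
      rw [← h, hut]
      have := hdiag i
      have := ht i
      field_simp
      simp
    · obtain ⟨m, hm⟩ := hpow i j h
      obtain ⟨n₁, hn₁⟩ := h2 i i
      obtain ⟨n₂, hn₂⟩ := h1 i j
      obtain ⟨n₃, hn₃⟩ := hbe i j
      refine ⟨n₁ * n₂ * n₃ * m, ?_⟩
      have h5 : (u i)⁻¹ * r.1 i j * t j = ((((c : ℚ)⁻¹ ^ (i : ℕ))⁻¹ * ((c : ℚ)⁻¹ ^ (j : ℕ)))) *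
          ((r.1 i i)⁻¹ * r.1 i j * (b j / b i)) := by
        rw [hut, htb, htb, mul_inv, mul_inv]
        ring
      rw [h5, hm, hdi]
      generalize r⁻¹.1 i i = x₁ at hn₁ ⊢
      generalize r.1 i j = x₂ at hn₂ ⊢
      push_cast
      rw [← hn₁, ← hn₂, ← hn₃]
      ring
  · have h6 : ((dgl u hu)⁻¹ * r * dgl t ht)⁻¹ = (dgl t ht)⁻¹ * r⁻¹ * dgl u hu := by group
    rw [h6, dgl_conj]
    rcases lt_trichotomy i j with h | h | h
    · exact ⟨0, by rw [hr.inv i j h]; simp⟩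
    · refine ⟨1, ?_⟩
      rw [← h, hut, ← hdi]
      have := hdiag i
      have := ht i
      field_simp
      simp
    · obtain ⟨m, hm⟩ := hpow i j h
      obtain ⟨n₁, hn₁⟩ := h1 j j
      obtain ⟨n₂, hn₂⟩ := h2 i j
      obtain ⟨n₃, hn₃⟩ := hbe i j
      refine ⟨n₁ * n₂ * n₃ * m, ?_⟩
      have h5 : (t i)⁻¹ * r⁻¹.1 i j * u j = ((((c : ℚ)⁻¹ ^ (i : ℕ))⁻¹ * ((c : ℚ)⁻¹ ^ (j : ℕ)))) *
          (r.1 j j * r⁻¹.1 i j * (b j / b i)) := by
        rw [hut, htb, htb, mul_inv]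
        ring
      rw [h5, hm]
      generalize r⁻¹.1 i j = x₁ at hn₂ ⊢
      generalize r.1 j j = x₂ at hn₁ ⊢
      push_cast
      rw [← hn₁, ← hn₂, ← hn₃]
      ring

/-- Fields from the finite places. -/
theorem fld_fin (S : Set (GLn N ℚ)) (hS : S.Finite) {ε : ℝ} (hε : 0 < ε) :
    ∃ D : ℤ, 0 < D ∧ Fld (GLn N ℚ) S ε {g | ∀ i j, Den D (g.1 i j)} := by
  classical
  -- a common denominator
  obtain ⟨d, hd0, hd⟩ := exists_den (hS.toFinset ×ˢ (Finset.univ : Finset (Fin N × Fin N × Bool)))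
    fun x => if x.2.2.2 then x.1.1 x.2.1 x.2.2.1 else x.1⁻¹.1 x.2.1 x.2.2.1
  have hdS : ∀ s ∈ S, ∀ i j, Den d (s.1 i j) := fun s hs i j => by
    have := hd (s, i, j, true) (Finset.mem_product.2 ⟨hS.mem_toFinset.2 hs, Finset.mem_univ _⟩)
    simpa using this
  have hdS' : ∀ s ∈ S, ∀ i j, Den d (s⁻¹.1 i j) := fun s hs i j => by
    have := hd (s, i, j, false) (Finset.mem_product.2 ⟨hS.mem_toFinset.2 hs, Finset.mem_univ _⟩)
    simpa using this
  -- the normal forms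
  choose k hkV hk using exists_hnf (N := N)
  let h : GLn N ℚ → GLn N ℚ := fun p => p * k p
  let r : GLn N ℚ → GLn N ℚ → GLn N ℚ := fun p s => (k p)⁻¹ * s * k (p * s)
  have hhr : ∀ p s, h (p * s) = h p * r p s := fun p s => by
    simp only [h, r]
    group
  have hrl : ∀ p s, Low (r p s).1 := fun p s => by
    have h1 : r p s = (h p)⁻¹ * h (p * s) := by rw [hhr]; group
    rw [h1, Units.val_mul]
    exact (Low.inv (hk p)).mul (hk (p * s))
  have hmulV : ∀ (x : GLn N ℚ), (∀ i j, Den d (x.1 i j)) → ∀ a ∈ VZ N, ∀ b ∈ VZ N,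
      ∀ i j, Den d ((a * x * b).1 i j) := by
    intro x hx a ha b hb i j
    have h1 : (d : ℚ) • x.1 ∈ IM N := mem_IM.2 fun i j => by
      obtain ⟨n, hn⟩ := hx i j
      exact ⟨n, by rw [Matrix.smul_apply, smul_eq_mul, hn]⟩
    have h2 := (IM N).mul_mem ((IM N).mul_mem ha.1 h1) hb.1
    rw [Matrix.mul_smul, Matrix.smul_mul] at h2
    obtain ⟨n, hn⟩ := mem_IM.1 h2 i j
    rw [Matrix.smul_apply, smul_eq_mul] at hn
    exact ⟨n, hn⟩
  have hr1 : ∀ s ∈ S, ∀ p i j, Den d ((r p s).1 i j) := fun s hs p i j =>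
    hmulV s (hdS s hs) _ ((VZ N).inv_mem (hkV p)) _ (hkV _) i j
  have hr2 : ∀ s ∈ S, ∀ p i j, Den d ((r p s)⁻¹.1 i j) := fun s hs p i j => by
    have h1 : (r p s)⁻¹ = (k (p * s))⁻¹ * s⁻¹ * k p := by
      simp only [r]
      group
    rw [h1]
    exact hmulV s⁻¹ (hdS' s hs) _ ((VZ N).inv_mem (hkV _)) _ (hkV _) i j
  -- the diagonal parts
  have hfin : {a : (Fin N → ℚ)ˣ | ∀ i, a.1 i ≠ 0 ∧ Den d (a.1 i) ∧ Den d (a.1 i)⁻¹}.Finite := by
    have h1 : (Set.pi Set.univ fun _ : Fin N => {x : ℚ | x ≠ 0 ∧ Den d x ∧ Den d x⁻¹}).Finite :=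
      Set.Finite.pi fun _ => finite_den d hd0.ne'
    refine (h1.preimage (f := fun a : (Fin N → ℚ)ˣ => a.1) ?_).subset ?_
    · exact Units.val_injective.injOn
    · intro a ha i _
      exact ha i
  obtain ⟨μ₀, hμ0, hμ1, hμ2⟩ := exists_almost_inv (Fin N → ℚ)ˣ hfin.toFinset hε
  have hne : ∀ (a : (Fin N → ℚ)ˣ) i, a.1 i ≠ 0 := fun a i h0 => by
    have h1 := congrFun a.mul_inv i
    rw [Pi.mul_apply, h0, zero_mul] at h1
    exact zero_ne_one h1
  obtain ⟨e, he0, he⟩ := exists_den (μ₀.support ×ˢ (Finset.univ : Finset (Fin N × Fin N × Fin 3)))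
    fun x => if x.2.2.2 = 0 then x.1.1 x.2.2.1 / x.1.1 x.2.1 else
      if x.2.2.2 = 1 then x.1.1 x.2.1 else (x.1.1 x.2.1)⁻¹
  have he1 : ∀ a ∈ μ₀.support, ∀ i j, Den e (a.1 j / a.1 i) := fun a ha i j => by
    have := he (a, i, j, 0) (Finset.mem_product.2 ⟨ha, Finset.mem_univ _⟩)
    simpa using this
  have he2 : ∀ a ∈ μ₀.support, ∀ i, Den e (a.1 i) := fun a ha i => by
    have := he (a, i, i, 1) (Finset.mem_product.2 ⟨ha, Finset.mem_univ _⟩)
    simpa using this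
  have he3 : ∀ a ∈ μ₀.support, ∀ i, Den e (a.1 i)⁻¹ := fun a ha i => by
    have := he (a, i, i, 2) (Finset.mem_product.2 ⟨ha, Finset.mem_univ _⟩)
    simpa using this
  set c : ℤ := d * d * e with hc
  have hc1 : 0 < c := by positivity
  have hcq : (c : ℚ) ≠ 0 := by exact_mod_cast hc1.ne'
  have htne : ∀ (a : (Fin N → ℚ)ˣ) (i : Fin N), (c : ℚ)⁻¹ ^ (i : ℕ) * a.1 i ≠ 0 := fun a i =>
    mul_ne_zero (pow_ne_zero _ (inv_ne_zero hcq)) (hne a i)
  let D : (Fin N → ℚ)ˣ → GLn N ℚ := fun a => dgl (fun i => (c : ℚ)⁻¹ ^ (i : ℕ) * a.1 i) (htne a)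
  refine ⟨c ^ N * e * e, by positivity, ?_⟩
  have key := fld_of_flow (S := S) μ₀ hμ0 hμ1 D Φf (fun x z => by
      rw [Φf, Finsupp.single_apply]
      split_ifs
      · exact zero_le_one
      · exact le_rfl) (fun x => mass_single _ _) h (ε₁ := ε) (ε₂ := 0) ?_
      (E := {g | ∀ i j, Den (c ^ N * e * e) (g.1 i j)}) ?_
  · rwa [zero_add] at key
  · intro s hs p
    let δ : (Fin N → ℚ)ˣ :=
      { val := fun i => (r p s).1 i i
        inv := fun i => ((r p s).1 i i)⁻¹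
        val_inv := funext fun i => mul_inv_cancel₀ ((hrl p s).diag_ne_zero i)
        inv_val := funext fun i => inv_mul_cancel₀ ((hrl p s).diag_ne_zero i) }
    refine ⟨δ, hμ2 δ ?_, fun b hb => ?_⟩
    · rw [Set.Finite.mem_toFinset]
      intro i
      refine ⟨(hrl p s).diag_ne_zero i, hr1 s hs p i i, ?_⟩
      show Den d ((r p s).1 i i)⁻¹
      have h1 : ((r p s).1 i i)⁻¹ = (r p s)⁻¹.1 i i :=
        inv_eq_of_mul_eq_one_right ((hrl p s).diag_mul_inv i)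
      rw [h1]
      exact hr2 s hs p i i
    · have hv : (D (δ * b))⁻¹ * r p s * D b ∈ VZ N := by
        refine contract_fin hd0.ne' he0.ne' (r p s) (hrl p s) (hr1 s hs p) (hr2 s hs p) b.1
          (he1 b hb) (htne b) (htne (δ * b)) (fun i => rfl) fun i => ?_
        show (c : ℚ)⁻¹ ^ (i : ℕ) * ((r p s).1 i i * b.1 i) = _
        ring
      have h1 : Φf (h (p * s) * D b) = Φf (h p * D (δ * b)) := by
        rw [Φf, Φf, hhr]
        congr 1
        refine (QuotientGroup.eq.2 ?_).symm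
        have h2 : (h p * D (δ * b))⁻¹ * (h p * r p s * D b) = (D (δ * b))⁻¹ * r p s * D b := by
          group
        rw [h2]
        exact hv
      rw [h1, sub_self, nrm_zero]
  · intro p q b hb b' hb' z hp hq i j
    have h1 : (h p * D b)⁻¹ * (h q * D b') ∈ VZ N :=
      QuotientGroup.eq.1 ((Φf_ne hp).trans (Φf_ne hq).symm)
    set v := (h p * D b)⁻¹ * (h q * D b') with hv
    have h2 : p⁻¹ * q = k p * (D b * v * (D b')⁻¹) * (k q)⁻¹ := by
      simp only [hv, h]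
      group
    rw [h2]
    have hDb : ((c ^ N * e : ℤ) : ℚ) • (D b).1 ∈ IM N := mem_IM.2 fun i j => by
      rw [Matrix.smul_apply, smul_eq_mul]
      show ∃ n : ℤ, _ * diagonal (fun i : Fin N => (c : ℚ)⁻¹ ^ (i : ℕ) * b.1 i) i j = n
      rw [diagonal_apply]
      split_ifs with hij
      · obtain ⟨n, hn⟩ := he2 b hb i
        refine ⟨c ^ (N - i) * n, ?_⟩
        have h3 : (c : ℚ) ^ N * (c : ℚ)⁻¹ ^ (i : ℕ) = (c : ℚ) ^ (N - (i : ℕ)) := by
          rw [inv_pow, ← div_eq_mul_inv, div_eq_iff (pow_ne_zero _ hcq), ← pow_add]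
          congr 1
          have := i.2
          omega
        push_cast
        rw [← h3, ← hn]
        ring
      · exact ⟨0, by simp⟩
    have hDb' : (e : ℚ) • ((D b')⁻¹).1 ∈ IM N := mem_IM.2 fun i j => by
      rw [Matrix.smul_apply, smul_eq_mul]
      show ∃ n : ℤ, _ * diagonal (fun i : Fin N => ((c : ℚ)⁻¹ ^ (i : ℕ) * b'.1 i)⁻¹) i j = n
      rw [diagonal_apply]
      split_ifs with hij
      · obtain ⟨n, hn⟩ := he3 b' hb' i
        refine ⟨c ^ (i : ℕ) * n, ?_⟩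
        rw [mul_inv, inv_pow, inv_inv]
        push_cast
        rw [← hn]
        ring
      · exact ⟨0, by simp⟩
    have h4 := (IM N).mul_mem ((IM N).mul_mem (hkV p).1
      ((IM N).mul_mem ((IM N).mul_mem hDb h1.1) hDb')) ((VZ N).inv_mem (hkV q)).1
    obtain ⟨n, hn⟩ := mem_IM.1 h4 i j
    refine ⟨n, ?_⟩
    rw [← hn]
    simp only [Units.val_mul, Matrix.mul_smul, Matrix.smul_mul, Matrix.smul_apply, smul_eq_mul]
    push_cast
    ring

end Vale.Agent.P184.LA
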