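import Mathlib

/-!
# Fields of probability measures on groups

A field over a group `Γ` is a family of finitely supported probability measures, indexed by `Γ`,
on an auxiliary set, which varies slowly under right translation.
-/

noncomputable section

namespace Vale.Agent.P184.LA

variable {X Y Z : Type*}

/-- The `ℓ¹`-norm. -/
def nrm (f : X →₀ ℝ) : ℝ := f.sum fun _ r => |r|

theorem nrm_nonneg (f : X →₀ ℝ) : 0 ≤ nrm f := Finsupp.sum_nonneg fun _ _ => abs_nonneg _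

@[simp] theorem nrm_zero : nrm (0 : X →₀ ℝ) = 0 := Finsupp.sum_zero_index

theorem nrm_eq_sum {f : X →₀ ℝ} {s : Finset X} (h : f.support ⊆ s) :
    nrm f = ∑ x ∈ s, |f x| := Finsupp.sum_of_support_subset f h _ fun _ _ => abs_zero

theorem nrm_single (x : X) (r : ℝ) : nrm (Finsupp.single x r) = |r| :=
  Finsupp.sum_single_index abs_zero

theorem nrm_add (f g : X →₀ ℝ) : nrm (f + g) ≤ nrm f + nrm g := by
  classical
  have h1 : f.support ⊆ f.support ∪ g.support := Finset.subset_union_left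
  have h2 : g.support ⊆ f.support ∪ g.support := Finset.subset_union_right
  rw [nrm_eq_sum h1, nrm_eq_sum h2, nrm_eq_sum (Finsupp.support_add (g₁ := f) (g₂ := g)),
    ← Finset.sum_add_distrib]
  exact Finset.sum_le_sum fun x _ => abs_add_le _ _

theorem nrm_neg (f : X →₀ ℝ) : nrm (-f) = nrm f := by
  rw [nrm_eq_sum (s := f.support) (by rw [Finsupp.support_neg]), nrm_eq_sum (s := f.support) le_rfl]
  exact Finset.sum_congr rfl fun x _ => abs_neg _

theorem nrm_sub (f g : X →₀ ℝ) : nrm (f - g) ≤ nrm f + nrm g := by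
  rw [sub_eq_add_neg, ← nrm_neg g]
  exact nrm_add _ _

theorem nrm_sub_comm (f g : X →₀ ℝ) : nrm (f - g) = nrm (g - f) := by
  rw [← nrm_neg, neg_sub]

theorem nrm_smul (c : ℝ) (f : X →₀ ℝ) : nrm (c • f) = |c| * nrm f := by
  rw [nrm_eq_sum (s := f.support) Finsupp.support_smul, nrm_eq_sum (s := f.support) le_rfl,
    Finset.mul_sum]
  exact Finset.sum_congr rfl fun x _ => by rw [Finsupp.smul_apply, smul_eq_mul, abs_mul]

theorem nrm_sum {ι : Type*} (s : Finset ι) (f : ι → X →₀ ℝ) :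
    nrm (∑ i ∈ s, f i) ≤ ∑ i ∈ s, nrm (f i) := by
  classical
  induction s using Finset.induction_on with
  | empty => simp
  | insert a s ha ih =>
    rw [Finset.sum_insert ha, Finset.sum_insert ha]
    exact (nrm_add _ _).trans (add_le_add le_rfl ih)

theorem abs_le_nrm (f : X →₀ ℝ) (x : X) : |f x| ≤ nrm f := by
  classical
  rw [nrm_eq_sum (s := insert x f.support) (Finset.subset_insert _ _)]
  exact Finset.single_le_sum (f := fun y => |f y|) (fun _ _ => abs_nonneg _)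
    (Finset.mem_insert_self _ _)

/-- The total mass. -/
def mass (f : X →₀ ℝ) : ℝ := f.sum fun _ r => r

theorem mass_eq_sum {f : X →₀ ℝ} {s : Finset X} (h : f.support ⊆ s) :
    mass f = ∑ x ∈ s, f x := Finsupp.sum_of_support_subset f h _ fun _ _ => rfl

theorem mass_single (x : X) (r : ℝ) : mass (Finsupp.single x r) = r :=
  Finsupp.sum_single_index rfl

theorem mass_add (f g : X →₀ ℝ) : mass (f + g) = mass f + mass g :=
  Finsupp.sum_add_index' (fun _ => rfl) fun _ _ _ => rfl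

theorem mass_smul (c : ℝ) (f : X →₀ ℝ) : mass (c • f) = c * mass f := by
  rw [mass_eq_sum (s := f.support) Finsupp.support_smul, mass_eq_sum (s := f.support) le_rfl,
    Finset.mul_sum]
  exact Finset.sum_congr rfl fun x _ => by rw [Finsupp.smul_apply, smul_eq_mul]

theorem mass_finset_sum {ι : Type*} (s : Finset ι) (f : ι → X →₀ ℝ) :
    mass (∑ i ∈ s, f i) = ∑ i ∈ s, mass (f i) := by
  classical
  induction s using Finset.induction_on with
  | empty => exact Finsupp.sum_zero_index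
  | insert a s ha ih => rw [Finset.sum_insert ha, Finset.sum_insert ha, mass_add, ih]

theorem nrm_eq_mass {f : X →₀ ℝ} (h : ∀ x, 0 ≤ f x) : nrm f = mass f := by
  rw [nrm_eq_sum (s := f.support) le_rfl, mass_eq_sum (s := f.support) le_rfl]
  exact Finset.sum_congr rfl fun x _ => abs_of_nonneg (h x)

theorem abs_mass_le (f : X →₀ ℝ) : |mass f| ≤ nrm f := by
  rw [nrm_eq_sum (s := f.support) le_rfl, mass_eq_sum (s := f.support) le_rfl]
  exact Finset.abs_sum_le_sum_abs _ _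

theorem mass_mapDomain (u : X → Y) (f : X →₀ ℝ) : mass (f.mapDomain u) = mass f :=
  Finsupp.sum_mapDomain_index (fun _ => rfl) fun _ _ _ => rfl

theorem nrm_mapDomain (u : X → Y) (f : X →₀ ℝ) : nrm (f.mapDomain u) ≤ nrm f := by
  unfold Finsupp.mapDomain Finsupp.sum
  refine (nrm_sum _ _).trans (le_of_eq ?_)
  rw [nrm_eq_sum (s := f.support) le_rfl]
  exact Finset.sum_congr rfl fun x _ => nrm_single _ _

theorem mapDomain_nonneg (u : X → Y) {f : X →₀ ℝ} (h : ∀ x, 0 ≤ f x) (y : Y) :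
    0 ≤ f.mapDomain u y := by
  unfold Finsupp.mapDomain Finsupp.sum
  rw [Finsupp.finsetSum_apply]
  refine Finset.sum_nonneg fun x _ => ?_
  classical
  rw [Finsupp.single_apply]
  split_ifs
  · exact h x
  · exact le_rfl

theorem exists_of_mapDomain_ne_zero (u : X → Y) {f : X →₀ ℝ} {y : Y}
    (h : f.mapDomain u y ≠ 0) : ∃ x, f x ≠ 0 ∧ u x = y := by
  classical
  unfold Finsupp.mapDomain Finsupp.sum at h
  rw [Finsupp.finsetSum_apply] at h
  obtain ⟨x, hx, h2⟩ := Finset.exists_ne_zero_of_sum_ne_zero h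
  rw [Finsupp.single_apply] at h2
  refine ⟨x, Finsupp.mem_support_iff.1 hx, ?_⟩
  by_contra h3
  exact h2 (if_neg h3)

/-- The product measure. -/
def tens (f : X →₀ ℝ) (g : Y →₀ ℝ) : (X × Y) →₀ ℝ := by
  classical
  exact Finsupp.onFinset (f.support ×ˢ g.support) (fun z => f z.1 * g z.2) fun z hz => by
    rw [Finset.mem_product, Finsupp.mem_support_iff, Finsupp.mem_support_iff]
    exact ⟨left_ne_zero_of_mul hz, right_ne_zero_of_mul hz⟩

theorem tens_apply (f : X →₀ ℝ) (g : Y →₀ ℝ) (z : X × Y) : tens f g z = f z.1 * g z.2 := rfl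

theorem support_tens (f : X →₀ ℝ) (g : Y →₀ ℝ) :
    (tens f g).support ⊆ f.support ×ˢ g.support := by
  intro z hz
  rw [Finsupp.mem_support_iff, tens_apply] at hz
  rw [Finset.mem_product, Finsupp.mem_support_iff, Finsupp.mem_support_iff]
  exact ⟨left_ne_zero_of_mul hz, right_ne_zero_of_mul hz⟩

theorem nrm_tens (f : X →₀ ℝ) (g : Y →₀ ℝ) : nrm (tens f g) = nrm f * nrm g := by
  rw [nrm_eq_sum (support_tens f g), nrm_eq_sum (s := f.support) le_rfl,
    nrm_eq_sum (s := g.support) le_rfl, Finset.sum_mul_sum, Finset.sum_product]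
  exact Finset.sum_congr rfl fun x _ => Finset.sum_congr rfl fun y _ => by
    rw [tens_apply, abs_mul]

theorem mass_tens (f : X →₀ ℝ) (g : Y →₀ ℝ) : mass (tens f g) = mass f * mass g := by
  rw [mass_eq_sum (support_tens f g), mass_eq_sum (s := f.support) le_rfl,
    mass_eq_sum (s := g.support) le_rfl, Finset.sum_mul_sum, Finset.sum_product]
  rfl

theorem tens_sub (f f' : X →₀ ℝ) (g g' : Y →₀ ℝ) :
    tens f g - tens f' g' = tens (f - f') g + tens f' (g - g') := by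
  ext z
  simp only [Finsupp.sub_apply, Finsupp.add_apply, tens_apply]
  ring

/-- There are probability measures `μ p`, `p ∈ Γ`, on a set, which vary by at most `ε` under right
translation by the elements of `S`, such that `μ p` and `μ q` are disjoint unless
`p⁻¹ * q ∈ E`. -/
def Fld (Γ : Type*) [Group Γ] (S : Set Γ) (ε : ℝ) (E : Set Γ) : Prop :=
  ∃ (Z : Type) (μ : Γ → Z →₀ ℝ), (∀ p z, 0 ≤ μ p z) ∧ (∀ p, mass (μ p) = 1) ∧
    (∀ s ∈ S, ∀ p, nrm (μ (p * s) - μ p) ≤ ε) ∧ ∀ p q z, μ p z ≠ 0 → μ q z ≠ 0 → p⁻¹ * q ∈ E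

variable {Γ : Type*} [Group Γ] {S : Set Γ}

theorem Fld.mono {ε ε' : ℝ} {E E' : Set Γ} (h : Fld Γ S ε E) (hε : ε ≤ ε') (hE : E ⊆ E') :
    Fld Γ S ε' E' := by
  obtain ⟨Z, μ, h0, h1, h2, h3⟩ := h
  exact ⟨Z, μ, h0, h1, fun s hs p => (h2 s hs p).trans hε, fun p q z hp hq => hE (h3 p q z hp hq)⟩

theorem Fld.comap {Δ : Type*} [Group Δ] {ε : ℝ} {T : Set Δ} {E : Set Δ} (f : Γ →* Δ)
    (hf : ∀ s ∈ S, f s ∈ T) (h : Fld Δ T ε E) : Fld Γ S ε (f ⁻¹' E) := by
  obtain ⟨Z, μ, h0, h1, h2, h3⟩ := h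
  refine ⟨Z, fun p => μ (f p), fun p => h0 _, fun p => h1 _, fun s hs p => ?_,
    fun p q z hp hq => ?_⟩
  · simp only [map_mul]
    exact h2 _ (hf s hs) _
  · show f (p⁻¹ * q) ∈ E
    rw [map_mul, map_inv]
    exact h3 _ _ z hp hq

/-- Products of fields. -/
theorem Fld.inter {ε ε' : ℝ} {E E' : Set Γ} (h : Fld Γ S ε E) (h' : Fld Γ S ε' E') :
    Fld Γ S (ε + ε') (E ∩ E') := by
  obtain ⟨Z, μ, h0, h1, h2, h3⟩ := h
  obtain ⟨Z', μ', h0', h1', h2', h3'⟩ := h'
  refine ⟨Z × Z', fun p => tens (μ p) (μ' p), fun p z => ?_, fun p => ?_, fun s hs p => ?_,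
    fun p q z hp hq => ?_⟩
  · rw [tens_apply]
    exact mul_nonneg (h0 _ _) (h0' _ _)
  · rw [mass_tens, h1, h1', one_mul]
  · rw [tens_sub]
    refine (nrm_add _ _).trans ?_
    rw [nrm_tens, nrm_tens, nrm_eq_mass (h0' _), h1', mul_one, nrm_eq_mass (h0 _), h1, one_mul]
    exact add_le_add (h2 s hs p) (h2' s hs p)
  · rw [tens_apply] at hp hq
    exact ⟨h3 p q z.1 (left_ne_zero_of_mul hp) (left_ne_zero_of_mul hq),
      h3' p q z.2 (right_ne_zero_of_mul hp) (right_ne_zero_of_mul hq)⟩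

/-- Fields from flows. -/
theorem fld_of_flow {P A : Type*} [Group P] [Mul A] {Z : Type} (μ₀ : A →₀ ℝ)
    (hμ0 : ∀ a, 0 ≤ μ₀ a) (hμ1 : mass μ₀ = 1) (D : A → P) (Φ : P → Z →₀ ℝ)
    (hΦ0 : ∀ x z, 0 ≤ Φ x z) (hΦ1 : ∀ x, mass (Φ x) = 1) (h : Γ → P) {ε₁ ε₂ : ℝ}
    (H : ∀ s ∈ S, ∀ p, ∃ δ : A, nrm (μ₀.mapDomain (fun b => δ * b) - μ₀) ≤ ε₁ ∧
      ∀ b ∈ μ₀.support, nrm (Φ (h (p * s) * D b) - Φ (h p * D (δ * b))) ≤ ε₂)
    {E : Set Γ} (hE : ∀ p q, ∀ b ∈ μ₀.support, ∀ b' ∈ μ₀.support, ∀ z,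
      Φ (h p * D b) z ≠ 0 → Φ (h q * D b') z ≠ 0 → p⁻¹ * q ∈ E) :
    Fld Γ S (ε₂ + ε₁) E := by
  classical
  let ξ : Γ → Z →₀ ℝ := fun p => ∑ b ∈ μ₀.support, μ₀ b • Φ (h p * D b)
  have hξ : ∀ p z, ξ p z = ∑ b ∈ μ₀.support, μ₀ b * Φ (h p * D b) z := fun p z => by
    simp only [ξ, Finsupp.finsetSum_apply, Finsupp.smul_apply, smul_eq_mul]
  have hsup : ∀ p z, ξ p z ≠ 0 → ∃ b ∈ μ₀.support, Φ (h p * D b) z ≠ 0 := fun p z hz => by
    rw [hξ] at hz
    obtain ⟨b, hb, h2⟩ := Finset.exists_ne_zero_of_sum_ne_zero hz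
    exact ⟨b, hb, right_ne_zero_of_mul h2⟩
  have hm : ∑ b ∈ μ₀.support, μ₀ b = 1 := by rw [← hμ1, mass_eq_sum (s := μ₀.support) le_rfl]
  refine ⟨Z, ξ, fun p z => ?_, fun p => ?_, fun s hs p => ?_, fun p q z hp hq => ?_⟩
  · rw [hξ]
    exact Finset.sum_nonneg fun b _ => mul_nonneg (hμ0 b) (hΦ0 _ _)
  · simp only [ξ]
    rw [mass_finset_sum]
    simp only [mass_smul, hΦ1, mul_one]
    exact hm
  · obtain ⟨δ, hδ, hD⟩ := H s hs p
    let ν : A →₀ ℝ := μ₀.mapDomain (fun b => δ * b)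
    let ψ : A → Z →₀ ℝ := fun b => Φ (h p * D b)
    have h1 : ∑ b ∈ μ₀.support, μ₀ b • ψ (δ * b) = ν.sum fun b t => t • ψ b := by
      show _ = (μ₀.mapDomain (fun b => δ * b)).sum fun b t => t • ψ b
      rw [Finsupp.sum_mapDomain_index (h := fun b t => t • ψ b) (fun _ => zero_smul _ _)
        (fun _ _ _ => add_smul _ _ _)]
      rfl
    have h2 : ξ p = μ₀.sum fun b t => t • ψ b := rfl
    have h3 : ν.sum (fun b t => t • ψ b) - μ₀.sum (fun b t => t • ψ b) =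
        (ν - μ₀).sum fun b t => t • ψ b :=
      (Finsupp.sum_sub_index fun _ _ _ => sub_smul _ _ _).symm
    have h4 : nrm ((ν - μ₀).sum fun b t => t • ψ b) ≤ nrm (ν - μ₀) := by
      unfold Finsupp.sum
      refine (nrm_sum _ _).trans (le_of_eq ?_)
      rw [nrm_eq_sum (s := (ν - μ₀).support) le_rfl]
      refine Finset.sum_congr rfl fun b _ => ?_
      rw [nrm_smul, nrm_eq_mass (hΦ0 _), hΦ1, mul_one]
    have h5 : nrm (ξ (p * s) - ∑ b ∈ μ₀.support, μ₀ b • ψ (δ * b)) ≤ ε₂ := by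
      simp only [ξ]
      rw [← Finset.sum_sub_distrib]
      refine (nrm_sum _ _).trans ?_
      calc ∑ b ∈ μ₀.support, nrm (μ₀ b • Φ (h (p * s) * D b) - μ₀ b • ψ (δ * b))
          ≤ ∑ b ∈ μ₀.support, μ₀ b * ε₂ := Finset.sum_le_sum fun b hb => by
            rw [← smul_sub, nrm_smul, abs_of_nonneg (hμ0 b)]
            exact mul_le_mul_of_nonneg_left (hD b hb) (hμ0 b)
        _ = ε₂ := by rw [← Finset.sum_mul, hm, one_mul]
    calc nrm (ξ (p * s) - ξ p) = nrm ((ξ (p * s) - ∑ b ∈ μ₀.support, μ₀ b • ψ (δ * b)) +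
          ((ν.sum fun b t => t • ψ b) - μ₀.sum fun b t => t • ψ b)) := by
            rw [h1, h2, sub_add_sub_cancel]
      _ ≤ ε₂ + ε₁ := (nrm_add _ _).trans (add_le_add h5 (by rw [h3]; exact h4.trans hδ))
  · obtain ⟨b, hb, hb2⟩ := hsup p z hp
    obtain ⟨b', hb', hb2'⟩ := hsup q z hq
    exact hE p q b hb b' hb' z hb2 hb2'

end Vale.Agent.P184.LA
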