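import Vale.Agent.P184.R2.H270.RealPl

/-!
# Property A of `GL_N(ℚ)`
-/

noncomputable section

namespace Vale.Agent.P184.LA

open Matrix

/-- Property A from fields. -/
theorem propA_of_fld {Γ : Type*} [Group Γ]
    (h : ∀ (S : Finset Γ) (ε : ℝ), 0 < ε → ∃ E : Set Γ, E.Finite ∧ Fld Γ (S : Set Γ) ε E) :
    PropA Γ := by
  classical
  intro S ε hε
  obtain ⟨E, hE, Z, μ, h0, h1, h2, h3⟩ := h S ε hε
  let r : Z → Γ := fun z => if hz : ∃ p, μ p z ≠ 0 then hz.choose else 1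
  have hr : ∀ p z, μ p z ≠ 0 → p⁻¹ * r z ∈ E := by
    intro p z hz
    have hex : ∃ p, μ p z ≠ 0 := ⟨p, hz⟩
    have h4 : μ (r z) z ≠ 0 := by
      simp only [r]
      rw [dif_pos hex]
      exact hex.choose_spec
    exact h3 p (r z) z hz h4
  let a : Γ → Γ →₀ ℝ := fun p => (μ p).mapDomain r
  have ha : ∀ p q, a p q ≠ 0 → p⁻¹ * q ∈ E := by
    intro p q hq
    obtain ⟨z, hz, rfl⟩ := exists_of_mapDomain_ne_zero r hq
    exact hr p z hz
  refine ⟨hE.toFinset, fun p q => a p q, fun p q => mapDomain_nonneg r (h0 p) q,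
    fun p q hq => hE.mem_toFinset.2 (ha p q hq), fun p => ?_, fun s hs p => ?_⟩
  · have h4 : mass (a p) = 1 := by rw [mass_mapDomain, h1]
    have h5 : (a p).support ⊆ hE.toFinset.image fun t => p * t := by
      intro q hq
      refine Finset.mem_image.2 ⟨p⁻¹ * q, hE.mem_toFinset.2 (ha p q (Finsupp.mem_support_iff.1 hq)),
        mul_inv_cancel_left _ _⟩
    rw [mass_eq_sum h5, Finset.sum_image fun x _ y _ hxy => mul_left_cancel hxy] at h4
    exact h4
  · have h4 : ∑' q, |a (p * s) q - a p q| = nrm (a (p * s) - a p) := by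
      rw [nrm_eq_sum (s := (a (p * s) - a p).support) le_rfl]
      refine tsum_eq_sum fun q hq => ?_
      rw [Finsupp.notMem_support_iff, Finsupp.sub_apply] at hq
      rw [hq, abs_zero]
    rw [h4]
    have h5 : a (p * s) - a p = (μ (p * s) - μ p).mapDomain r := by
      simp only [a]
      rw [sub_eq_add_neg, sub_eq_add_neg, Finsupp.mapDomain_add]
      congr 1
      rw [← neg_one_smul ℝ (μ p), Finsupp.mapDomain_smul, neg_one_smul]
    rw [h5]
    exact (nrm_mapDomain _ _).trans (h2 s hs p)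

theorem finite_den_bdd (D : ℤ) (hD : 0 < D) (R : ℝ) :
    {x : ℚ | Den D x ∧ |(x : ℝ)| ≤ R}.Finite := by
  refine ((Set.finite_Icc (-⌈D * R⌉) ⌈D * R⌉).image fun n : ℤ => (n : ℚ) / D).subset ?_
  rintro x ⟨⟨n, hn⟩, hx⟩
  have hDq : (0 : ℚ) < D := by exact_mod_cast hD
  have hDr : (0 : ℝ) < D := by exact_mod_cast hD
  refine ⟨n, ?_, ?_⟩
  · have h1 : (n : ℝ) = D * x := by
      have h2 : ((D * x : ℚ) : ℝ) = ((n : ℚ) : ℝ) := by rw [hn]
      push_cast at h2
      exact h2.symm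
    have h2 : |(n : ℝ)| ≤ D * R := by
      rw [h1, abs_mul, abs_of_pos hDr]
      exact mul_le_mul_of_nonneg_left hx hDr.le
    have h3 : |n| ≤ ⌈D * R⌉ := by
      have h4 : ((|n| : ℤ) : ℝ) ≤ ⌈D * R⌉ := by
        rw [Int.cast_abs]
        exact h2.trans (Int.le_ceil _)
      exact_mod_cast h4
    exact abs_le.1 h3
  · show (n : ℚ) / D = x
    rw [← hn, mul_comm, mul_div_assoc, div_self hDq.ne', mul_one]

/-- `GL_N(ℚ)` has property A. -/
theorem propA_glq (N : ℕ) : PropA (GLn N ℚ) := by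
  classical
  refine propA_of_fld fun S ε hε => ?_
  obtain ⟨D, hD, hF⟩ := fld_fin (N := N) (S : Set (GLn N ℚ)) S.finite_toSet (half_pos hε)
  let f : GLn N ℚ →* GLn N ℝ := Units.map ((Rat.castHom ℝ).mapMatrix (m := Fin N)).toMonoidHom
  have hf : ∀ g i j, (f g).1 i j = ((g.1 i j : ℚ) : ℝ) := fun g i j => rfl
  obtain ⟨R, hR⟩ := fld_real (N := N) (f '' (S : Set (GLn N ℚ)))
    (S.finite_toSet.image f) (half_pos hε)
  have hR' := hR.comap f (S := (S : Set (GLn N ℚ))) fun s hs => Set.mem_image_of_mem _ hs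
  refine ⟨_, ?_, (hF.inter hR').mono (add_halves ε).le le_rfl⟩
  have h1 : (Set.pi Set.univ fun _ : Fin N => Set.pi Set.univ fun _ : Fin N =>
      {x : ℚ | Den D x ∧ |(x : ℝ)| ≤ R}).Finite :=
    Set.Finite.pi fun _ => Set.Finite.pi fun _ => finite_den_bdd D hD R
  refine (h1.preimage (f := fun g : GLn N ℚ => (g.1 : Fin N → Fin N → ℚ)) ?_).subset ?_
  · exact Units.val_injective.injOn
  · rintro g ⟨hg1, hg2⟩ i _ j _
    exact ⟨hg1 i j, by rw [← hf]; exact hg2 i j⟩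

end Vale.Agent.P184.LA
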