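import Vale.Agent.P184.R2.H270.Amen

/-!
# Fields on `GL_N(ℚ)` from the finite places
-/

noncomputable section

namespace Vale.Agent.P184.LA

open Matrix

/-- The units of the ring of matrices. -/
abbrev GLn (N : ℕ) (R : Type*) [CommRing R] := (Matrix (Fin N) (Fin N) R)ˣ

section Herm

variable {N : ℕ}

/-- Transvections as units. -/
def tv {i j : Fin N} (h : i ≠ j) (c : ℤ) : GLn N ℤ where
  val := transvection i j c
  inv := transvection i j (-c)
  val_inv := by rw [transvection_mul_transvection_same _ _ h, add_neg_cancel, transvection_zero]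
  inv_val := by rw [transvection_mul_transvection_same _ _ h, neg_add_cancel, transvection_zero]

theorem mul_tv_same (P : Matrix (Fin N) (Fin N) ℤ) {i j : Fin N} (h : i ≠ j) (c : ℤ) (l : Fin N) :
    (P * (tv h c).1) l j = P l j + c * P l i :=
  mul_transvection_apply_same _ _ _ _ _

theorem mul_tv_ne (P : Matrix (Fin N) (Fin N) ℤ) {i j : Fin N} (h : i ≠ j) (c : ℤ) (l : Fin N)
    {b : Fin N} (hb : b ≠ j) :
    (P * (tv h c).1) l b = P l b :=
  mul_transvection_apply_of_ne _ _ _ _ hb _ _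

theorem exists_sign {a b : ℤ} (ha : a ≠ 0) (hab : a.natAbs ≤ b.natAbs) :
    ∃ c : ℤ, (b + c * a).natAbs < b.natAbs := by
  rcases lt_or_ge 0 a with h1 | h1 <;> rcases lt_or_ge 0 b with h2 | h2
  · exact ⟨-1, by omega⟩
  · exact ⟨1, by omega⟩
  · exact ⟨1, by omega⟩
  · exact ⟨-1, by omega⟩

theorem hnf_step (P : Matrix (Fin N) (Fin N) ℤ) (i : Fin N)
    (ih : ∃ k : GLn N ℤ, ∀ l j : Fin N, l < i → l < j → (P * k.1) l j = 0) :
    ∃ k : GLn N ℤ, ∀ l j : Fin N, l ≤ i → l < j → (P * k.1) l j = 0 := by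
  classical
  let Good : GLn N ℤ → Prop := fun k => ∀ l j : Fin N, l < i → l < j →
    (P * k.1) l j = 0
  let m : GLn N ℤ → ℕ := fun k => ∑ j ∈ Finset.Ici i, ((P * k.1) i j).natAbs
  have hex : ∃ n, ∃ k, Good k ∧ m k = n := by
    obtain ⟨k, hk⟩ := ih
    exact ⟨m k, k, hk, rfl⟩
  obtain ⟨k, hk, hkm⟩ := Nat.find_spec hex
  have hmin : ∀ k', Good k' → m k ≤ m k' := fun k' hk' => by
    rw [hkm]
    exact Nat.find_min' hex ⟨k', hk', rfl⟩
  -- at most one nonzero entry
  have h1 : ∀ j j' : Fin N, i ≤ j → i ≤ j' → j ≠ j' →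
      ((P * k.1) i j).natAbs ≤ ((P * k.1) i j').natAbs →
      (P * k.1) i j = 0 := by
    intro j j' hj hj' hne hle
    by_contra h0
    obtain ⟨c, hc⟩ := exists_sign h0 hle
    let k' : GLn N ℤ := k * tv hne c
    have hP : P * k'.1 = (P * k.1) * (tv hne c).1 := by
      rw [Matrix.mul_assoc]; rfl
    have hg : Good k' := by
      intro l b hl hb
      rw [hP]
      by_cases hbj : b = j'
      · rw [hbj, mul_tv_same, hk l j' hl (hl.trans_le hj'), hk l j hl (hl.trans_le hj)]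
        ring
      · rw [mul_tv_ne _ _ _ _ hbj]
        exact hk l b hl hb
    refine absurd (hmin k' hg) (not_le.2 ?_)
    refine Finset.sum_lt_sum (fun b _ => ?_) ⟨j', Finset.mem_Ici.2 hj', ?_⟩
    · rw [hP]
      by_cases hbj : b = j'
      · rw [hbj, mul_tv_same]
        exact hc.le
      · rw [mul_tv_ne _ _ _ _ hbj]
    · rw [hP, mul_tv_same]
      exact hc
  by_cases h2 : ∀ j, i < j → (P * k.1) i j = 0
  · refine ⟨k, fun l j hl hlj => ?_⟩
    rcases hl.lt_or_eq with h3 | h3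
    · exact hk l j h3 hlj
    · rw [h3] at hlj ⊢
      exact h2 j hlj
  · push Not at h2
    obtain ⟨j₀, hj₀, hne⟩ := h2
    have hii : (P * k.1) i i = 0 := by
      rcases le_total ((P * k.1) i i).natAbs ((P * k.1) i j₀).natAbs
        with h3 | h3
      · exact h1 i j₀ le_rfl hj₀.le hj₀.ne h3
      · exact absurd (h1 j₀ i hj₀.le le_rfl hj₀.ne' h3) hne
    have hoth : ∀ j, i < j → j ≠ j₀ → (P * k.1) i j = 0 := by
      intro j hj hjj
      rcases le_total ((P * k.1) i j).natAbs ((P * k.1) i j₀).natAbs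
        with h3 | h3
      · exact h1 j j₀ hj.le hj₀.le hjj h3
      · exact absurd (h1 j₀ j hj₀.le hj.le hjj.symm h3) hne
    refine ⟨k * tv hj₀.ne' 1 * tv hj₀.ne (-1), fun l j hl hlj => ?_⟩
    have hP : P * (k * tv hj₀.ne' 1 * tv hj₀.ne (-1)).1 =
        (P * k.1) * (tv hj₀.ne' 1).1 *
          (tv hj₀.ne (-1)).1 := by
      rw [Units.val_mul, Units.val_mul, Matrix.mul_assoc, Matrix.mul_assoc, Matrix.mul_assoc]
    rw [hP]
    by_cases hj : j = j₀
    · rw [hj, mul_tv_same, mul_tv_ne _ _ _ _ hj₀.ne', mul_tv_same]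
      have h4 : (P * k.1) l i = 0 := by
        rcases hl.lt_or_eq with h3 | h3
        · exact hk l i h3 h3
        · rw [h3]; exact hii
      rw [h4]
      ring
    · rw [mul_tv_ne _ _ _ _ hj]
      by_cases hji : j = i
      · rw [hji, mul_tv_same]
        rw [hji] at hlj
        rw [hk l i hlj hlj, hk l j₀ hlj (hlj.trans hj₀)]
        ring
      · rw [mul_tv_ne _ _ _ _ hji]
        rcases hl.lt_or_eq with h3 | h3
        · exact hk l j h3 hlj
        · rw [h3] at hlj ⊢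
          exact hoth j hlj hj

/-- The Hermite normal form. -/
theorem hnf (P : Matrix (Fin N) (Fin N) ℤ) :
    ∃ k : GLn N ℤ, ∀ l j : Fin N, l < j → (P * k.1) l j = 0 := by
  have h : ∀ i : ℕ, ∃ k : GLn N ℤ, ∀ l j : Fin N, (l : ℕ) < i → l < j →
      (P * k.1) l j = 0 := by
    intro i
    induction i with
    | zero => exact ⟨1, fun l j hl _ => absurd hl (Nat.not_lt_zero _)⟩
    | succ i ih =>
      by_cases hi : i < N
      · obtain ⟨k, hk⟩ := hnf_step P ⟨i, hi⟩ (by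
          obtain ⟨k, hk⟩ := ih
          exact ⟨k, fun l j hl hlj => hk l j hl hlj⟩)
        exact ⟨k, fun l j hl hlj => hk l j (Nat.lt_succ_iff.1 hl) hlj⟩
      · obtain ⟨k, hk⟩ := ih
        exact ⟨k, fun l j _ hlj => hk l j (lt_of_lt_of_le l.2 (not_lt.1 hi)) hlj⟩
  obtain ⟨k, hk⟩ := h N
  exact ⟨k, fun l j hlj => hk l j l.2 hlj⟩

end Herm

section Integral

variable (N : ℕ)

/-- The ring of integral matrices in the rational ones. -/
def IM : Subring (Matrix (Fin N) (Fin N) ℚ) := ((Int.castRingHom ℚ).mapMatrix (m := Fin N)).range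

variable {N}

theorem mem_IM {M : Matrix (Fin N) (Fin N) ℚ} : M ∈ IM N ↔ ∀ i j, ∃ n : ℤ, M i j = n := by
  constructor
  · rintro ⟨A, rfl⟩ i j
    exact ⟨A i j, rfl⟩
  · intro h
    choose A hA using h
    exact ⟨Matrix.of A, Matrix.ext fun i j => (hA i j).symm⟩

/-- `GL_N(ℤ)` in `GL_N(ℚ)`. -/
def VZ (N : ℕ) : Subgroup (GLn N ℚ) where
  carrier := {g | g.1 ∈ IM N ∧ g⁻¹.1 ∈ IM N}
  mul_mem' := by
    rintro a b ⟨h1, h2⟩ ⟨h3, h4⟩
    refine ⟨?_, ?_⟩
    · rw [Units.val_mul]; exact (IM N).mul_mem h1 h3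
    · rw [_root_.mul_inv_rev, Units.val_mul]; exact (IM N).mul_mem h4 h2
  one_mem' := ⟨(IM N).one_mem, by rw [inv_one]; exact (IM N).one_mem⟩
  inv_mem' := by
    rintro a ⟨h1, h2⟩
    exact ⟨h2, by rw [inv_inv]; exact h1⟩

theorem exists_hnf (p : GLn N ℚ) : ∃ k ∈ VZ N, ∀ l j : Fin N, l < j →
    (p * k).1 l j = 0 := by
  classical
  obtain ⟨b, hb⟩ := IsLocalization.exist_integer_multiples (nonZeroDivisors ℤ)
    (Finset.univ : Finset (Fin N × Fin N)) fun ij => p.1 ij.1 ij.2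
  have hb0 : ((b : ℤ) : ℚ) ≠ 0 := by
    have := nonZeroDivisors.ne_zero b.2
    exact_mod_cast this
  have h1 : ∀ i j, ∃ n : ℤ, (n : ℚ) = (b : ℤ) * p.1 i j := by
    intro i j
    obtain ⟨n, hn⟩ := hb (i, j) (Finset.mem_univ _)
    refine ⟨n, ?_⟩
    have h2 : (algebraMap ℤ ℚ) n = (b : ℤ) • p.1 i j := hn
    rw [zsmul_eq_mul] at h2
    exact h2
  choose A hA using h1
  obtain ⟨k, hk⟩ := hnf (Matrix.of A)
  let f : Matrix (Fin N) (Fin N) ℤ →+* Matrix (Fin N) (Fin N) ℚ := (Int.castRingHom ℚ).mapMatrix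
  refine ⟨Units.map f.toMonoidHom k, ⟨⟨_, rfl⟩, ⟨_, rfl⟩⟩, fun l j hlj => ?_⟩
  have h2 : f (Matrix.of A) = (b : ℤ) • p.1 := by
    ext i j
    rw [Matrix.smul_apply, zsmul_eq_mul]
    exact hA i j
  have h3 : f (Matrix.of A * k.1) l j = 0 := by
    show ((Matrix.of A * k.1) l j : ℚ) = 0
    rw [hk l j hlj, Int.cast_zero]
  rw [map_mul, h2, smul_mul_assoc, Matrix.smul_apply, zsmul_eq_mul] at h3
  exact (mul_eq_zero.1 h3).resolve_left hb0

end Integral

section Lower

variable {N : ℕ} {F : Type*} [Field F]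

/-- Lower triangular matrices. -/
def Low (M : Matrix (Fin N) (Fin N) F) : Prop := ∀ i j : Fin N, i < j → M i j = 0

theorem low_iff {M : Matrix (Fin N) (Fin N) F} :
    Low M ↔ M.BlockTriangular (OrderDual.toDual : Fin N → (Fin N)ᵒᵈ) :=
  ⟨fun h i j hij => h i j (OrderDual.toDual_lt_toDual.1 hij), fun h _ _ hij =>
    h (OrderDual.toDual_lt_toDual.2 hij)⟩

theorem Low.mul {A B : Matrix (Fin N) (Fin N) F} (hA : Low A) (hB : Low B) : Low (A * B) :=
  low_iff.2 ((low_iff.1 hA).mul (low_iff.1 hB))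

theorem Low.inv {g : GLn N F} (h : Low g.1) :
    Low g⁻¹.1 := by
  rw [Matrix.coe_units_inv]
  have : Invertible g.1 := g.invertible
  exact low_iff.2 (blockTriangular_inv_of_blockTriangular (low_iff.1 h))

theorem Low.mul_diag {A B : Matrix (Fin N) (Fin N) F} (hA : Low A) (hB : Low B) (i : Fin N) :
    (A * B) i i = A i i * B i i := by
  rw [Matrix.mul_apply]
  refine Finset.sum_eq_single i (fun l _ hl => ?_) fun h => absurd (Finset.mem_univ _) h
  rcases lt_or_gt_of_ne hl with h1 | h1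
  · rw [hB l i h1, mul_zero]
  · rw [hA i l h1, zero_mul]

theorem Low.diag_mul_inv {g : GLn N F} (h : Low g.1) (i : Fin N) :
    g.1 i i * g⁻¹.1 i i = 1 := by
  rw [← h.mul_diag h.inv, ← Units.val_mul, mul_inv_cancel, Units.val_one, Matrix.one_apply_eq]

theorem Low.diag_ne_zero {g : GLn N F} (h : Low g.1) (i : Fin N) :
    g.1 i i ≠ 0 := left_ne_zero_of_mul_eq_one (h.diag_mul_inv i)

/-- Diagonal matrices. -/
def dgl (t : Fin N → F) (ht : ∀ i, t i ≠ 0) : GLn N F where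
  val := diagonal t
  inv := diagonal fun i => (t i)⁻¹
  val_inv := by
    rw [diagonal_mul_diagonal, ← diagonal_one]
    congr 1
    funext i
    exact mul_inv_cancel₀ (ht i)
  inv_val := by
    rw [diagonal_mul_diagonal, ← diagonal_one]
    congr 1
    funext i
    exact inv_mul_cancel₀ (ht i)

theorem dgl_conj (t u : Fin N → F) (ht : ∀ i, t i ≠ 0) (hu : ∀ i, u i ≠ 0) (g : GLn N F)
    (i j : Fin N) : ((dgl t ht)⁻¹ * g * dgl u hu).1 i j =
      (t i)⁻¹ * g.1 i j * u j := by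
  rw [Units.val_mul, Units.val_mul]
  show (diagonal (fun i => (t i)⁻¹) * g.1 * diagonal u) i j = _
  rw [mul_diagonal, diagonal_mul]

end Lower

end Vale.Agent.P184.LA
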