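import Vale.Agent.P184.R2.H270.Tgt

set_option linter.all false

/-!
# Centralizers of nilpotent matrices with Jordan blocks of different sizes
-/

noncomputable section

namespace Vale.Agent.P184.LA

section Co

variable {C : Type*} [Group C]

/-- `N` is normal with amenable quotient. -/
def Co (N : Subgroup C) : Prop := ∃ _ : N.Normal, IsAmenable (C ⧸ N)

theorem co_top : Co (⊤ : Subgroup C) := by
  refine ⟨inferInstance, ?_⟩
  have : Subsingleton (C ⧸ (⊤ : Subgroup C)) := QuotientGroup.subsingleton_quotient_top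
  exact isAmenable_of_subsingleton

theorem co_of_range {A : Type*} [Group A] (α : C →* A) (h : IsAmenable α.range) : Co α.ker := by
  refine ⟨inferInstance, ?_⟩
  exact isAmenable_of_injective (QuotientGroup.quotientKerEquivRange α).toMonoidHom
    (QuotientGroup.quotientKerEquivRange α).injective h

theorem range_of_co {N : Subgroup C} (h : Co N) {A : Type*} [Group A] (α : C →* A)
    (hN : ∀ c ∈ N, α c = 1) : IsAmenable α.range := by
  obtain ⟨_, h⟩ := h
  refine amen_range_of_ker (QuotientGroup.mk' N) α (fun c hc => hN c ?_) (h.subgroup _)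
  rwa [QuotientGroup.mk'_apply, QuotientGroup.eq_one_iff] at hc

theorem Co.mono {N M : Subgroup C} (h : Co N) (hM : M.Normal) (hNM : N ≤ M) : Co M := by
  refine ⟨hM, ?_⟩
  have h1 := range_of_co h (QuotientGroup.mk' M) fun c hc => by
    rw [QuotientGroup.mk'_apply, QuotientGroup.eq_one_iff]
    exact hNM hc
  have h2 := co_of_range _ h1
  rw [QuotientGroup.ker_mk'] at h2
  exact h2.2

theorem Co.inf {N M : Subgroup C} (h : Co N) (h' : Co M) : Co (N ⊓ M) := by
  obtain ⟨_, h⟩ := h
  obtain ⟨_, h'⟩ := h'
  have h1 : IsAmenable ((QuotientGroup.mk' N).prod (QuotientGroup.mk' M)).range :=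
    (isAmenable_prod h h').subgroup _
  have h2 := co_of_range _ h1
  have h3 : ((QuotientGroup.mk' N).prod (QuotientGroup.mk' M)).ker = N ⊓ M := by
    ext c
    simp [MonoidHom.mem_ker, Prod.ext_iff, Subgroup.mem_inf]
  rwa [h3] at h2

theorem Co.ext {N M : Subgroup C} (h : Co N) (hM : M.Normal)
    (hc : ∀ a ∈ N, ∀ b ∈ N, a * b * a⁻¹ * b⁻¹ ∈ M) : Co M := by
  obtain ⟨_, h⟩ := h
  refine ⟨hM, ?_⟩
  have h1 := amen_range_ext (QuotientGroup.mk' N) (QuotientGroup.mk' M) (h.subgroup _)
    (fun a b ha hb => by
      rw [QuotientGroup.mk'_apply, QuotientGroup.eq_one_iff] at ha hb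
      have h2 := hc a ha b hb
      rw [← QuotientGroup.eq_one_iff] at h2
      have h3 : (QuotientGroup.mk' M a) * (QuotientGroup.mk' M b) * (QuotientGroup.mk' M a)⁻¹ *
        (QuotientGroup.mk' M b)⁻¹ = 1 := h2
      rw [mul_inv_eq_one, mul_inv_eq_iff_eq_mul] at h3
      exact h3)
  have h2 := co_of_range _ h1
  rw [QuotientGroup.ker_mk'] at h2
  exact h2.2

end Co

section Rep

variable {C : Type*} [Group C] {K V : Type*} [Field K] [AddCommGroup V] [Module K V]
  (α : C →* (Module.End K V)ˣ)

/-- Invariance. -/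
def Inv (W : Submodule K V) : Prop := ∀ c : C, ∀ w ∈ W, (α c : Module.End K V) w ∈ W

/-- The elements acting trivially on `W / U`. -/
def tr (U W : Submodule K V) (hU : Inv α U) : Subgroup C where
  carrier := {c | ∀ w ∈ W, (α c : Module.End K V) w - w ∈ U}
  one_mem' := by
    intro w _
    rw [map_one, Units.val_one, Module.End.one_apply, sub_self]
    exact U.zero_mem
  mul_mem' := by
    intro a b ha hb w hw
    have h1 : (α (a * b) : Module.End K V) w - w =
        (α a : Module.End K V) ((α b : Module.End K V) w - w) +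
          ((α a : Module.End K V) w - w) := by
      rw [map_mul, Units.val_mul, Module.End.mul_apply, map_sub]
      abel
    rw [h1]
    exact U.add_mem (hU a _ (hb w hw)) (ha w hw)
  inv_mem' := by
    intro a ha w hw
    have h1 := hU a⁻¹ _ (ha w hw)
    have h2 : (α a⁻¹ : Module.End K V) ((α a : Module.End K V) w) = w := by
      rw [← Module.End.mul_apply, ← Units.val_mul, ← map_mul, inv_mul_cancel, map_one,
        Units.val_one, Module.End.one_apply]
    rw [map_sub, h2, ← neg_mem_iff, neg_sub] at h1
    exact h1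

variable {α}

theorem mem_tr {U W : Submodule K V} {hU : Inv α U} {c : C} :
    c ∈ tr α U W hU ↔ ∀ w ∈ W, (α c : Module.End K V) w - w ∈ U := Iff.rfl

theorem act_mul (a b : C) (w : V) : (α (a * b) : Module.End K V) w =
    (α a : Module.End K V) ((α b : Module.End K V) w) := by
  rw [map_mul, Units.val_mul, Module.End.mul_apply]

theorem act_inv (a : C) (w : V) : (α a : Module.End K V) ((α a⁻¹ : Module.End K V) w) = w := by
  rw [← act_mul, mul_inv_cancel, map_one, Units.val_one, Module.End.one_apply]

theorem act_inv' (a : C) (w : V) : (α a⁻¹ : Module.End K V) ((α a : Module.End K V) w) = w := by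
  rw [← act_mul, inv_mul_cancel, map_one, Units.val_one, Module.End.one_apply]

theorem tr_normal {U W : Submodule K V} (hU : Inv α U) (hW : Inv α W) : (tr α U W hU).Normal := by
  refine ⟨fun c hc g w hw => ?_⟩
  have h1 := hU g _ (hc _ (hW g⁻¹ w hw))
  rw [map_sub, act_inv] at h1
  rw [act_mul, act_mul]
  exact h1

/-- Commutators. -/
theorem comm_mem_tr {U W : Submodule K V} (hU : Inv α U) (hW : Inv α W) {a b : C}
    (h : ∀ w ∈ W, (α a : Module.End K V) ((α b : Module.End K V) w) -
      (α b : Module.End K V) ((α a : Module.End K V) w) ∈ U) :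
    a * b * a⁻¹ * b⁻¹ ∈ tr α U W hU := by
  intro w hw
  have h1 := h ((α a⁻¹ : Module.End K V) ((α b⁻¹ : Module.End K V) w)) (hW _ _ (hW _ _ hw))
  rw [act_inv, act_inv] at h1
  rw [act_mul, act_mul, act_mul]
  exact h1

/-- One dimensional steps. -/
theorem co_step [FiniteDimensional K V] {U W : Submodule K V} (hU : Inv α U) (hW : Inv α W)
    (hUW : U ≤ W) (hd : Module.finrank K W ≤ Module.finrank K U + 1) : Co (tr α U W hU) := by
  refine co_top.ext (tr_normal hU hW) fun a _ b _ => comm_mem_tr hU hW ?_
  by_cases hle : W ≤ U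
  · intro w hw
    exact U.sub_mem (hU _ _ (hU _ _ (hle hw))) (hU _ _ (hU _ _ (hle hw)))
  obtain ⟨w₀, hw₀, hw₀U⟩ := SetLike.not_le_iff_exists.1 hle
  -- `W = U + K w₀`
  have h1 : W = U ⊔ Submodule.span K {w₀} := by
    symm
    refine Submodule.eq_of_le_of_finrank_le (sup_le hUW ?_) ?_
    · rw [Submodule.span_singleton_le_iff_mem]
      exact hw₀
    · refine hd.trans ?_
      have h2 : U < U ⊔ Submodule.span K {w₀} := by
        refine lt_of_le_of_ne le_sup_left fun h => hw₀U ?_
        rw [h]
        exact Submodule.mem_sup_right (Submodule.mem_span_singleton_self w₀)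
      exact Submodule.finrank_lt_finrank_of_lt h2
  have h2 : ∀ w ∈ W, ∃ (s : K) (u : V), u ∈ U ∧ w = s • w₀ + u := by
    intro w hw
    rw [h1, Submodule.mem_sup] at hw
    obtain ⟨u, hu, v, hv, rfl⟩ := hw
    obtain ⟨s, rfl⟩ := Submodule.mem_span_singleton.1 hv
    exact ⟨s, u, hu, add_comm _ _⟩
  obtain ⟨sa, ua, hua, ha⟩ := h2 _ (hW a _ hw₀)
  obtain ⟨sb, ub, hub, hb⟩ := h2 _ (hW b _ hw₀)
  intro w hw
  obtain ⟨s, u, hu, rfl⟩ := h2 w hw
  have h3 : (α a : Module.End K V) ((α b : Module.End K V) (s • w₀ + u)) -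
      (α b : Module.End K V) ((α a : Module.End K V) (s • w₀ + u)) =
      (s • (sb • ua + (α a : Module.End K V) ub)
        + (α a : Module.End K V) ((α b : Module.End K V) u)) -
      (s • (sa • ub + (α b : Module.End K V) ua)
        + (α b : Module.End K V) ((α a : Module.End K V) u)) := by
    simp only [map_add, map_smul, ha, hb]
    module
  rw [h3]
  exact U.sub_mem (U.add_mem (U.smul_mem _ (U.add_mem (U.smul_mem _ hua) (hU _ _ hub)))
    (hU _ _ (hU _ _ hu))) (U.add_mem (U.smul_mem _ (U.add_mem (U.smul_mem _ hub) (hU _ _ hua)))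
    (hU _ _ (hU _ _ hu)))

/-- Gluing. -/
theorem co_trans {U W W' : Submodule K V} (hU : Inv α U) (hW : Inv α W) (hW' : Inv α W')
    (hUW : U ≤ W) (h1 : Co (tr α U W hU)) (h2 : Co (tr α W W' hW)) : Co (tr α U W' hU) := by
  refine (h1.inf h2).ext (tr_normal hU hW') fun a ha b hb => comm_mem_tr hU hW' ?_
  rw [Subgroup.mem_inf] at ha hb
  intro w hw
  have h3 := ha.1 _ (hb.2 w hw)
  have h4 := hb.1 _ (ha.2 w hw)
  have h5 : (α a : Module.End K V) ((α b : Module.End K V) w) -
      (α b : Module.End K V) ((α a : Module.End K V) w) =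
      ((α a : Module.End K V) ((α b : Module.End K V) w - w) - ((α b : Module.End K V) w - w)) -
      ((α b : Module.End K V) ((α a : Module.End K V) w - w) -
        ((α a : Module.End K V) w - w)) := by
    simp only [map_sub]
    abel
  rw [h5]
  exact U.sub_mem h3 h4

/-- Chains. -/
theorem co_chain (F : ℕ → Submodule K V) (hF : ∀ i, Inv α (F i)) (hm : ∀ i, F i ≤ F (i + 1))
    (h : ∀ i, Co (tr α (F i) (F (i + 1)) (hF i))) (k : ℕ) : Co (tr α (F 0) (F k) (hF 0)) := by
  have hm' : ∀ k, F 0 ≤ F k := by
    intro k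
    induction k with
    | zero => exact le_rfl
    | succ k ih => exact ih.trans (hm k)
  induction k with
  | zero =>
    refine co_top.mono (tr_normal (hF 0) (hF 0)) fun c _ w hw => ?_
    exact (F 0).sub_mem (hF 0 c w hw) hw
  | succ k ih => exact co_trans (hF 0) (hF k) (hF (k + 1)) (hm' k) ih (h k)

/-- The filtration of the kernel by the images of the powers. -/
def Qs (T : Module.End K V) (s : ℕ) : Submodule K V := LinearMap.ker T ⊓ LinearMap.range (T ^ s)

theorem Qs_mono (T : Module.End K V) (s : ℕ) : Qs T (s + 1) ≤ Qs T s := by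
  rintro w ⟨h1, v, rfl⟩
  refine ⟨h1, T v, ?_⟩
  rw [pow_succ, Module.End.mul_apply]

theorem Qs_dim [FiniteDimensional K V] (T : Module.End K V) (s : ℕ) :
    Module.finrank K (LinearMap.range (T ^ s)) =
      Module.finrank K (LinearMap.range (T ^ (s + 1))) + Module.finrank K (Qs T s) := by
  have h1 := LinearMap.finrank_range_add_finrank_ker
    (T.domRestrict (LinearMap.range (T ^ s)))
  have h2 : LinearMap.range (T.domRestrict (LinearMap.range (T ^ s))) =
      LinearMap.range (T ^ (s + 1)) := by
    ext w
    constructor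
    · rintro ⟨⟨_, v, rfl⟩, rfl⟩
      refine ⟨v, ?_⟩
      rw [pow_succ', Module.End.mul_apply]
      rfl
    · rintro ⟨v, rfl⟩
      refine ⟨⟨(T ^ s) v, LinearMap.mem_range_self _ _⟩, ?_⟩
      rw [pow_succ', Module.End.mul_apply]
      rfl
  have h3 : (LinearMap.ker (T.domRestrict (LinearMap.range (T ^ s)))).map
      (LinearMap.range (T ^ s)).subtype = Qs T s := by
    ext w
    constructor
    · rintro ⟨⟨w, hw⟩, hw1, rfl⟩
      exact ⟨hw1, hw⟩
    · rintro ⟨hw1, hw⟩
      exact ⟨⟨w, hw⟩, hw1, rfl⟩
  have h4 : Module.finrank K (LinearMap.ker (T.domRestrict (LinearMap.range (T ^ s)))) =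
      Module.finrank K (Qs T s) := by
    rw [← h3]
    exact (LinearEquiv.finrank_eq (Submodule.equivMapOfInjective _
      (Submodule.injective_subtype _) _))
  rw [h2, h4] at h1
  exact h1.symm

/-- The condition on the ranks in dimension at most three. -/
theorem blocks_of_le_three [FiniteDimensional K V] (T : Module.End K V) (hT : IsNilpotent T)
    (h0 : T ≠ 0) (hn : Module.finrank K V ≤ 3) (s : ℕ) :
    Module.finrank K (LinearMap.range (T ^ s)) +
      Module.finrank K (LinearMap.range (T ^ (s + 2))) ≤
        2 * Module.finrank K (LinearMap.range (T ^ (s + 1))) + 1 := by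
  obtain ⟨r, hr⟩ := hT
  have hq : ∀ s, Module.finrank K (Qs T (s + 1)) ≤ Module.finrank K (Qs T s) := fun s =>
    Submodule.finrank_mono (Qs_mono T s)
  have hq' : ∀ s, Module.finrank K (Qs T (s + 1)) ≤ Module.finrank K (Qs T 1) := by
    intro s
    induction s with
    | zero => exact le_rfl
    | succ s ih => exact (hq (s + 1)).trans ih
  have hd0 := Qs_dim T 0
  have hd1 := Qs_dim T 1
  have hr0 : Module.finrank K (LinearMap.range (T ^ 0)) = Module.finrank K V := by
    rw [pow_zero]
    exact LinearMap.finrank_range_of_inj (f := (1 : Module.End K V)) fun a b h => h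
  have h1 : Module.finrank K (Qs T 1) ≠ 0 := by
    intro h2
    have h3 : ∀ k, Module.finrank K (LinearMap.range (T ^ (k + 1))) =
        Module.finrank K (LinearMap.range (T ^ 1)) := by
      intro k
      induction k with
      | zero => rfl
      | succ k ih =>
        have h4 := Qs_dim T (k + 1)
        have h5 := hq' k
        omega
    have h4 : Module.finrank K (LinearMap.range (T ^ (r + 1))) = 0 := by
      rw [pow_succ, hr, zero_mul, LinearMap.range_zero, finrank_bot]
    rw [h3, pow_one, Submodule.finrank_eq_zero, LinearMap.range_eq_bot] at h4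
    exact h0 h4
  have h2 := Qs_dim T s
  have h3 := Qs_dim T (s + 1)
  rw [show s + 1 + 1 = s + 2 from rfl] at h3
  have h4 := hq 0
  rw [show 0 + 1 = 1 from rfl] at hd0 h4
  rcases Nat.eq_zero_or_pos s with rfl | hs
  · rw [show 0 + 1 = 1 from rfl] at h2 h3 ⊢
    omega
  · obtain ⟨t, rfl⟩ : ∃ t, s = t + 1 := ⟨s - 1, by omega⟩
    have h5 := hq' t
    omega

theorem Qs_finrank [FiniteDimensional K V] (T : Module.End K V) :
    Qs T (Module.finrank K V) = ⊥ := by
  by_contra hne
  have h1 : ∀ s, s ≤ Module.finrank K V → 1 ≤ Module.finrank K (Qs T s) := by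
    have h2 : 1 ≤ Module.finrank K (Qs T (Module.finrank K V)) := by
      rw [Nat.one_le_iff_ne_zero]
      intro h3
      exact hne (Submodule.finrank_eq_zero.1 h3)
    intro s hs
    refine h2.trans (Submodule.finrank_mono ?_)
    have h3 : Antitone (Qs T) := antitone_nat_of_succ_le (Qs_mono T)
    exact h3 hs
  have h2 : ∀ s, s ≤ Module.finrank K V + 1 →
      Module.finrank K (LinearMap.range (T ^ s)) + s ≤ Module.finrank K V := by
    intro s
    induction s with
    | zero =>
      intro _
      exact Submodule.finrank_le _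
    | succ s ih =>
      intro hs
      have h3 := ih (by omega)
      have h4 := Qs_dim T s
      have h5 := h1 s (by omega)
      omega
  have h3 := h2 _ le_rfl
  omega

theorem inv_bot : Inv α (⊥ : Submodule K V) := by
  intro c w hw
  rw [Submodule.mem_bot] at hw ⊢
  rw [hw, map_zero]

/-- The generalized kernel of a map with Jordan blocks of different sizes. -/
theorem co_ker_pow [FiniteDimensional K V] (T : Module.End K V)
    (hc : ∀ c, (α c : Module.End K V) * T = T * (α c : Module.End K V))
    (hd : ∀ s : ℕ, Module.finrank K (LinearMap.range (T ^ s)) +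
      Module.finrank K (LinearMap.range (T ^ (s + 2))) ≤
        2 * Module.finrank K (LinearMap.range (T ^ (s + 1))) + 1) (k : ℕ) :
    Co (tr α ⊥ (LinearMap.ker (T ^ k)) inv_bot) := by
  set r := Module.finrank K V with hrdef
  have hcp : ∀ (s : ℕ) (c : C) (v : V), (α c : Module.End K V) ((T ^ s) v) =
      (T ^ s) ((α c : Module.End K V) v) := by
    intro s c v
    have h1 : Commute (α c : Module.End K V) (T ^ s) := (show Commute _ _ from hc c).pow_right s
    rw [← Module.End.mul_apply, h1.eq, Module.End.mul_apply]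
  have hker : ∀ s, Inv α (LinearMap.ker (T ^ s)) := by
    intro s c w hw
    rw [LinearMap.mem_ker] at hw ⊢
    rw [← hcp, hw, map_zero]
  have hran : ∀ s, Inv α (LinearMap.range (T ^ s)) := by
    rintro s c _ ⟨v, rfl⟩
    rw [hcp]
    exact LinearMap.mem_range_self _ _
  have hk1 : Inv α (LinearMap.ker T) := by
    have := hker 1
    rwa [pow_one] at this
  -- the filtration of the kernel
  let Q : ℕ → Submodule K V := Qs T
  have hQ : ∀ s, Inv α (Q s) := fun s c w hw => ⟨hk1 c w hw.1, hran s c w hw.2⟩
  have hQm : ∀ s, Q (s + 1) ≤ Q s := Qs_mono T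
  have hdim : ∀ s, Module.finrank K (LinearMap.range (T ^ s)) =
      Module.finrank K (LinearMap.range (T ^ (s + 1))) + Module.finrank K (Q s) := Qs_dim T
  have hstep : ∀ s, Module.finrank K (Q s) ≤ Module.finrank K (Q (s + 1)) + 1 := by
    intro s
    have h1 := hdim s
    have h2 := hdim (s + 1)
    have h3 := hd s
    rw [show s + 1 + 1 = s + 2 from rfl] at h2
    omega
  -- the kernel
  have hQr : Q r = ⊥ := Qs_finrank T
  have hkerT : Co (tr α ⊥ (LinearMap.ker T) inv_bot) := by
    have h1 := co_chain (α := α) (fun i => Q (r - i)) (fun i => hQ _) (fun i => by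
      rcases Nat.lt_or_ge i r with h | h
      · have h2 : r - i = (r - (i + 1)) + 1 := by omega
        rw [h2]
        exact hQm _
      · have h2 : r - i = r - (i + 1) := by omega
        rw [h2]) (fun i => by
      refine co_step (hQ _) (hQ _) ?_ ?_
      · rcases Nat.lt_or_ge i r with h | h
        · have h2 : r - i = (r - (i + 1)) + 1 := by omega
          rw [h2]
          exact hQm _
        · have h2 : r - i = r - (i + 1) := by omega
          rw [h2]
      · rcases Nat.lt_or_ge i r with h | h
        · have h2 : r - i = (r - (i + 1)) + 1 := by omega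
          rw [h2]
          exact hstep _
        · have h2 : r - i = r - (i + 1) := by omega
          rw [h2]
          exact Nat.le_succ _) r
    refine h1.mono (tr_normal inv_bot hk1) fun c hc w hw => ?_
    have h2 : w ∈ Q (r - r) := by
      rw [Nat.sub_self]
      exact ⟨hw, w, by rw [pow_zero]; rfl⟩
    have h3 := hc w h2
    have h4 : Q (r - 0) = ⊥ := hQr
    rw [h4] at h3
    exact h3
  -- the filtration by the kernels of the powers
  have hker2 := co_chain (α := α) (fun i => LinearMap.ker (T ^ i)) hker (fun i => by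
    intro w hw
    rw [LinearMap.mem_ker] at hw ⊢
    rw [pow_succ', Module.End.mul_apply, hw, map_zero]) (fun i => by
    refine hkerT.mono (tr_normal _ (hker _)) fun c hc w hw => ?_
    rw [LinearMap.mem_ker] at hw ⊢
    have h1 : (T ^ i) w ∈ LinearMap.ker T := by
      rw [LinearMap.mem_ker, ← Module.End.mul_apply, ← pow_succ']
      exact hw
    have h2 := hc _ h1
    rw [Submodule.mem_bot, hcp] at h2
    rw [map_sub]
    exact h2) k
  refine hker2.mono (tr_normal inv_bot (hker k)) fun c hc w hw => ?_
  have h1 := hc w hw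
  rw [pow_zero, LinearMap.mem_ker, Module.End.one_apply] at h1
  rw [h1]
  exact Submodule.zero_mem _

/-- The centralizer of a nilpotent map with Jordan blocks of different sizes. -/
theorem amen_of_blocks [FiniteDimensional K V] (T : Module.End K V) (hT : IsNilpotent T)
    (hc : ∀ c, (α c : Module.End K V) * T = T * (α c : Module.End K V))
    (hd : ∀ s : ℕ, Module.finrank K (LinearMap.range (T ^ s)) +
      Module.finrank K (LinearMap.range (T ^ (s + 2))) ≤
        2 * Module.finrank K (LinearMap.range (T ^ (s + 1))) + 1) : IsAmenable α.range := by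
  obtain ⟨r, hr⟩ := hT
  refine range_of_co (co_ker_pow T hc hd r) α fun c hc => ?_
  refine Units.ext (LinearMap.ext fun v => ?_)
  have h1 := hc v (by
    rw [hr]
    exact LinearMap.mem_ker.2 rfl)
  rw [Submodule.mem_bot, sub_eq_zero] at h1
  rw [h1]
  rfl

/-- The centralizer of a map whose Jordan blocks of the same eigenvalue have different sizes. -/
theorem amen_of_eigen [IsAlgClosed K] [FiniteDimensional K V] (A : Module.End K V)
    (hc : ∀ c, (α c : Module.End K V) * A = A * (α c : Module.End K V))
    (hd : ∀ (μ : K) (s : ℕ), Module.finrank K (LinearMap.range ((A - μ • 1) ^ s)) +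
      Module.finrank K (LinearMap.range ((A - μ • 1) ^ (s + 2))) ≤
        2 * Module.finrank K (LinearMap.range ((A - μ • 1) ^ (s + 1))) + 1) :
    IsAmenable α.range := by
  classical
  have hfin : {μ : K | A.HasEigenvalue μ}.Finite := Module.End.finite_hasEigenvalue A
  have hcm : ∀ (μ : K) (c : C), (α c : Module.End K V) * (A - μ • 1) =
      (A - μ • 1) * (α c : Module.End K V) := by
    intro μ c
    rw [mul_sub, sub_mul, hc, mul_smul_comm, smul_mul_assoc, mul_one, one_mul]
  have h1 : ∀ s : Finset K, Co (s.inf fun μ =>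
      tr α ⊥ (LinearMap.ker ((A - μ • 1) ^ (Module.finrank K V))) inv_bot) := by
    intro s
    induction s using Finset.induction_on with
    | empty => exact co_top
    | insert μ s _ ih =>
      rw [Finset.inf_insert]
      exact (co_ker_pow _ (hcm μ) (hd μ) _).inf ih
  refine range_of_co (h1 hfin.toFinset) α fun c hc2 => ?_
  refine Units.ext (LinearMap.ext fun v => ?_)
  have hv : v ∈ ⨆ μ : K, A.maxGenEigenspace μ := by
    rw [Module.End.iSup_maxGenEigenspace_eq_top]
    exact Submodule.mem_top
  change (α c : Module.End K V) v = v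
  induction hv using Submodule.iSup_induction' with
  | mem μ w hw =>
    by_cases hw0 : w = 0
    · rw [hw0, map_zero]
    have h2 : w ∈ LinearMap.ker ((A - μ • 1) ^ (Module.finrank K V)) := by
      rw [Module.End.maxGenEigenspace_eq_genEigenspace_finrank, Module.End.genEigenspace_nat] at hw
      exact hw
    have hμ : μ ∈ hfin.toFinset := by
      rw [Set.Finite.mem_toFinset]
      have h3 : A.HasUnifEigenvalue μ (Module.finrank K V) := by
        rw [Module.End.HasUnifEigenvalue, Module.End.genEigenspace_nat, Submodule.ne_bot_iff]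
        exact ⟨w, h2, hw0⟩
      exact h3.lt (by norm_num)
    have h3 : c ∈ tr α ⊥ (LinearMap.ker ((A - μ • 1) ^ (Module.finrank K V))) inv_bot :=
      (Finset.inf_le (f := fun μ => tr α ⊥ (LinearMap.ker ((A - μ • 1) ^ (Module.finrank K V)))
        inv_bot) hμ) hc2
    have h4 := h3 w h2
    rw [Submodule.mem_bot, sub_eq_zero] at h4
    exact h4
  | zero => rw [map_zero]
  | add a b _ _ ha hb => rw [map_add, ha, hb]

end Rep

open Matrix in
/-- The matrix version. -/
theorem amen_of_blocks_matrix {C : Type*} [Group C] {K : Type*} [Field K] {n : ℕ}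
    (ρ : C →* (Matrix (Fin n) (Fin n) K)ˣ) (T : Matrix (Fin n) (Fin n) K) (hT : IsNilpotent T)
    (hc : ∀ c, (ρ c : Matrix (Fin n) (Fin n) K) * T = T * (ρ c : Matrix (Fin n) (Fin n) K))
    (hd : n ≤ 3 ∧ T ≠ 0 ∨ ∀ s : ℕ, (T ^ s).rank + (T ^ (s + 2)).rank ≤
      2 * (T ^ (s + 1)).rank + 1) : IsAmenable ρ.range := by
  let e : Matrix (Fin n) (Fin n) K ≃ₐ[K] Module.End K (Fin n → K) := Matrix.toLinAlgEquiv'
  let α : C →* (Module.End K (Fin n → K))ˣ := (Units.map (e : _ →* _)).comp ρ
  have hα : ∀ c, (α c : Module.End K (Fin n → K)) = e (ρ c : Matrix (Fin n) (Fin n) K) :=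
    fun c => rfl
  have hrank : ∀ s, Module.finrank K (LinearMap.range ((e T) ^ s)) = (T ^ s).rank := by
    intro s
    rw [← map_pow]
    rfl
  have hnil : IsNilpotent (e T) := hT.map e
  have hcomm : ∀ c, (α c : Module.End K (Fin n → K)) * e T = e T * α c := by
    intro c
    rw [hα, ← map_mul, hc, map_mul]
  refine amen_range_of_ker α ρ (fun c h => ?_) (amen_of_blocks (α := α) (e T) hnil hcomm ?_)
  · have h1 := congrArg Units.val h
    rw [hα, Units.val_one] at h1
    refine Units.ext (e.injective ?_)
    rw [h1, Units.val_one, map_one]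
  · rcases hd with ⟨hn, h0⟩ | hd
    · refine blocks_of_le_three (e T) hnil (fun h => h0 (e.injective ?_)) ?_
      · rw [h, map_zero]
      · rw [Module.finrank_fin_fun]
        exact hn
    · intro s
      rw [hrank, hrank, hrank]
      exact hd s

/-- The matrix version, over the algebraic closure. -/
theorem amen_of_eigen_matrix {C : Type*} [Group C] {K : Type*} [Field K] {n : ℕ}
    (ρ : C →* (Matrix (Fin n) (Fin n) K)ˣ) (A : Matrix (Fin n) (Fin n) K)
    (hc : ∀ c, (ρ c : Matrix (Fin n) (Fin n) K) * A = A * (ρ c : Matrix (Fin n) (Fin n) K))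
    (hd : ∀ (μ : AlgebraicClosure K) (s : ℕ),
      ((A.map (algebraMap K (AlgebraicClosure K)) - μ • 1) ^ s).rank +
        ((A.map (algebraMap K (AlgebraicClosure K)) - μ • 1) ^ (s + 2)).rank ≤
          2 * ((A.map (algebraMap K (AlgebraicClosure K)) - μ • 1) ^ (s + 1)).rank + 1) :
    IsAmenable ρ.range := by
  let L := AlgebraicClosure K
  let j : Matrix (Fin n) (Fin n) K →+* Matrix (Fin n) (Fin n) L := (algebraMap K L).mapMatrix
  have hj : Function.Injective j := by
    intro P Q hPQ
    refine Matrix.ext fun a b => (algebraMap K L).injective ?_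
    exact congrFun (congrFun hPQ a) b
  have hjA : j A = A.map (algebraMap K L) := rfl
  let e : Matrix (Fin n) (Fin n) L ≃ₐ[L] Module.End L (Fin n → L) := Matrix.toLinAlgEquiv'
  let α : C →* (Module.End L (Fin n → L))ˣ :=
    ((Units.map (e : _ →* _)).comp (Units.map (j : Matrix (Fin n) (Fin n) K →*
      Matrix (Fin n) (Fin n) L))).comp ρ
  have hα : ∀ c, (α c : Module.End L (Fin n → L)) = e (j (ρ c : Matrix (Fin n) (Fin n) K)) :=
    fun c => rfl
  have hμ : ∀ μ : L, e (j A) - μ • 1 = e (j A - μ • 1) := by
    intro μ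
    rw [map_sub, map_smul, map_one]
  have hrank : ∀ (μ : L) (s : ℕ), Module.finrank L (LinearMap.range ((e (j A) - μ • 1) ^ s)) =
      ((A.map (algebraMap K L) - μ • 1) ^ s).rank := by
    intro μ s
    rw [hμ, ← map_pow]
    rfl
  have hcomm : ∀ c, (α c : Module.End L (Fin n → L)) * e (j A) = e (j A) * α c := by
    intro c
    rw [hα, ← map_mul, ← map_mul, hc, map_mul, map_mul]
  refine amen_range_of_ker α ρ (fun c h => ?_) (amen_of_eigen (α := α) (e (j A)) hcomm ?_)
  · have h1 := congrArg Units.val h
    rw [hα, Units.val_one] at h1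
    refine Units.ext (hj (e.injective ?_))
    rw [h1, Units.val_one, map_one, map_one]
  · intro μ s
    rw [hrank, hrank, hrank]
    exact hd μ s

end Vale.Agent.P184.LA
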