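import Vale.Agent.P184.WDefs

/-!
# Definitions: elements detected by finite dimensional representations
-/

namespace Vale.Agent.P184.LA

universe w

variable {G : Type*} [Group G]

/-- Some finite dimensional representation `ρ` over a field maps `x` to an element of infinite
order and the centralizer of `x` to an amenable group. -/
def AmRep (x : G) : Prop :=
  ∃ (K : Type w) (_ : Field K) (n : ℕ) (ρ : G →* (Matrix (Fin n) (Fin n) K)ˣ),
    ¬ IsOfFinOrder (ρ x) ∧ W.CoAmenable ((W.Cen x).map ρ) ⊥

/-- `x` satisfies `AmRep`, or some finite dimensional representation over a field maps `x` to a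
matrix none of whose positive powers is unipotent. -/
def Lin (x : G) : Prop :=
  AmRep.{w} x ∨ ∃ (K : Type w) (_ : Field K), W.LinDetected x K

/-- `x` satisfies `Lin` in all finitely generated subgroups containing it. -/
def LocLin (x : G) : Prop :=
  ∀ (S : Finset G) (h : x ∈ Subgroup.closure (S : Set G)),
    Lin.{w} (⟨x, h⟩ : Subgroup.closure (S : Set G))

/-- The Jordan blocks of the square matrix `A` with the same eigenvalue `μ` in the algebraic
closure have pairwise different sizes: the number of the blocks of size `s + 1` with eigenvalue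
`μ` is `rank (A - μ) ^ s - 2 * rank (A - μ) ^ (s + 1) + rank (A - μ) ^ (s + 2)`. -/
def DiffBlocks {n : ℕ} {K : Type*} [Field K] (A : Matrix (Fin n) (Fin n) K) : Prop :=
  ∀ (μ : AlgebraicClosure K) (s : ℕ),
    ((A.map (algebraMap K (AlgebraicClosure K)) - μ • 1) ^ s).rank +
      ((A.map (algebraMap K (AlgebraicClosure K)) - μ • 1) ^ (s + 2)).rank ≤
        2 * ((A.map (algebraMap K (AlgebraicClosure K)) - μ • 1) ^ (s + 1)).rank + 1

end Vale.Agent.P184.LA
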