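import Mathlib

set_option linter.all false

/-!
# Specialisation of finitely generated linear groups to number fields
-/

noncomputable section

namespace Vale.Agent.P184.LA

/-- Unipotent elements of finite order are trivial. -/
theorem unip_pow {S : Type*} [Ring S] [Algebra ℚ S] {a : S} (ha : IsNilpotent (a - 1)) {k : ℕ}
    (hk : 0 < k) (h : a ^ k = 1) : a = 1 := by
  by_contra hne
  have hnt : Nontrivial S := ⟨a, 1, hne⟩
  set t := a - 1 with ht
  have ht0 : t ≠ 0 := sub_ne_zero.2 hne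
  have h1 := pow_nilpotencyClass ha
  have h2 := pow_pred_nilpotencyClass ha
  set N := nilpotencyClass t with hN
  have hN2 : 2 ≤ N := by
    by_contra hlt
    have : N = 0 ∨ N = 1 := by omega
    rcases this with h3 | h3
    · rw [h3, pow_zero] at h1
      exact one_ne_zero h1
    · rw [h3, pow_one] at h1
      exact ht0 h1
  obtain ⟨j, hj⟩ : ∃ j, N = j + 2 := ⟨N - 2, by omega⟩
  have h3 : ∀ k : ℕ, a ^ k * t ^ j = t ^ j + (k : ℚ) • t ^ (j + 1) := by
    intro k
    induction k with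
    | zero => simp
    | succ k ih =>
      have h4 : t * t ^ (j + 1) = 0 := by
        rw [← pow_succ', ← h1, hj]
      have h5 : t * t ^ j = t ^ (j + 1) := (pow_succ' _ _).symm
      have h6 : a = 1 + t := by rw [ht]; abel
      rw [pow_succ', mul_assoc, ih, h6, add_mul, one_mul, mul_add, mul_smul_comm, h4, smul_zero,
        add_zero, h5, Nat.cast_succ, add_smul, one_smul, add_assoc]
  have h4 := h3 k
  rw [h, one_mul] at h4
  have h5 : (k : ℚ) • t ^ (j + 1) = 0 := by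
    have := h4.symm
    rwa [add_eq_left] at this
  have hk' : (k : ℚ) ≠ 0 := Nat.cast_ne_zero.2 hk.ne'
  rw [smul_eq_zero_iff_right hk'] at h5
  refine h2 ?_
  rw [hj]
  exact h5

/-- Left regular representations. -/
theorem exists_leftMul (S : Type*) [Ring S] [Algebra ℚ S] [Module.Finite ℚ S] :
    ∃ (N : ℕ) (l : S →+* Matrix (Fin N) (Fin N) ℚ), Function.Injective l := by
  let b := Module.finBasis ℚ S
  exact ⟨_, (Algebra.leftMulMatrix b).toRingHom, Algebra.leftMulMatrix_injective b⟩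

universe u

/-- Residue fields. -/
theorem exists_residue (A : Type u) [CommRing A] [Nontrivial A] [Algebra ℚ A]
    [Algebra.FiniteType ℚ A] : ∃ (F : Type u) (_ : Field F) (_ : Algebra ℚ F)
      (_ : Module.Finite ℚ F), Nonempty (A →+* F) := by
  obtain ⟨M, hM⟩ := Ideal.exists_maximal A
  letI hF : Field (A ⧸ M) := Ideal.Quotient.field M
  have hft2 : Algebra.FiniteType ℚ (A ⧸ M) :=
    Algebra.FiniteType.of_surjective (Ideal.Quotient.mkₐ ℚ M) (Ideal.Quotient.mkₐ_surjective ℚ M)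
  have hfin : Module.Finite ℚ (A ⧸ M) := finite_of_finite_type_of_isJacobsonRing ℚ (A ⧸ M)
  exact ⟨A ⧸ M, hF, inferInstance, hfin, ⟨Ideal.Quotient.mk M⟩⟩

/-- The second step of the specialisation. -/
theorem exists_spec_aux {G : Type*} [Group G] (A : Type u) [CommRing A] [Nontrivial A]
    [Algebra ℚ A] [Algebra.FiniteType ℚ A] {n : ℕ} (ρA : G →* (Matrix (Fin n) (Fin n) A)ˣ) (x : G)
    (m : ℕ) (hn : IsNilpotent ((ρA x : Matrix (Fin n) (Fin n) A) ^ m - 1)) (i j : Fin n)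
    (hij : IsUnit (((ρA x : Matrix (Fin n) (Fin n) A) ^ m - 1) i j)) :
    ∃ (N : ℕ) (σ : G →* (Matrix (Fin N) (Fin N) ℚ)ˣ), (∀ g, ρA g = 1 → σ g = 1) ∧
      ¬ IsOfFinOrder (σ x) := by
  classical
  obtain ⟨F, _, _, _, ⟨π⟩⟩ := exists_residue A
  let ψ₀ : Matrix (Fin n) (Fin n) A →+* Matrix (Fin n) (Fin n) F := π.mapMatrix
  obtain ⟨N, l₀, hl₀⟩ := exists_leftMul (Matrix (Fin n) (Fin n) F)
  refine ⟨N, (Units.map (l₀ : Matrix (Fin n) (Fin n) F →* _)).comp
    ((Units.map (ψ₀ : Matrix (Fin n) (Fin n) A →* _)).comp ρA), ?_, ?_⟩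
  · intro g hg
    rw [MonoidHom.comp_apply, MonoidHom.comp_apply, hg, map_one, map_one]
  · intro hfo
    rw [isOfFinOrder_iff_pow_eq_one] at hfo
    obtain ⟨k, hk, hk1⟩ := hfo
    set X : Matrix (Fin n) (Fin n) A := (ρA x : Matrix (Fin n) (Fin n) A) with hX
    have h2 : l₀ (ψ₀ X) ^ k = 1 := by
      have := congrArg Units.val hk1
      exact this
    have h3 : (ψ₀ X) ^ k = 1 := hl₀ (by rw [map_pow, h2, map_one])
    have h5 : IsNilpotent ((ψ₀ X) ^ m - 1) := by
      have := hn.map ψ₀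
      rwa [map_sub, map_pow, map_one] at this
    have h6 : ((ψ₀ X) ^ m) ^ k = 1 := by
      rw [← pow_mul, mul_comm, pow_mul, h3, one_pow]
    have h7 : (ψ₀ X) ^ m = 1 := unip_pow h5 hk h6
    have h8 : ψ₀ (X ^ m - 1) = 0 := by
      rw [map_sub, map_pow, map_one, h7, sub_self]
    have h9 : π ((X ^ m - 1) i j) = 0 := congrFun (congrFun h8 i) j
    exact (hij.map π).ne_zero h9

/-- Specialisation. -/
theorem exists_spec {G : Type*} [Group G] (T : Set G) (hT : T.Finite)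
    (hgen : Subgroup.closure T = ⊤) {K : Type*} [Field K] [CharZero K] {n : ℕ}
    (ρ : G →* (Matrix (Fin n) (Fin n) K)ˣ) (x : G) (m : ℕ)
    (hn : IsNilpotent ((ρ x : Matrix (Fin n) (Fin n) K) ^ m - 1))
    (h1 : (ρ x : Matrix (Fin n) (Fin n) K) ^ m ≠ 1) :
    ∃ (N : ℕ) (σ : G →* (Matrix (Fin N) (Fin N) ℚ)ˣ), (∀ g, ρ g = 1 → σ g = 1) ∧
      ¬ IsOfFinOrder (σ x) := by
  classical
  obtain ⟨i, j, hij⟩ : ∃ i j, ((ρ x : Matrix (Fin n) (Fin n) K) ^ m - 1) i j ≠ 0 := by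
    by_contra hcon
    push Not at hcon
    exact h1 (sub_eq_zero.1 (Matrix.ext hcon))
  set c : K := ((ρ x : Matrix (Fin n) (Fin n) K) ^ m - 1) i j with hc
  let E : Set K := {c⁻¹} ∪ ⋃ g ∈ T, Set.range fun p : (Fin n × Fin n) × Bool =>
    if p.2 then (ρ g : Matrix (Fin n) (Fin n) K) p.1.1 p.1.2 else
      (ρ g⁻¹ : Matrix (Fin n) (Fin n) K) p.1.1 p.1.2
  have hE : E.Finite := (Set.finite_singleton _).union
    (hT.biUnion fun g _ => Set.finite_range _)
  let A : Subalgebra ℚ K := Algebra.adjoin ℚ E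
  have hEA : ∀ e ∈ E, e ∈ A := fun e he => Algebra.subset_adjoin he
  have hcA : c⁻¹ ∈ A := hEA _ (Or.inl rfl)
  have hgA : ∀ g ∈ T, ∀ a b, (ρ g : Matrix (Fin n) (Fin n) K) a b ∈ A := by
    intro g hg a b
    refine hEA _ (Or.inr ?_)
    rw [Set.mem_iUnion₂]
    exact ⟨g, hg, ((a, b), true), rfl⟩
  have hgA' : ∀ g ∈ T, ∀ a b, (ρ g⁻¹ : Matrix (Fin n) (Fin n) K) a b ∈ A := by
    intro g hg a b
    refine hEA _ (Or.inr ?_)
    rw [Set.mem_iUnion₂]
    exact ⟨g, hg, ((a, b), false), rfl⟩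
  have hft : Algebra.FiniteType ℚ A := by
    rw [← Subalgebra.fg_iff_finiteType]
    have h2 := Subalgebra.fg_adjoin_finset (R := ℚ) hE.toFinset
    rwa [Set.Finite.coe_toFinset] at h2
  -- the representation over `A`
  let φ₀ : Matrix (Fin n) (Fin n) A →+* Matrix (Fin n) (Fin n) K := A.val.toRingHom.mapMatrix
  have hφ₀ : Function.Injective φ₀ := by
    intro P Q hPQ
    refine Matrix.ext fun a b => Subtype.ext ?_
    exact congrFun (congrFun hPQ a) b
  let φ : (Matrix (Fin n) (Fin n) A)ˣ →* (Matrix (Fin n) (Fin n) K)ˣ := Units.map φ₀.toMonoidHom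
  have hφ : Function.Injective φ := Units.map_injective hφ₀
  have hφv : ∀ P : (Matrix (Fin n) (Fin n) A)ˣ, ((φ P : (Matrix (Fin n) (Fin n) K)ˣ) :
      Matrix (Fin n) (Fin n) K) = φ₀ (P : Matrix (Fin n) (Fin n) A) := fun P => rfl
  have hrange : ∀ g, ρ g ∈ φ.range := by
    have h2 : Subgroup.closure T ≤ φ.range.comap ρ := by
      rw [Subgroup.closure_le]
      intro g hg
      let P : Matrix (Fin n) (Fin n) A := fun a b => ⟨_, hgA g hg a b⟩
      let Q : Matrix (Fin n) (Fin n) A := fun a b => ⟨_, hgA' g hg a b⟩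
      have hP : φ₀ P = (ρ g : Matrix (Fin n) (Fin n) K) := rfl
      have hQ : φ₀ Q = ((ρ g)⁻¹ : (Matrix (Fin n) (Fin n) K)ˣ) := by
        rw [← map_inv]
        rfl
      refine ⟨⟨P, Q, hφ₀ ?_, hφ₀ ?_⟩, ?_⟩
      · rw [map_mul, map_one, hP, hQ, Units.mul_inv]
      · rw [map_mul, map_one, hP, hQ, Units.inv_mul]
      · exact Units.ext hP
    intro g
    have h3 : g ∈ Subgroup.closure T := by
      rw [hgen]
      exact Subgroup.mem_top g
    exact h2 h3
  let ρA : G →* (Matrix (Fin n) (Fin n) A)ˣ :=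
    (MonoidHom.ofInjective hφ).symm.toMonoidHom.comp (ρ.codRestrict φ.range hrange)
  have hρA : ∀ g, φ (ρA g) = ρ g := by
    intro g
    have h2 := (MonoidHom.ofInjective hφ).apply_symm_apply (ρ.codRestrict φ.range hrange g)
    exact congrArg Subtype.val h2
  -- the second step
  have hAnt : Nontrivial A := inferInstance
  set X : Matrix (Fin n) (Fin n) A := (ρA x : Matrix (Fin n) (Fin n) A) with hX
  have hXK : φ₀ X = (ρ x : Matrix (Fin n) (Fin n) K) := by
    rw [hX, ← hφv, hρA]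
  have h4 : IsNilpotent (X ^ m - 1) := by
    obtain ⟨r, hr⟩ := hn
    refine ⟨r, hφ₀ ?_⟩
    rw [map_pow, map_sub, map_pow, map_one, map_zero, hXK, hr]
  have h10 : (((X ^ m - 1) i j : A) : K) = c := by
    have : φ₀ (X ^ m - 1) = (ρ x : Matrix (Fin n) (Fin n) K) ^ m - 1 := by
      rw [map_sub, map_pow, map_one, hXK]
    rw [hc, ← this]
    rfl
  have h12 : (⟨c⁻¹, hcA⟩ : A) * ((X ^ m - 1) i j) = 1 := by
    refine Subtype.ext ?_
    rw [Subalgebra.coe_mul, h10]
    exact inv_mul_cancel₀ hij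
  obtain ⟨N, σ, hσ1, hσ2⟩ := exists_spec_aux A ρA x m h4 i j
    (IsUnit.of_mul_eq_one _ ((mul_comm _ _).trans h12))
  refine ⟨N, σ, fun g hg => hσ1 g (hφ ?_), hσ2⟩
  rw [hρA, hg, map_one]

end Vale.Agent.P184.LA
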