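import Vale.Agent.P184.Bdl.B4
import Vale.Agent.P184.R2.H270.Amen

set_option linter.all false

/-!
# Slow maps pulled back along homomorphisms with amenable image of the centralizer
-/

noncomputable section

namespace Vale.Agent.P184.LA

/-- Amenability passes to images of homomorphisms with larger kernels. -/
theorem amen_range_of_ker {C A B : Type*} [Group C] [Group A] [Group B] (α : C →* A) (β : C →* B)
    (h : ∀ c, α c = 1 → β c = 1) (ha : IsAmenable α.range) : IsAmenable β.range := by
  have hs : Function.Surjective α.rangeRestrict := α.rangeRestrict_surjective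
  have hk : α.rangeRestrict.ker ≤ β.rangeRestrict.ker := by
    intro c hc
    rw [MonoidHom.ker_rangeRestrict, MonoidHom.mem_ker] at hc ⊢
    exact h c hc
  refine IsAmenable.of_surjective (α.rangeRestrict.liftOfSurjective hs ⟨β.rangeRestrict, hk⟩) ?_ ha
  rintro ⟨b, c, rfl⟩
  refine ⟨⟨α c, c, rfl⟩, ?_⟩
  have h1 := MonoidHom.liftOfRightInverse_comp_apply α.rangeRestrict
    (Function.surjInv hs) (Function.rightInverse_surjInv hs) ⟨β.rangeRestrict, hk⟩ c
  exact h1

/-- Extensions, for images. -/
theorem amen_range_ext {C A B : Type*} [Group C] [Group A] [Group B] (α : C →* A) (β : C →* B)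
    (ha : IsAmenable α.range)
    (h : ∀ c d, α c = 1 → α d = 1 → β c * β d = β d * β c) : IsAmenable β.range := by
  let γ : C →* A × B := α.prod β
  have h1 : IsAmenable γ.range := by
    let p : γ.range →* A := (MonoidHom.fst A B).comp γ.range.subtype
    have hp : IsAmenable p.range := by
      have hle : p.range ≤ α.range := by
        rintro _ ⟨⟨_, c, rfl⟩, rfl⟩
        exact ⟨c, rfl⟩
      exact isAmenable_of_injective (Subgroup.inclusion hle) (Subgroup.inclusion_injective hle) ha
    refine isAmenable_of_ker p.rangeRestrict ?_ hp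
    refine isAmenable_of_comm _ ?_
    rintro ⟨⟨_, c, rfl⟩, hc⟩ ⟨⟨_, d, rfl⟩, hd⟩
    rw [MonoidHom.ker_rangeRestrict, MonoidHom.mem_ker] at hc hd
    have hc' : α c = 1 := hc
    have hd' : α d = 1 := hd
    refine Subtype.ext (Subtype.ext (Prod.ext ?_ ?_))
    · change α c * α d = α d * α c
      rw [hc', hd']
    · exact h c d hc' hd'
  exact amen_range_of_ker γ β (fun c hc => (Prod.ext_iff.1 hc).2) h1

/-- Slow maps of the target, for elements with amenable image of the centralizer. -/
theorem slowD_of_map {G K : Type*} [Group G] [Group K] (f : G →* K) {x : G} {S : Set G} {δ : ℝ}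
    (hx : IsAmenable ((Subgroup.centralizer ({x} : Set G)).map f)) (h : Slow (f x) (f '' S) δ) :
    SlowD x S δ := by
  classical
  obtain ⟨ι, _, ζ, u, h1, h2, h3, h4⟩ := h
  have hxC : x ∈ Subgroup.centralizer ({x} : Set G) :=
    Subgroup.mem_centralizer_singleton_iff.mpr rfl
  let C := Subgroup.centralizer ({x} : Set G)
  let θ : C →* C.map f := f.subgroupMap C
  have hθs : Function.Surjective θ := f.subgroupMap_surjective C
  have hθ : ∀ c : C, (θ c : K) = f c := fun c => rfl
  let y : C.map f := θ ⟨x, hxC⟩
  have hyc : ∀ g : C.map f, Commute g y := by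
    intro g
    obtain ⟨c, rfl⟩ := hθs g
    have h5 : Commute c (⟨x, hxC⟩ : C) :=
      Subtype.ext (Subgroup.mem_centralizer_singleton_iff.mp c.2)
    exact h5.map θ
  let Z : Subgroup (C.map f) := Subgroup.zpowers y
  have hZn : Z.Normal := by
    refine ⟨fun n hn g => ?_⟩
    have h5 : g * n * g⁻¹ = n := by
      obtain ⟨k, rfl⟩ := hn
      simp only
      rw [((hyc g).zpow_right k).eq, mul_inv_cancel_right]
    rw [h5]
    exact hn
  have hzu : ∀ (n : ℤ) p j, u (f x ^ n * p) j = ζ j ^ n * u p j := by
    have hn : ∀ (n : ℕ) p j, u (f x ^ n * p) j = ζ j ^ n * u p j := by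
      intro n
      induction n with
      | zero => intro p j; simp only [pow_zero, one_mul]
      | succ n ih =>
        intro p j
        rw [pow_succ, mul_assoc, ih, h2, pow_succ, mul_assoc]
    intro n p j
    obtain ⟨m, rfl | rfl⟩ := n.eq_nat_or_neg
    · rw [zpow_natCast, zpow_natCast, hn]
    · have h5 := hn m (f x ^ (-(m : ℤ)) * p) j
      rw [← mul_assoc, zpow_neg, zpow_natCast, mul_inv_cancel, one_mul] at h5
      have h6 : ζ j ≠ 0 := fun h => by
        have := (h1 j).1
        rw [h, norm_zero] at this
        exact zero_ne_one this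
      rw [zpow_neg, zpow_natCast, zpow_neg, zpow_natCast, h5, inv_mul_cancel_left₀ (pow_ne_zero _ h6)]
  have hDn : (Z.comap θ).Normal := inferInstance
  refine ⟨Z.comap θ, hDn, ?_, ⟨hxC, Subgroup.mem_comap.2 (Subgroup.mem_zpowers y)⟩, ι,
    inferInstance, fun d j => if d = x then ζ j else if h : ∃ n : ℤ, f x ^ n = f d then
      ζ j ^ h.choose else 1, fun p => u (f p), fun d j => ?_, fun j => ?_, fun d hd p j => ?_,
    fun p => h3 _, fun s hs p => ?_⟩
  · refine isAmenable_of_injective (QuotientGroup.map (Z.comap θ) Z θ le_rfl) ?_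
      (IsAmenable.of_surjective (QuotientGroup.mk' Z) (QuotientGroup.mk'_surjective Z) hx)
    rw [injective_iff_map_eq_one]
    intro q
    induction q using QuotientGroup.induction_on with
    | H c =>
      intro hc
      rw [QuotientGroup.map_mk, QuotientGroup.eq_one_iff] at hc
      rw [QuotientGroup.eq_one_iff]
      exact hc
  · simp only
    split_ifs
    · exact (h1 j).1
    · rw [norm_zpow, (h1 j).1, one_zpow]
    · exact norm_one
  · change (if x = x then ζ j else _) ≠ 1
    rw [if_pos rfl]
    exact (h1 j).2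
  · simp only
    by_cases h5 : (d : G) = x
    · rw [if_pos h5, h5, map_mul, h2]
    · obtain ⟨n, hn⟩ := Subgroup.mem_comap.1 hd
      have h6 : ∃ n : ℤ, f x ^ n = f (d : G) := ⟨n, by
        have h7 := congrArg (Subtype.val) hn
        rw [hθ] at h7
        rw [← h7]
        rfl⟩
      rw [if_neg h5, dif_pos h6, map_mul]
      have h7 := hzu h6.choose (f p) j
      rwa [h6.choose_spec] at h7
  · simp only
    rw [map_mul]
    exact h4 _ ⟨s, hs, rfl⟩ _

/-- Homomorphisms to groups with property A, with amenable image of the centralizer. -/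
theorem goodD_of_map {G K : Type*} [Group G] [Group K] (f : G →* K) (hK : PropA K) {x : G}
    (h0 : ¬ IsOfFinOrder (f x)) (hx : IsAmenable ((Subgroup.centralizer ({x} : Set G)).map f)) :
    GoodD x := by
  intro S hS δ hδ
  refine slowD_of_map f hx ?_
  obtain ⟨B, _, hB, h⟩ := slow_of_propA hK (S := f '' S) (hS.image f) hδ
  exact h _ fun b hb hc => h0 (hc.isOfFinOrder (hB b hb))

end Vale.Agent.P184.LA
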