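import Vale.Agent.P184.Bdl.B4
import Vale.Agent.P184.R2.H270.Tgt
import Vale.Agent.P184.R2.H270.Spec
import Vale.Agent.P184.R2.H270.GLQ

set_option linter.all false

/-!
# Elements with infinite order and amenable image of the centralizer in a linear group
-/

noncomputable section

namespace Vale.Agent.P184.LA

universe u v w

/-- In some finite dimensional representation, `x` has infinite order and the image of its
centralizer is amenable. -/
def LinAm {G : Type u} [Group G] (x : G) : Prop :=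
  ∃ (K : Type w) (_ : Field K) (n : ℕ) (ρ : G →* (Matrix (Fin n) (Fin n) K)ˣ),
    ¬ IsOfFinOrder (ρ x) ∧ IsAmenable ((Subgroup.centralizer ({x} : Set G)).map ρ)

/-- Restriction along homomorphisms. -/
theorem LinAm.hom {G : Type u} {H : Type v} [Group G] [Group H] (f : H →* G) {y : H}
    (h : LinAm.{u, w} (f y)) : LinAm.{v, w} y := by
  obtain ⟨K, _, n, ρ, h1, h2⟩ := h
  refine ⟨K, inferInstance, n, ρ.comp f, h1, ?_⟩
  have hle : (Subgroup.centralizer ({y} : Set H)).map (ρ.comp f) ≤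
      (Subgroup.centralizer ({f y} : Set G)).map ρ := by
    rintro _ ⟨c, hc, rfl⟩
    refine ⟨f c, ?_, rfl⟩
    have hc' := Subgroup.mem_centralizer_singleton_iff.mp hc
    refine Subgroup.mem_centralizer_singleton_iff.mpr ?_
    rw [← map_mul, ← map_mul, hc']
  exact isAmenable_of_injective (Subgroup.inclusion hle) (Subgroup.inclusion_injective hle) h2

theorem LinAm.conj {G : Type u} [Group G] {x y : G} (h : IsConj x y) (hx : LinAm.{u, w} x) :
    LinAm.{u, w} y := by
  obtain ⟨c, hc⟩ := isConj_iff.mp h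
  refine LinAm.hom (MulAut.conj c⁻¹).toMonoidHom (y := y) ?_
  have h1 : (MulAut.conj c⁻¹).toMonoidHom y = x := by
    rw [← hc]
    simp only [map_inv, MulEquiv.toMonoidHom_eq_coe, mul_assoc, MonoidHom.coe_coe, MulAut.inv_apply,
      MulAut.conj_symm_apply, inv_mul_cancel_left, inv_mul_cancel, mul_one]
  rw [h1]
  exact hx

/-- In positive characteristic, unipotent matrices have finite order. -/
theorem finOrder_charP {K : Type w} [Field K] (p : ℕ) [Fact p.Prime] [CharP K p] {n : ℕ}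
    {g : (Matrix (Fin n) (Fin n) K)ˣ} {m : ℕ} (hm : 0 < m)
    (h : IsNilpotent ((g : Matrix (Fin n) (Fin n) K) ^ m - 1)) : IsOfFinOrder g := by
  obtain ⟨k, hk⟩ := h
  rcases Nat.eq_zero_or_pos n with hn | hn
  · subst hn
    have h1 : g = 1 := Units.ext (Subsingleton.elim _ _)
    rw [h1]
    exact IsOfFinOrder.one
  have : Nonempty (Fin n) := ⟨⟨0, hn⟩⟩
  have hchar : CharP (Matrix (Fin n) (Fin n) K) p := inferInstance
  obtain ⟨r, hr⟩ : ∃ r : ℕ, k ≤ p ^ r := by
    obtain ⟨r, hr⟩ := pow_unbounded_of_one_lt k (Fact.out : p.Prime).one_lt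
    exact ⟨r, hr.le⟩
  have h1 : ((g : Matrix (Fin n) (Fin n) K) ^ m - 1) ^ (p ^ r) = 0 := pow_eq_zero_of_le hr hk
  have h2 : ((g : Matrix (Fin n) (Fin n) K) ^ m) ^ (p ^ r) = 1 := by
    rw [sub_pow_char_pow_of_commute p r (Commute.one_right _), one_pow, sub_eq_zero] at h1
    exact h1
  rw [isOfFinOrder_iff_pow_eq_one]
  refine ⟨m * p ^ r, Nat.mul_pos hm (pow_pos (Fact.out : p.Prime).pos r), Units.ext ?_⟩
  rw [Units.val_pow_eq_pow_val, pow_mul, h2, Units.val_one]

/-- The dichotomy. -/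
theorem linDetected_or {G : Type u} [Group G] {K : Type w} [Field K] {n : ℕ}
    (ρ : G →* (Matrix (Fin n) (Fin n) K)ˣ) {x : G} (hx : ¬ IsOfFinOrder (ρ x)) :
    LinDetected x K ∨ CharZero K ∧ ∃ m : ℕ, 0 < m ∧
      IsNilpotent ((ρ x : Matrix (Fin n) (Fin n) K) ^ m - 1) ∧
      (ρ x : Matrix (Fin n) (Fin n) K) ^ m ≠ 1 := by
  by_cases h : ∀ m : ℕ, 0 < m → ¬ IsNilpotent ((ρ x : Matrix (Fin n) (Fin n) K) ^ m - 1)
  · exact Or.inl ⟨n, (Units.coeHom _).comp ρ, h⟩
  push Not at h
  obtain ⟨m, hm, hn⟩ := h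
  refine Or.inr ⟨?_, m, hm, hn, fun h1 => hx ?_⟩
  · obtain ⟨p, hp⟩ := CharP.exists K
    rcases CharP.char_is_prime_or_zero K p with hpp | hp0
    · exfalso
      haveI : Fact p.Prime := ⟨hpp⟩
      exact hx (finOrder_charP p hm hn)
    · subst hp0
      exact CharP.charP_to_charZero K
  · rw [isOfFinOrder_iff_pow_eq_one]
    refine ⟨m, hm, Units.ext ?_⟩
    rw [Units.val_pow_eq_pow_val, h1, Units.val_one]

/-- The result for finitely generated groups. -/
theorem linAm_fg {G : Type u} [Group G] (T : Set G) (hT : T.Finite)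
    (hgen : Subgroup.closure T = ⊤) {x : G} (h : LinAm.{u, w} x) : LocCharged x ∨ GoodD x := by
  obtain ⟨K, _, n, ρ, h1, h2⟩ := h
  rcases linDetected_or ρ h1 with h3 | ⟨h0, m, hm, h3, h4⟩
  · exact Or.inl (locCharged_of_linDetected h3)
  · right
    obtain ⟨N, σ, hσ1, hσ2⟩ := exists_spec T hT hgen ρ x m h3 h4
    refine goodD_of_map σ (propA_glq N) hσ2 ?_
    have h5 := amen_range_of_ker (ρ.comp (Subgroup.centralizer ({x} : Set G)).subtype)
      (σ.comp (Subgroup.centralizer ({x} : Set G)).subtype) (fun c hc => hσ1 _ hc) (by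
        rw [MonoidHom.range_comp, Subgroup.range_subtype]
        exact h2)
    rw [MonoidHom.range_comp, Subgroup.range_subtype] at h5
    exact h5

/-- Local version. -/
def LocLinAm {G : Type u} [Group G] (x : G) : Prop :=
  ∀ (S : Finset G) (h : x ∈ Subgroup.closure (S : Set G)),
    LinAm.{u, w} (⟨x, h⟩ : Subgroup.closure (S : Set G))

theorem LinAm.loc {G : Type u} [Group G] {x : G} (hx : LinAm.{u, w} x) : LocLinAm.{u, w} x :=
  fun S h => LinAm.hom (y := (⟨x, h⟩ : Subgroup.closure (S : Set G)))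
    (Subgroup.closure (S : Set G)).subtype hx

theorem closure_coe_top {G : Type u} [Group G] (S : Finset G) :
    ∃ T : Set (Subgroup.closure (S : Set G)), T.Finite ∧ Subgroup.closure T = ⊤ := by
  have hfg : Group.FG (Subgroup.closure (S : Set G)) :=
    (Group.fg_iff_subgroup_fg _).mpr ⟨S, rfl⟩
  obtain ⟨T, hT⟩ := hfg.out
  exact ⟨T, T.finite_toSet, hT⟩

theorem LocLinAm.conj_closure {G : Type u} [Group G] {x : G} (hx : LocLinAm.{u, w} x)
    (S : Finset G) (y : Subgroup.closure (S : Set G)) (hy : IsConj x y) : LinAm.{u, w} y := by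
  classical
  obtain ⟨c, hc⟩ := isConj_iff.mp hy
  have hc' : c * x * c⁻¹ = (y : G) := hc
  let S' : Finset G := insert c S
  have hSS : Subgroup.closure (S : Set G) ≤ Subgroup.closure (S' : Set G) :=
    Subgroup.closure_mono (by simp [S'])
  have hcS : c ∈ Subgroup.closure (S' : Set G) := Subgroup.subset_closure (by simp [S'])
  have hyS : (y : G) ∈ Subgroup.closure (S' : Set G) := hSS y.2
  have hxS : x ∈ Subgroup.closure (S' : Set G) := by
    have h1 : x = c⁻¹ * y * c := by rw [← hc']; group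
    rw [h1]
    exact Subgroup.mul_mem _ (Subgroup.mul_mem _ (Subgroup.inv_mem _ hcS) hyS) hcS
  have h2 := hx S' hxS
  refine LinAm.hom (Subgroup.inclusion hSS) (y := y) ?_
  refine LinAm.conj ?_ h2
  refine isConj_iff.mpr ⟨⟨c, hcS⟩, ?_⟩
  exact Subtype.ext hc'

/-- Vanishing. -/
theorem vanishesAt_of_locLinAm {G : Type u} [Group G] {x : G} (hx : LocLinAm.{u, w} x) :
    VanishesAt x := by
  classical
  refine vanishesAt_of_local.{u, u} x fun S => ?_
  obtain ⟨s, hs⟩ := liftsTo_closure S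
  refine ⟨Subgroup.closure (S : Set G), inferInstance, _, s, hs, fun y hy => ?_⟩
  obtain ⟨T, hT, hT2⟩ := closure_coe_top S
  rcases linAm_fg T hT hT2 (hx.conj_closure S y hy) with h | h
  · exact vanishesAt_of_locCharged h
  · exact vanishesAt_of_goodD h

end Vale.Agent.P184.LA
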