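import Vale.Agent.P184.R2.H270.FinPl

/-!
# A locally finite partition of unity on `GL_N(ℝ)`
-/

noncomputable section

namespace Vale.Agent.P184.LA

open Matrix

open scoped Matrix.Norms.Operator

variable {N : ℕ}

theorem norm_le_of_rows {A : Matrix (Fin N) (Fin N) ℝ} {c : ℝ} (hc : 0 ≤ c)
    (h : ∀ i, ∑ j, |A i j| ≤ c) : ‖A‖ ≤ c := by
  rw [linfty_opNorm_def]
  have h1 : (Finset.univ.sup fun i : Fin N => ∑ j, ‖A i j‖₊) ≤ (⟨c, hc⟩ : NNReal) := by
    refine Finset.sup_le fun i _ => NNReal.coe_le_coe.1 ?_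
    rw [NNReal.coe_sum]
    exact h i
  exact NNReal.coe_le_coe.2 h1

theorem abs_row_le (A : Matrix (Fin N) (Fin N) ℝ) (i : Fin N) : ∑ j, |A i j| ≤ ‖A‖ := by
  rw [linfty_opNorm_def]
  have h1 : ∑ j, ‖A i j‖₊ ≤ (Finset.univ.sup fun i : Fin N => ∑ j, ‖A i j‖₊) :=
    Finset.le_sup (f := fun i : Fin N => ∑ j, ‖A i j‖₊) (Finset.mem_univ i)
  have h2 := NNReal.coe_le_coe.2 h1
  rw [NNReal.coe_sum] at h2
  exact h2

theorem abs_entry_le (A : Matrix (Fin N) (Fin N) ℝ) (i j : Fin N) : |A i j| ≤ ‖A‖ :=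
  (Finset.single_le_sum (f := fun j => |A i j|) (fun _ _ => abs_nonneg _)
    (Finset.mem_univ j)).trans (abs_row_le A i)

theorem norm_one_le : ‖(1 : Matrix (Fin N) (Fin N) ℝ)‖ ≤ 1 := by
  refine norm_le_of_rows zero_le_one fun i => le_of_eq ?_
  rw [Finset.sum_eq_single i (fun j _ hj => by rw [one_apply_ne hj.symm, abs_zero])
    (fun h => absurd (Finset.mem_univ _) h), one_apply_eq, abs_one]

/-- The size of an invertible matrix. -/
def wt (g : GLn N ℝ) : ℝ := max ‖g.1‖ ‖g⁻¹.1‖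

theorem wt_nonneg (g : GLn N ℝ) : 0 ≤ wt g := (norm_nonneg _).trans (le_max_left _ _)

theorem wt_inv (g : GLn N ℝ) : wt g⁻¹ = wt g := by
  unfold wt
  rw [inv_inv, max_comm]

theorem wt_mul (g h : GLn N ℝ) : wt (g * h) ≤ wt g * wt h := by
  refine max_le ?_ ?_
  · rw [Units.val_mul]
    exact (norm_mul_le _ _).trans (mul_le_mul (le_max_left _ _) (le_max_left _ _)
      (norm_nonneg _) (wt_nonneg g))
  · rw [_root_.mul_inv_rev, Units.val_mul, mul_comm (wt g)]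
    exact (norm_mul_le _ _).trans (mul_le_mul (le_max_right _ _) (le_max_right _ _)
      (norm_nonneg _) (wt_nonneg h))

theorem wt_one_le : wt (1 : GLn N ℝ) ≤ 1 := by
  unfold wt
  rw [inv_one, Units.val_one, max_self]
  exact norm_one_le

theorem entry_le_wt (g : GLn N ℝ) (i j : Fin N) : |g.1 i j| ≤ wt g :=
  (abs_entry_le _ i j).trans (le_max_left _ _)

variable (N) in
/-- A uniformly locally finite set which is coarsely dense. -/
theorem exists_net : ∃ E : Set (GLn N ℝ), (∀ x, ∃ n ∈ E, wt (n⁻¹ * x) ≤ 2) ∧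
    ∀ C : ℝ, ∃ M : ℕ, ∀ x, {n | n ∈ E ∧ wt (n⁻¹ * x) ≤ C}.Finite ∧
      {n | n ∈ E ∧ wt (n⁻¹ * x) ≤ C}.ncard ≤ M := by
  classical
  let R : GLn N ℝ → GLn N ℝ → Prop := fun a b => 2 < wt (a⁻¹ * b)
  obtain ⟨E, hE⟩ := zorn_subset {A : Set (GLn N ℝ) | A.Pairwise R} fun c hc hcc =>
    ⟨⋃₀ c, (Set.pairwise_sUnion hcc.directedOn).2 hc, fun s hs => Set.subset_sUnion_of_mem hs⟩
  have hEp : E.Pairwise R := hE.prop
  refine ⟨E, fun x => ?_, fun C => ?_⟩
  · by_contra hcon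
    push Not at hcon
    have hx : x ∉ E := fun hx => by
      have h1 := hcon x hx
      rw [inv_mul_cancel] at h1
      linarith [wt_one_le (N := N)]
    have h2 : (insert x E).Pairwise R := by
      rw [Set.pairwise_insert]
      refine ⟨hEp, fun b hb _ => ⟨?_, hcon b hb⟩⟩
      show 2 < wt (x⁻¹ * b)
      have h3 : x⁻¹ * b = (b⁻¹ * x)⁻¹ := by group
      rw [h3, wt_inv]
      exact hcon b hb
    exact hx (hE.le_of_ge h2 (Set.subset_insert x E) (Set.mem_insert x E))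
  · have hprop : ProperSpace (Matrix (Fin N) (Fin N) ℝ) := FiniteDimensional.proper_real _
    set η : ℝ := 1 / (|C| + 1) with hη
    have hη0 : 0 < η := by positivity
    obtain ⟨t, _, ht, hcov⟩ := (isCompact_closedBall (0 : Matrix (Fin N) (Fin N) ℝ)
      C).finite_cover_balls (half_pos hη0)
    have hg : ∀ y : Matrix (Fin N) (Fin N) ℝ, ∃ z, ‖y‖ ≤ C → z ∈ t ∧ dist y z < η / 2 := by
      intro y
      by_cases hy : ‖y‖ ≤ C
      · have h1 : y ∈ Metric.closedBall (0 : Matrix (Fin N) (Fin N) ℝ) C := by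
          rw [mem_closedBall_zero_iff]; exact hy
        have h2 := hcov h1
        simp only [Set.mem_iUnion] at h2
        obtain ⟨z, hz, hyz⟩ := h2
        exact ⟨z, fun _ => ⟨hz, hyz⟩⟩
      · exact ⟨0, fun h => absurd h hy⟩
    choose g hg using hg
    refine ⟨t.ncard, fun x => ?_⟩
    set T : Set (GLn N ℝ) := {n | n ∈ E ∧ wt (n⁻¹ * x) ≤ C} with hT
    have hn : ∀ n ∈ T, ‖(x⁻¹ * n).1‖ ≤ C ∧ ‖(x⁻¹ * n)⁻¹.1‖ ≤ C := by
      rintro n ⟨_, hn⟩
      have h3 : n⁻¹ * x = (x⁻¹ * n)⁻¹ := by group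
      rw [h3, wt_inv] at hn
      exact ⟨(le_max_left _ _).trans hn, (le_max_right _ _).trans hn⟩
    have hmaps : ∀ n ∈ T, g (x⁻¹ * n).1 ∈ t := fun n h => (hg _ (hn n h).1).1
    have hbd : ∀ y y' : GLn N ℝ, ‖y⁻¹.1‖ ≤ C → dist y.1 y'.1 < η → ‖(y⁻¹ * y').1‖ ≤ 2 := by
      intro y y' hy hd
      have h1 : (y⁻¹ * y').1 = 1 + y⁻¹.1 * (y'.1 - y.1) := by
        rw [mul_sub, ← Units.val_mul, ← Units.val_mul, inv_mul_cancel, Units.val_one]
        abel
      rw [h1]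
      refine (norm_add_le _ _).trans ?_
      have h2 : ‖y⁻¹.1 * (y'.1 - y.1)‖ ≤ C * η := by
        refine (norm_mul_le _ _).trans (mul_le_mul hy ?_ (norm_nonneg _)
          ((norm_nonneg _).trans hy))
        rw [← dist_eq_norm, dist_comm]
        exact hd.le
      have h3 : C * η ≤ 1 := by
        rw [hη, mul_one_div, div_le_one (by positivity)]
        linarith [le_abs_self C]
      linarith [norm_one_le (N := N)]
    have hinj : Set.InjOn (fun n : GLn N ℝ => g (x⁻¹ * n).1) T := by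
      intro n hnT n' hnT' heq
      by_contra hne
      have h1 : 2 < wt (n⁻¹ * n') := hEp hnT.1 hnT'.1 hne
      refine absurd h1 (not_lt.2 ?_)
      have h2 := (hg _ (hn n hnT).1).2
      have h3 := (hg _ (hn n' hnT').1).2
      have heq' : g (x⁻¹ * n).1 = g (x⁻¹ * n').1 := heq
      rw [← heq'] at h3
      have h4 : dist (x⁻¹ * n).1 (x⁻¹ * n').1 < η := by
        refine (dist_triangle_right _ _ (g (x⁻¹ * n).1)).trans_lt ?_
        linarith
      have h5 : n⁻¹ * n' = (x⁻¹ * n)⁻¹ * (x⁻¹ * n') := by group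
      have h6 : (n⁻¹ * n')⁻¹ = (x⁻¹ * n')⁻¹ * (x⁻¹ * n) := by group
      refine max_le ?_ ?_
      · rw [h5]
        exact hbd _ _ (hn n hnT).2 h4
      · rw [h6]
        exact hbd _ _ (hn n' hnT').2 (by rw [dist_comm]; exact h4)
    exact ⟨Set.Finite.of_injOn hmaps hinj ht, Set.ncard_le_ncard_of_injOn _ hmaps hinj ht⟩

theorem max_diff {a b η : ℝ} (hη : 0 ≤ η) (h1 : b ≤ a * (1 + η))
    (h2 : a ≤ b * (1 + η)) : |max 0 (4 - b) - max 0 (4 - a)| ≤ 4 * η := by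
  rw [abs_le]
  constructor
  · rcases le_total 4 a with h | h
    · rw [max_eq_left (by linarith : 4 - a ≤ 0)]
      linarith [le_max_left 0 (4 - b)]
    · have h3 := le_max_right 0 (4 - b)
      rw [max_eq_right (by linarith : 0 ≤ 4 - a)]
      nlinarith
  · rcases le_total 4 b with h | h
    · rw [max_eq_left (by linarith : 4 - b ≤ 0)]
      linarith [le_max_left 0 (4 - a)]
    · have h3 := le_max_right 0 (4 - a)
      rw [max_eq_right (by linarith : 0 ≤ 4 - b)]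
      nlinarith

variable (N) in
/-- The partition of unity. -/
theorem exists_unity : ∃ (Z : Type) (Φ : GLn N ℝ → Z →₀ ℝ), (∀ x z, 0 ≤ Φ x z) ∧
    (∀ x, mass (Φ x) = 1) ∧
    (∀ ε : ℝ, 0 < ε → ∃ η : ℝ, 0 < η ∧ ∀ x v, wt v ≤ 1 + η → nrm (Φ (x * v) - Φ x) ≤ ε) ∧
    ∀ x y z, Φ x z ≠ 0 → Φ y z ≠ 0 → wt (x⁻¹ * y) ≤ 16 := by
  classical
  obtain ⟨E, hE1, hE2⟩ := exists_net N
  obtain ⟨M, hM⟩ := hE2 4
  let φ : GLn N ℝ → ℝ := fun y => max 0 (4 - wt y)
  have hφ0 : ∀ y, 0 ≤ φ y := fun y => le_max_left _ _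
  have hφ1 : ∀ y, φ y ≠ 0 → wt y ≤ 4 := fun y hy => by
    by_contra h
    exact hy (max_eq_left (by linarith [not_le.1 h]))
  have hfin : ∀ x, {n : E | wt ((n : GLn N ℝ)⁻¹ * x) ≤ 4}.Finite := fun x =>
    ((hM x).1.preimage Subtype.val_injective.injOn).subset fun n hn => ⟨n.2, hn⟩
  have hcard : ∀ x, (hfin x).toFinset.card ≤ M := fun x => by
    refine le_trans (le_of_eq ?_) (hM x).2
    rw [← Set.ncard_eq_toFinset_card _ (hfin x)]
    have h1 : {n | n ∈ E ∧ wt (n⁻¹ * x) ≤ 4} =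
        Subtype.val '' {n : E | wt ((n : GLn N ℝ)⁻¹ * x) ≤ 4} := by
      ext n
      constructor
      · rintro ⟨h, h2⟩; exact ⟨⟨n, h⟩, h2, rfl⟩
      · rintro ⟨n, h, rfl⟩; exact ⟨n.2, h⟩
    rw [h1, Set.ncard_image_of_injective _ Subtype.val_injective]
  let ψ : GLn N ℝ → E →₀ ℝ := fun x => Finsupp.onFinset (hfin x).toFinset
    (fun n => φ ((n : GLn N ℝ)⁻¹ * x)) fun n hn => by
      rw [Set.Finite.mem_toFinset]
      exact hφ1 _ hn
  have hψ : ∀ x n, ψ x n = φ ((n : GLn N ℝ)⁻¹ * x) := fun _ _ => rfl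
  have hψ0 : ∀ x n, 0 ≤ ψ x n := fun x n => hφ0 _
  have hT : ∀ x, 2 ≤ mass (ψ x) := by
    intro x
    obtain ⟨n, hn, hnx⟩ := hE1 x
    rw [← nrm_eq_mass (hψ0 x)]
    refine le_trans ?_ (abs_le_nrm (ψ x) ⟨n, hn⟩)
    rw [hψ, abs_of_nonneg (hφ0 _)]
    exact le_trans (by linarith) (le_max_right 0 (4 - wt (n⁻¹ * x)))
  have hsupp : ∀ x, (ψ x).support ⊆ (hfin x).toFinset := fun x => Finsupp.support_onFinset_subset
  have hdiff : ∀ η : ℝ, 0 ≤ η → ∀ x v, wt v ≤ 1 + η →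
      nrm (ψ (x * v) - ψ x) ≤ 8 * M * η := by
    intro η hη x v hv
    have hs : (ψ (x * v) - ψ x).support ⊆ (hfin (x * v)).toFinset ∪ (hfin x).toFinset :=
      (Finsupp.support_sub).trans (Finset.union_subset_union (hsupp _) (hsupp _))
    rw [nrm_eq_sum hs]
    have h1 : ∀ n ∈ (hfin (x * v)).toFinset ∪ (hfin x).toFinset,
        |(ψ (x * v) - ψ x) n| ≤ 4 * η := by
      intro n _
      rw [Finsupp.sub_apply, hψ, hψ]
      refine max_diff hη ?_ ?_
      · rw [← mul_assoc]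
        refine (wt_mul _ _).trans (mul_le_mul_of_nonneg_left hv (wt_nonneg _))
      · have h2 : (n : GLn N ℝ)⁻¹ * x = (n : GLn N ℝ)⁻¹ * (x * v) * v⁻¹ := by group
        rw [h2]
        refine (wt_mul _ _).trans (mul_le_mul_of_nonneg_left ?_ (wt_nonneg _))
        rw [wt_inv]
        exact hv
    refine (Finset.sum_le_card_nsmul _ _ _ h1).trans ?_
    rw [nsmul_eq_mul]
    have h3 : (((hfin (x * v)).toFinset ∪ (hfin x).toFinset).card : ℝ) ≤ M + M := by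
      exact_mod_cast (Finset.card_union_le _ _).trans (add_le_add (hcard _) (hcard _))
    nlinarith
  refine ⟨E, fun x => (mass (ψ x))⁻¹ • ψ x, fun x z => ?_, fun x => ?_, fun ε hε => ?_,
    fun x y z hx hy => ?_⟩
  · rw [Finsupp.smul_apply, smul_eq_mul]
    exact mul_nonneg (inv_nonneg.2 (by linarith [hT x])) (hψ0 x z)
  · rw [mass_smul]
    exact inv_mul_cancel₀ (by linarith [hT x])
  · refine ⟨ε / (8 * M + 1), by positivity, fun x v hv => ?_⟩
    set η := ε / (8 * M + 1) with hη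
    have hη0 : 0 ≤ η := by positivity
    have h1 := hdiff η hη0 x v hv
    have h2 : 8 * M * η ≤ ε := by
      rw [hη, mul_div_assoc', div_le_iff₀ (by positivity)]
      nlinarith
    set T := mass (ψ x) with hTx
    set T' := mass (ψ (x * v)) with hTx'
    have hT1 : 2 ≤ T := hT x
    have hT2 : 2 ≤ T' := hT (x * v)
    have h3 : |T - T'| ≤ ε := by
      have h4 : T - T' = mass (ψ x - ψ (x * v)) := by
        rw [sub_eq_add_neg (ψ x), mass_add, ← neg_one_smul ℝ (ψ (x * v)), mass_smul]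
        ring
      rw [h4]
      refine (abs_mass_le _).trans ?_
      rw [nrm_sub_comm]
      exact h1.trans h2
    have h5 : T'⁻¹ • ψ (x * v) - T⁻¹ • ψ x =
        T'⁻¹ • (ψ (x * v) - ψ x) + (T'⁻¹ * (T - T') * T⁻¹) • ψ x := by
      have h6 : T'⁻¹ * (T - T') * T⁻¹ = T'⁻¹ - T⁻¹ := by
        field_simp
      rw [h6, smul_sub, sub_smul]
      abel
    rw [h5]
    refine (nrm_add _ _).trans ?_
    rw [nrm_smul, nrm_smul, nrm_eq_mass (hψ0 x), abs_mul, abs_mul, abs_of_pos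
      (inv_pos.2 (by linarith : 0 < T')), abs_of_pos (inv_pos.2 (by linarith : 0 < T))]
    have h7 : T'⁻¹ ≤ 1 / 2 := by
      rw [inv_le_comm₀ (by linarith) (by norm_num)]
      linarith
    have h8 : T'⁻¹ * |T - T'| * T⁻¹ * T = T'⁻¹ * |T - T'| := by
      rw [mul_assoc, inv_mul_cancel₀ (by linarith), mul_one]
    show T'⁻¹ * nrm (ψ (x * v) - ψ x) + T'⁻¹ * |T - T'| * T⁻¹ * T ≤ ε
    rw [h8]
    have h9 : T'⁻¹ * nrm (ψ (x * v) - ψ x) ≤ 1 / 2 * ε :=
      mul_le_mul h7 (h1.trans h2) (nrm_nonneg _) (by norm_num)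
    have h10 : T'⁻¹ * |T - T'| ≤ 1 / 2 * ε := mul_le_mul h7 h3 (abs_nonneg _) (by norm_num)
    linarith
  · have hx1 : wt ((z : GLn N ℝ)⁻¹ * x) ≤ 4 := hφ1 _ (right_ne_zero_of_mul hx)
    have hy1 : wt ((z : GLn N ℝ)⁻¹ * y) ≤ 4 := hφ1 _ (right_ne_zero_of_mul hy)
    have h1 : x⁻¹ * y = ((z : GLn N ℝ)⁻¹ * x)⁻¹ * ((z : GLn N ℝ)⁻¹ * y) := by group
    rw [h1]
    refine (wt_mul _ _).trans ?_
    rw [wt_inv]
    nlinarith [wt_nonneg ((z : GLn N ℝ)⁻¹ * x), wt_nonneg ((z : GLn N ℝ)⁻¹ * y)]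

end Vale.Agent.P184.LA
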