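import Vale.Agent.P184.R2.H270.RealNet

/-!
# Fields on `GL_N(ℝ)`
-/

noncomputable section

namespace Vale.Agent.P184.LA

open Matrix
open scoped Matrix.Norms.Operator

variable {N : ℕ}

theorem exists_qr (p : GLn N ℝ) : ∃ k : GLn N ℝ, wt k ≤ N ∧ Low (p * k).1 := by
  let f : Fin N → EuclideanSpace ℝ (Fin N) := fun i => WithLp.toLp 2 (p.1 i)
  have hd : Module.finrank ℝ (EuclideanSpace ℝ (Fin N)) = Fintype.card (Fin N) := by
    rw [finrank_euclideanSpace]
  let b := InnerProductSpace.gramSchmidtOrthonormalBasis hd f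
  let K : Matrix (Fin N) (Fin N) ℝ := Matrix.of fun l j => b j l
  have hin : ∀ x y : EuclideanSpace ℝ (Fin N), inner ℝ x y = ∑ l, x l * y l := fun x y => by
    rw [PiLp.inner_apply]
    refine Finset.sum_congr rfl fun l _ => ?_
    simp [mul_comm]
  have hK : Kᵀ * K = 1 := by
    ext i j
    rw [mul_apply, one_apply]
    have h1 := (orthonormal_iff_ite.1 b.orthonormal) i j
    rw [hin] at h1
    exact h1
  have hK' : K * Kᵀ = 1 := mul_eq_one_comm.1 hK
  let k : GLn N ℝ := ⟨K, Kᵀ, hK', hK⟩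
  have hent : ∀ l j, |K l j| ≤ 1 := fun l j => by
    have h1 : (Kᵀ * K) j j = 1 := by rw [hK, one_apply_eq]
    rw [mul_apply] at h1
    have h2 := Finset.single_le_sum (f := fun l => Kᵀ j l * K l j)
      (fun l _ => mul_self_nonneg (K l j)) (Finset.mem_univ l)
    rw [h1] at h2
    exact abs_le_one_iff_mul_self_le_one.2 h2
  refine ⟨k, max_le ?_ ?_, fun i j hij => ?_⟩
  · refine norm_le_of_rows (Nat.cast_nonneg _) fun i => ?_
    refine (Finset.sum_le_card_nsmul _ _ 1 fun j _ => hent i j).trans ?_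
    simp
  · refine norm_le_of_rows (Nat.cast_nonneg _) fun i => ?_
    refine (Finset.sum_le_card_nsmul _ _ 1 fun j _ => hent j i).trans ?_
    simp
  · rw [Units.val_mul, mul_apply]
    have h1 := InnerProductSpace.gramSchmidtOrthonormalBasis_inv_triangular hd f hij
    rw [hin] at h1
    rw [← h1]
    exact Finset.sum_congr rfl fun l _ => mul_comm _ _

/-- Row sums of lower triangular matrices. -/
theorem low_norm_le {A : Matrix (Fin N) (Fin N) ℝ} (hA : Low A) {a b : ℝ} (ha : 0 ≤ a)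
    (hb : 0 ≤ b) (h1 : ∀ i, |A i i| ≤ a) (h2 : ∀ i j, j < i → |A i j| ≤ b) :
    ‖A‖ ≤ a + N * b := by
  refine norm_le_of_rows (by positivity) fun i => ?_
  rw [← Finset.add_sum_erase _ _ (Finset.mem_univ i)]
  refine add_le_add (h1 i) ?_
  have h3 : ∀ j ∈ Finset.univ.erase i, |A i j| ≤ b := by
    intro j hj
    rcases lt_or_gt_of_ne (Finset.ne_of_mem_erase hj) with h | h
    · exact h2 i j h
    · rw [hA i j h, abs_zero]; exact hb
  refine (Finset.sum_le_card_nsmul _ _ _ h3).trans ?_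
  rw [nsmul_eq_mul]
  refine mul_le_mul_of_nonneg_right ?_ hb
  have h4 := Finset.card_erase_le (s := (Finset.univ : Finset (Fin N))) (a := i)
  rw [Finset.card_univ, Fintype.card_fin] at h4
  exact_mod_cast h4

/-- Contraction at the real place. -/
theorem contract_real {C B t η lam : ℝ} (hC : 0 ≤ C) (hB : 0 ≤ B) (ht : 1 < t)
    (htη : t ≤ 1 + η / 2) (hlam : 1 ≤ lam) (hlam2 : N * (2 * C * (C * B)) ≤ η / 2 * lam)
    (r : GLn N ℝ) (hr : Low r.1) (hrC : wt r ≤ C) (k : Fin N → ℤ)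
    (hk1 : ∀ i, t ^ k i ≤ |r.1 i i|) (hk2 : ∀ i, |r.1 i i| < t ^ (k i + 1)) (ht2 : t ≤ 2)
    (b : Fin N → ℝ) (hbB : ∀ i j, |b j / b i| ≤ B) {x u : Fin N → ℝ}
    (hx : ∀ i, x i ≠ 0) (hu : ∀ i, u i ≠ 0) (hxb : ∀ i, x i = lam ^ (i : ℕ) * b i)
    (hux : ∀ i, u i = t ^ k i * x i) : wt ((dgl u hu)⁻¹ * r * dgl x hx) ≤ 1 + η := by
  have ht0 : 0 < t := by linarith
  have hlam0 : 0 < lam := by linarith
  have htk : ∀ i, 0 < t ^ k i := fun i => zpow_pos ht0 _
  have hdi : ∀ i, (r.1 i i)⁻¹ = r⁻¹.1 i i := fun i =>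
    inv_eq_of_mul_eq_one_right (hr.diag_mul_inv i)
  have hr0 : ∀ i, 0 < |r.1 i i| := fun i => abs_pos.2 (hr.diag_ne_zero i)
  have hk3 : ∀ i, t ^ k i ≤ C := fun i => (hk1 i).trans ((entry_le_wt r i i).trans hrC)
  have hk4 : ∀ i, (t ^ k i)⁻¹ ≤ 2 * C := fun i => by
    have h1 : |r.1 i i|⁻¹ ≤ C := by
      rw [← abs_inv, hdi]
      exact (abs_entry_le _ i i).trans ((le_max_right _ _).trans hrC)
    have h2 : (t ^ k i)⁻¹ = t * (t ^ (k i + 1))⁻¹ := by
      rw [zpow_add_one₀ ht0.ne', mul_inv]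
      field_simp
    rw [h2]
    have h3 : (t ^ (k i + 1))⁻¹ ≤ |r.1 i i|⁻¹ := inv_anti₀ (hr0 i) (hk2 i).le
    exact mul_le_mul ht2 (h3.trans h1) (inv_nonneg.2 (zpow_pos ht0 _).le) (by norm_num)
  -- the powers of `lam`
  have hpow : ∀ i j : Fin N, j < i → (lam ^ (i : ℕ))⁻¹ * lam ^ (j : ℕ) ≤ lam⁻¹ := by
    intro i j hij
    have h1 : (j : ℕ) + 1 ≤ i := hij
    rw [inv_mul_le_iff₀ (pow_pos hlam0 _), ← div_eq_mul_inv, le_div_iff₀ hlam0, ← pow_succ]
    exact pow_le_pow_right₀ hlam h1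
  have hη : 0 ≤ η := by linarith
  have hsmall : N * (2 * C * (C * B) * lam⁻¹) ≤ η / 2 := by
    rw [← mul_assoc, ← div_eq_mul_inv, div_le_iff₀ hlam0]
    exact hlam2
  have hq0 : 0 ≤ 2 * C * (C * B) * lam⁻¹ := by positivity
  have hl1 : Low ((dgl u hu)⁻¹ * r * dgl x hx).1 := fun i j hij => by
    rw [dgl_conj, hr i j hij]
    simp
  have h6 : ((dgl u hu)⁻¹ * r * dgl x hx)⁻¹ = (dgl x hx)⁻¹ * r⁻¹ * dgl u hu := by group
  have hl2 : Low ((dgl u hu)⁻¹ * r * dgl x hx)⁻¹.1 := hl1.inv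
  refine max_le ?_ ?_
  · refine (low_norm_le hl1 (a := 1 + η / 2) (b := 2 * C * (C * B) * lam⁻¹) (by linarith) hq0
      (fun i => ?_) fun i j hij => ?_).trans (by linarith)
    · rw [dgl_conj, hux]
      have h1 : (t ^ k i * x i)⁻¹ * r.1 i i * x i = (t ^ k i)⁻¹ * r.1 i i := by
        have := hx i
        field_simp
      rw [h1, abs_mul, abs_of_pos (inv_pos.2 (htk i))]
      have h2 := hk2 i
      rw [zpow_add_one₀ ht0.ne'] at h2
      rw [inv_mul_le_iff₀ (htk i)]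
      have h3 : t ^ k i * t ≤ t ^ k i * (1 + η / 2) := mul_le_mul_of_nonneg_left htη (htk i).le
      linarith
    · rw [dgl_conj, hux, hxb, hxb]
      have h1 : (t ^ k i * (lam ^ (i : ℕ) * b i))⁻¹ * r.1 i j * (lam ^ (j : ℕ) * b j) =
          ((t ^ k i)⁻¹ * (r.1 i j * (b j / b i))) * ((lam ^ (i : ℕ))⁻¹ * lam ^ (j : ℕ)) := by
        rw [mul_inv, mul_inv]
        ring
      rw [h1, abs_mul, abs_mul, abs_mul, abs_of_pos (inv_pos.2 (htk i)),
        abs_of_pos (mul_pos (inv_pos.2 (pow_pos hlam0 _)) (pow_pos hlam0 _) :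
          0 < (lam ^ (i : ℕ))⁻¹ * lam ^ (j : ℕ))]
      refine mul_le_mul (mul_le_mul (hk4 i) (mul_le_mul ((entry_le_wt r i j).trans hrC)
        (hbB i j) (abs_nonneg _) hC) (by positivity) (by positivity)) (hpow i j hij)
        (by positivity) (by positivity)
  · refine (low_norm_le hl2 (a := 1 + η / 2) (b := 2 * C * (C * B) * lam⁻¹) (by linarith) hq0
      (fun i => ?_) fun i j hij => ?_).trans (by linarith)
    · rw [h6, dgl_conj, hux, ← hdi]
      have h1 : (x i)⁻¹ * (r.1 i i)⁻¹ * (t ^ k i * x i) = (r.1 i i)⁻¹ * t ^ k i := by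
        have := hx i
        have := hr.diag_ne_zero i
        field_simp
      rw [h1, abs_mul, abs_inv, abs_of_pos (htk i), inv_mul_le_iff₀ (hr0 i)]
      have h3 : |r.1 i i| * 1 ≤ |r.1 i i| * (1 + η / 2) :=
        mul_le_mul_of_nonneg_left (by linarith) (hr0 i).le
      linarith [hk1 i]
    · rw [h6, dgl_conj, hux, hxb, hxb]
      have h1 : (lam ^ (i : ℕ) * b i)⁻¹ * r⁻¹.1 i j * (t ^ k j * (lam ^ (j : ℕ) * b j)) =
          (t ^ k j * (r⁻¹.1 i j * (b j / b i))) * ((lam ^ (i : ℕ))⁻¹ * lam ^ (j : ℕ)) := by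
        rw [mul_inv]
        generalize r⁻¹.1 i j = y
        ring
      rw [h1, abs_mul, abs_mul, abs_mul, abs_of_pos (htk j),
        abs_of_pos (mul_pos (inv_pos.2 (pow_pos hlam0 _)) (pow_pos hlam0 _) :
          0 < (lam ^ (i : ℕ))⁻¹ * lam ^ (j : ℕ))]
      have h2 : |r⁻¹.1 i j| ≤ C := (abs_entry_le _ i j).trans ((le_max_right _ _).trans hrC)
      refine mul_le_mul (mul_le_mul ((hk3 j).trans (by linarith)) (mul_le_mul h2
        (hbB i j) (abs_nonneg _) hC) (by positivity) (by positivity)) (hpow i j hij)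
        (by positivity) (by positivity)

/-- Fields on `GL_N(ℝ)`. -/
theorem fld_real (S : Set (GLn N ℝ)) (hS : S.Finite) {ε : ℝ} (hε : 0 < ε) :
    ∃ R : ℝ, Fld (GLn N ℝ) S ε {g | ∀ i j, |g.1 i j| ≤ R} := by
  classical
  obtain ⟨Z, Φ, hΦ0, hΦ1, hΦ2, hΦ3⟩ := exists_unity N
  obtain ⟨η, hη0, hη⟩ := hΦ2 (ε / 2) (by positivity)
  choose k hkw hk using exists_qr (N := N)
  -- bounds for the steps
  obtain ⟨C₀, hC₀⟩ := (hS.image wt).bddAbove
  set C : ℝ := N * |C₀| * N + 1 with hC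
  have hC0 : 0 < C := by positivity
  let h : GLn N ℝ → GLn N ℝ := fun p => p * k p
  let r : GLn N ℝ → GLn N ℝ → GLn N ℝ := fun p s => (k p)⁻¹ * s * k (p * s)
  have hhr : ∀ p s, h (p * s) = h p * r p s := fun p s => by
    simp only [h, r]
    group
  have hrl : ∀ p s, Low (r p s).1 := fun p s => by
    have h1 : r p s = (h p)⁻¹ * h (p * s) := by rw [hhr]; group
    rw [h1, Units.val_mul]
    exact (Low.inv (hk p)).mul (hk (p * s))
  have hrC : ∀ s ∈ S, ∀ p, wt (r p s) ≤ C := fun s hs p => by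
    have h1 : wt s ≤ |C₀| := (hC₀ (Set.mem_image_of_mem _ hs)).trans (le_abs_self _)
    refine (wt_mul _ _).trans ?_
    refine (mul_le_mul ((wt_mul _ _).trans (mul_le_mul (by rw [wt_inv]; exact hkw p) h1
      (wt_nonneg _) (Nat.cast_nonneg _))) (hkw _) (wt_nonneg _) (by positivity)).trans ?_
    rw [hC]
    linarith
  -- the step of the grid
  set t : ℝ := 1 + min (η / 2) 1 with ht
  have hmin : 0 < min (η / 2) 1 := lt_min (by positivity) one_pos
  have ht1 : 1 < t := by rw [ht]; linarith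
  have ht0 : 0 < t := by linarith
  have htη : t ≤ 1 + η / 2 := by rw [ht]; linarith [min_le_left (η / 2) 1]
  have ht2 : t ≤ 2 := by rw [ht]; linarith [min_le_right (η / 2) 1]
  obtain ⟨K, hK⟩ := pow_unbounded_of_one_lt (2 * C) ht1
  let A := Multiplicative (Fin N → ℤ)
  have hfin : {a : A | ∀ i, a.toAdd i ∈ Set.Icc (-(K : ℤ)) K}.Finite := by
    have h1 : (Set.pi Set.univ fun _ : Fin N => Set.Icc (-(K : ℤ)) K).Finite :=
      Set.Finite.pi fun _ => Set.finite_Icc _ _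
    refine (h1.preimage (f := fun a : A => a.toAdd) ?_).subset ?_
    · exact Multiplicative.toAdd.injective.injOn
    · intro a ha i _
      exact ha i
  obtain ⟨μ₀, hμ0, hμ1, hμ2⟩ := exists_almost_inv A hfin.toFinset (half_pos hε)
  -- bounds on the support
  have hbne : ∀ (a : A) i, t ^ (a.toAdd i) ≠ 0 := fun a i => (zpow_pos ht0 _).ne'
  obtain ⟨B, hB⟩ := ((μ₀.support ×ˢ (Finset.univ : Finset (Fin N × Fin N))).image
    fun x => |t ^ (x.1.toAdd x.2.2) / t ^ (x.1.toAdd x.2.1)|).bddAbove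
  have hBa : ∀ a ∈ μ₀.support, ∀ i j, |t ^ (a.toAdd j) / t ^ (a.toAdd i)| ≤ |B| :=
    fun a ha i j => (hB (Finset.mem_coe.2 (Finset.mem_image.2 ⟨(a, i, j), Finset.mem_product.2
      ⟨ha, Finset.mem_univ _⟩, rfl⟩))).trans (le_abs_self _)
  set lam : ℝ := 1 + N * (2 * C * (C * |B|)) * (2 / η) with hlam
  have hlam1 : 1 ≤ lam := by
    rw [hlam]
    have : 0 ≤ N * (2 * C * (C * |B|)) * (2 / η) := by positivity
    linarith
  have hlam0 : 0 < lam := by linarith
  have hlam2 : N * (2 * C * (C * |B|)) ≤ η / 2 * lam := by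
    have h1 : η / 2 * (N * (2 * C * (C * |B|)) * (2 / η)) = N * (2 * C * (C * |B|)) := by
      field_simp
    rw [hlam]
    linarith
  have hxne : ∀ (a : A) (i : Fin N), lam ^ (i : ℕ) * t ^ (a.toAdd i) ≠ 0 := fun a i =>
    mul_ne_zero (pow_pos hlam0 _).ne' (hbne a i)
  let D : A → GLn N ℝ := fun a => dgl (fun i => lam ^ (i : ℕ) * t ^ (a.toAdd i)) (hxne a)
  obtain ⟨B', hB'⟩ := (μ₀.support.image fun a => wt (D a)).bddAbove
  have hDB : ∀ a ∈ μ₀.support, wt (D a) ≤ |B'| := fun a ha =>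
    (hB' (Finset.mem_coe.2 (Finset.mem_image_of_mem _ ha))).trans (le_abs_self _)
  refine ⟨N * (|B'| * 16 * |B'|) * N, ?_⟩
  have key := fld_of_flow (S := S) μ₀ hμ0 hμ1 D Φ hΦ0 hΦ1 h (ε₁ := ε / 2) (ε₂ := ε / 2) ?_
      (E := {g | ∀ i j, |g.1 i j| ≤ N * (|B'| * 16 * |B'|) * N}) ?_
  · rwa [add_halves] at key
  · intro s hs p
    have hr0 : ∀ i, 0 < |(r p s).1 i i| := fun i => abs_pos.2 ((hrl p s).diag_ne_zero i)
    choose m hm using fun i => exists_mem_Ico_zpow (hr0 i) ht1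
    have hmC : ∀ i, t ^ m i ≤ C := fun i =>
      (hm i).1.trans ((entry_le_wt _ i i).trans (hrC s hs p))
    have hmC' : ∀ i, t ^ (-(m i)) ≤ 2 * C := fun i => by
      have hdi : (|(r p s).1 i i|)⁻¹ ≤ C := by
        rw [← abs_inv, inv_eq_of_mul_eq_one_right ((hrl p s).diag_mul_inv i)]
        exact (abs_entry_le _ i i).trans ((le_max_right _ _).trans (hrC s hs p))
      have h2 : t ^ (-(m i)) = t * (t ^ (m i + 1))⁻¹ := by
        rw [_root_.zpow_neg, zpow_add_one₀ ht0.ne', mul_inv]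
        field_simp
      rw [h2]
      exact mul_le_mul ht2 ((inv_anti₀ (hr0 i) (hm i).2.le).trans hdi)
        (inv_nonneg.2 (zpow_pos ht0 _).le) (by norm_num)
    have hmK : ∀ i, m i ∈ Set.Icc (-(K : ℤ)) K := by
      intro i
      constructor
      · have h1 : t ^ (-(m i)) < t ^ (K : ℤ) := by
          rw [zpow_natCast]
          exact (hmC' i).trans_lt hK
        have h2 := (zpow_lt_zpow_iff_right₀ ht1).1 h1
        linarith
      · have h1 : t ^ (m i) < t ^ (K : ℤ) := by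
          rw [zpow_natCast]
          exact ((hmC i).trans (by linarith)).trans_lt hK
        exact ((zpow_lt_zpow_iff_right₀ ht1).1 h1).le
    let δ : A := Multiplicative.ofAdd m
    refine ⟨δ, hμ2 δ ?_, fun b hb => ?_⟩
    · rw [Set.Finite.mem_toFinset]
      exact hmK
    · have hv : wt ((D (δ * b))⁻¹ * r p s * D b) ≤ 1 + η := by
        refine contract_real hC0.le (abs_nonneg B) ht1 htη hlam1 hlam2 (r p s) (hrl p s)
          (hrC s hs p) m (fun i => (hm i).1) (fun i => (hm i).2) ht2 (fun i => t ^ (b.toAdd i))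
          (fun i j => hBa b hb i j) (hxne b) (hxne (δ * b))
          (fun i => rfl) fun i => ?_
        show lam ^ (i : ℕ) * t ^ (m i + b.toAdd i) = _
        rw [zpow_add₀ ht0.ne']
        ring
      have h1 : h (p * s) * D b = h p * D (δ * b) * ((D (δ * b))⁻¹ * r p s * D b) := by
        rw [hhr]
        group
      rw [h1]
      exact hη _ _ hv
  · intro p q b hb b' hb' z hp hq i j
    have h1 : wt ((h p * D b)⁻¹ * (h q * D b')) ≤ 16 := hΦ3 _ _ z hp hq
    set v := (h p * D b)⁻¹ * (h q * D b') with hv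
    have h2 : p⁻¹ * q = k p * (D b * v * (D b')⁻¹) * (k q)⁻¹ := by
      simp only [hv, h]
      group
    rw [h2]
    refine (entry_le_wt _ i j).trans ((wt_mul _ _).trans ?_)
    refine mul_le_mul ((wt_mul _ _).trans ?_) (by rw [wt_inv]; exact hkw q) (wt_nonneg _)
      (by positivity)
    refine mul_le_mul (hkw p) ((wt_mul _ _).trans ?_) (wt_nonneg _) (Nat.cast_nonneg _)
    refine mul_le_mul ((wt_mul _ _).trans ?_) (by rw [wt_inv]; exact hDB b' hb') (wt_nonneg _)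
      (by positivity)
    exact mul_le_mul (hDB b hb) h1 (wt_nonneg _) (abs_nonneg _)

end Vale.Agent.P184.LA
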