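import Mathlib

set_option linter.all false

/-!
# Representations over reduced rings
-/

noncomputable section

namespace Vale.Agent.P184.LA

universe u w

/-- Descent to the subalgebra generated by the entries. -/
theorem exists_descent {k : Type*} {R : Type w} [CommRing k] [CommRing R] [Algebra k R]
    (A : Subalgebra k R) {G : Type u} [Group G] {T : Set G} (hgen : Subgroup.closure T = ⊤)
    {n : ℕ} (ρ : G →* (Matrix (Fin n) (Fin n) R)ˣ)
    (h : ∀ g ∈ T, ∀ i j, (ρ g : Matrix (Fin n) (Fin n) R) i j ∈ A ∧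
      (ρ g⁻¹ : Matrix (Fin n) (Fin n) R) i j ∈ A) :
    ∃ ρA : G →* (Matrix (Fin n) (Fin n) A)ˣ, ∀ g, ρA g = 1 ↔ ρ g = 1 := by
  classical
  let φ₀ : Matrix (Fin n) (Fin n) A →+* Matrix (Fin n) (Fin n) R := A.val.toRingHom.mapMatrix
  have hφ₀ : Function.Injective φ₀ := by
    intro P Q hPQ
    refine Matrix.ext fun a b => Subtype.ext ?_
    exact congrFun (congrFun hPQ a) b
  let φ : (Matrix (Fin n) (Fin n) A)ˣ →* (Matrix (Fin n) (Fin n) R)ˣ := Units.map φ₀.toMonoidHom
  have hφ : Function.Injective φ := Units.map_injective hφ₀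
  have hrange : ∀ g, ρ g ∈ φ.range := by
    have h2 : Subgroup.closure T ≤ φ.range.comap ρ := by
      rw [Subgroup.closure_le]
      intro g hg
      let P : Matrix (Fin n) (Fin n) A := fun a b => ⟨_, (h g hg a b).1⟩
      let Q : Matrix (Fin n) (Fin n) A := fun a b => ⟨_, (h g hg a b).2⟩
      have hP : φ₀ P = (ρ g : Matrix (Fin n) (Fin n) R) := rfl
      have hQ : φ₀ Q = ((ρ g)⁻¹ : (Matrix (Fin n) (Fin n) R)ˣ) := by
        rw [← map_inv]
        rfl
      refine ⟨⟨P, Q, hφ₀ ?_, hφ₀ ?_⟩, ?_⟩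
      · rw [map_mul, map_one, hP, hQ, Units.mul_inv]
      · rw [map_mul, map_one, hP, hQ, Units.inv_mul]
      · exact Units.ext hP
    intro g
    have h3 : g ∈ Subgroup.closure T := by
      rw [hgen]
      exact Subgroup.mem_top g
    exact h2 h3
  refine ⟨(MonoidHom.ofInjective hφ).symm.toMonoidHom.comp (ρ.codRestrict φ.range hrange), ?_⟩
  intro g
  have h2 := (MonoidHom.ofInjective hφ).apply_symm_apply (ρ.codRestrict φ.range hrange g)
  have h3 : φ ((MonoidHom.ofInjective hφ).symm (ρ.codRestrict φ.range hrange g)) = ρ g :=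
    congrArg Subtype.val h2
  constructor
  · intro h4
    have h5 : (MonoidHom.ofInjective hφ).symm (ρ.codRestrict φ.range hrange g) = 1 := h4
    rw [← h3, h5, map_one]
  · intro h4
    refine hφ ?_
    rw [map_one, ← h4]
    exact h3

/-- Reduced Noetherian rings. -/
theorem exists_field {G : Type u} [Group G] (A : Type w) [CommRing A] [IsReduced A]
    [IsNoetherianRing A] {n : ℕ} (σ : G →* (Matrix (Fin n) (Fin n) A)ˣ) {x : G}
    (hx : ¬ IsOfFinOrder (σ x)) : ∃ (K : Type w) (_ : Field K)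
      (τ : G →* (Matrix (Fin n) (Fin n) K)ˣ), ¬ IsOfFinOrder (τ x) := by
  classical
  by_contra hcon
  push Not at hcon
  have hfin : (minimalPrimes A).Finite := minimalPrimes.finite_of_isNoetherianRing A
  have h1 : ∀ p ∈ minimalPrimes A, ∃ k : ℕ, 0 < k ∧
      ∀ i j, ((σ x : Matrix (Fin n) (Fin n) A) ^ k - 1) i j ∈ p := by
    intro p hp
    have hpp : p.IsPrime := hp.1.1
    let f : A →+* FractionRing (A ⧸ p) :=
      (algebraMap (A ⧸ p) (FractionRing (A ⧸ p))).comp (Ideal.Quotient.mk p)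
    have hf : ∀ a, f a = 0 → a ∈ p := by
      intro a ha
      have h2 : algebraMap (A ⧸ p) (FractionRing (A ⧸ p)) (Ideal.Quotient.mk p a) = 0 := ha
      rw [IsFractionRing.to_map_eq_zero_iff] at h2
      exact Ideal.Quotient.eq_zero_iff_mem.1 h2
    have h2 := hcon (FractionRing (A ⧸ p)) inferInstance
      ((Units.map (f.mapMatrix (m := Fin n)).toMonoidHom).comp σ)
    rw [isOfFinOrder_iff_pow_eq_one] at h2
    obtain ⟨k, hk, h2⟩ := h2
    refine ⟨k, hk, fun i j => hf _ ?_⟩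
    have h3 : (f.mapMatrix (m := Fin n)) ((σ x : Matrix (Fin n) (Fin n) A) ^ k) = 1 := by
      rw [map_pow]
      exact congrArg Units.val h2
    have h4 : (f.mapMatrix (m := Fin n)) ((σ x : Matrix (Fin n) (Fin n) A) ^ k - 1) = 0 := by
      rw [map_sub, h3, map_one, sub_self]
    exact congrFun (congrFun h4 i) j
  choose! k hk hk2 using h1
  refine hx ?_
  rw [isOfFinOrder_iff_pow_eq_one]
  refine ⟨∏ p ∈ hfin.toFinset, k p, Finset.prod_pos fun p hp => hk p (hfin.mem_toFinset.1 hp), ?_⟩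
  refine Units.ext ?_
  rw [Units.val_pow_eq_pow_val, Units.val_one, ← sub_eq_zero]
  refine Matrix.ext fun i j => ?_
  have h2 : ((σ x : Matrix (Fin n) (Fin n) A) ^ (∏ p ∈ hfin.toFinset, k p) - 1) i j ∈
      nilradical A := by
    rw [nilradical, ← Ideal.sInf_minimalPrimes, Ideal.mem_sInf]
    intro p hp
    have hp' : p ∈ minimalPrimes A := hp
    obtain ⟨m, hm⟩ : k p ∣ ∏ p ∈ hfin.toFinset, k p :=
      Finset.dvd_prod_of_mem k (hfin.mem_toFinset.2 hp')
    rw [hm]
    have hmap : ((Ideal.Quotient.mk p).mapMatrix (m := Fin n))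
        ((σ x : Matrix (Fin n) (Fin n) A) ^ (k p)) = 1 := by
      rw [← sub_eq_zero, ← map_one ((Ideal.Quotient.mk p).mapMatrix (m := Fin n)), ← map_sub]
      refine Matrix.ext fun a b => ?_
      exact Ideal.Quotient.eq_zero_iff_mem.2 (hk2 p hp' a b)
    have h3 : ((Ideal.Quotient.mk p).mapMatrix (m := Fin n))
        ((σ x : Matrix (Fin n) (Fin n) A) ^ (k p * m) - 1) = 0 := by
      rw [map_sub, pow_mul, map_pow, hmap, one_pow, map_one, sub_self]
    exact Ideal.Quotient.eq_zero_iff_mem.1 (congrFun (congrFun h3 i) j)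
  rw [nilradical_eq_zero] at h2
  exact h2

/-- Finitely generated groups. -/
theorem exists_field_fg {G : Type u} [Group G] {T : Set G} (hT : T.Finite)
    (hgen : Subgroup.closure T = ⊤) {R : Type w} [CommRing R] [IsReduced R] {n : ℕ}
    (ρ : G →* (Matrix (Fin n) (Fin n) R)ˣ) {x : G} (hx : ¬ IsOfFinOrder (ρ x)) :
    ∃ (K : Type w) (_ : Field K) (τ : G →* (Matrix (Fin n) (Fin n) K)ˣ),
      ¬ IsOfFinOrder (τ x) := by
  classical
  let E : Set R := ⋃ g ∈ T, Set.range fun p : (Fin n × Fin n) × Bool =>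
    if p.2 then (ρ g : Matrix (Fin n) (Fin n) R) p.1.1 p.1.2 else
      (ρ g⁻¹ : Matrix (Fin n) (Fin n) R) p.1.1 p.1.2
  have hE : E.Finite := hT.biUnion fun g _ => Set.finite_range _
  let A : Subalgebra ℤ R := Algebra.adjoin ℤ E
  have hEA : ∀ e ∈ E, e ∈ A := fun e he => Algebra.subset_adjoin he
  have hft : Algebra.FiniteType ℤ A := by
    rw [← Subalgebra.fg_iff_finiteType]
    have h2 := Subalgebra.fg_adjoin_finset (R := ℤ) hE.toFinset
    rwa [Set.Finite.coe_toFinset] at h2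
  have hN : IsNoetherianRing A := Algebra.FiniteType.isNoetherianRing ℤ A
  have hred : IsReduced A := by
    refine ⟨fun a ha => ?_⟩
    obtain ⟨m, hm⟩ := ha
    refine Subtype.ext ?_
    refine eq_zero_of_pow_eq_zero (n := m) ?_
    rw [← Subalgebra.coe_pow, hm]
    rfl
  obtain ⟨σ, hσ⟩ := exists_descent A hgen ρ (fun g hg i j => by
    refine ⟨hEA _ ?_, hEA _ ?_⟩
    · rw [Set.mem_iUnion₂]
      exact ⟨g, hg, ((i, j), true), rfl⟩
    · rw [Set.mem_iUnion₂]
      exact ⟨g, hg, ((i, j), false), rfl⟩)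
  refine exists_field A σ fun h => hx ?_
  rw [isOfFinOrder_iff_pow_eq_one] at h ⊢
  obtain ⟨m, hm, h⟩ := h
  refine ⟨m, hm, ?_⟩
  rw [← map_pow] at h ⊢
  exact (hσ _).1 h

end Vale.Agent.P184.LA
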