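import Vale.Agent.P184.Bdl.B4
import Vale.Agent.P184.H788.ProdN
import Vale.Agent.P184.R2.H270.LDefs
import Vale.Agent.P184.R2.H270.Lin
import Vale.Agent.P184.R2.H270.Jordan
import Vale.Agent.P184.R2.H270.RingRed

set_option linter.all false

/-!
# The clauses of the theorem
-/

noncomputable section

namespace Vale.Agent.P184.LA

universe u v w x

theorem coAm_bot {G : Type*} [Group G] {C : Subgroup G} (h : IsAmenable C) :
    W.CoAmenable C ⊥ := by
  have h1 := V.amenable_coAmenable (⊥ : Subgroup C)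
    (IsAmenable.of_surjective (QuotientGroup.mk' ⊥) (QuotientGroup.mk'_surjective _) h)
  rwa [Subgroup.map_bot] at h1

theorem amRep_iff {G : Type u} [Group G] {x : G} : AmRep.{w} x ↔ LinAm.{u, w} x := by
  constructor
  · rintro ⟨K, _, n, ρ, h1, h2⟩
    exact ⟨K, inferInstance, n, ρ, h1, V.isAmenable_of_coAmenable_bot h2⟩
  · rintro ⟨K, _, n, ρ, h1, h2⟩
    exact ⟨K, inferInstance, n, ρ, h1, coAm_bot h2⟩

theorem linDetected_hom {G : Type u} {H : Type v} [Group G] [Group H] (f : H →* G) {y : H}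
    {K : Type w} [Field K] (h : W.LinDetected (f y) K) : W.LinDetected y K := by
  obtain ⟨n, ρ, h⟩ := h
  exact ⟨n, ρ.comp f, h⟩

theorem Lin.hom {G : Type u} {H : Type v} [Group G] [Group H] (f : H →* G) {y : H}
    (h : Lin.{w} (f y)) : Lin.{w} y := by
  rcases h with h | ⟨K, _, h⟩
  · exact Or.inl (amRep_iff.2 (LinAm.hom f (amRep_iff.1 h)))
  · exact Or.inr ⟨K, inferInstance, linDetected_hom f h⟩

theorem Lin.conj {G : Type u} [Group G] {x y : G} (h : IsConj x y) (hx : Lin.{w} x) :
    Lin.{w} y := by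
  obtain ⟨c, hc⟩ := isConj_iff.mp h
  refine Lin.hom (MulAut.conj c⁻¹).toMonoidHom (y := y) ?_
  have h1 : (MulAut.conj c⁻¹).toMonoidHom y = x := by
    rw [← hc]
    simp only [map_inv, MulEquiv.toMonoidHom_eq_coe, mul_assoc, MonoidHom.coe_coe, MulAut.inv_apply,
      MulAut.conj_symm_apply, inv_mul_cancel_left, inv_mul_cancel, mul_one]
  rw [h1]
  exact hx

theorem Lin.loc {G : Type u} [Group G] {x : G} (hx : Lin.{w} x) : LocLin.{w} x :=
  fun S h => Lin.hom (y := (⟨x, h⟩ : Subgroup.closure (S : Set G)))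
    (Subgroup.closure (S : Set G)).subtype hx

theorem LocLin.conj_closure {G : Type u} [Group G] {x : G} (hx : LocLin.{w} x)
    (S : Finset G) (y : Subgroup.closure (S : Set G)) (hy : IsConj x y) : Lin.{w} y := by
  classical
  obtain ⟨c, hc⟩ := isConj_iff.mp hy
  have hc' : c * x * c⁻¹ = (y : G) := hc
  let S' : Finset G := insert c S
  have hSS : Subgroup.closure (S : Set G) ≤ Subgroup.closure (S' : Set G) :=
    Subgroup.closure_mono (by simp [S'])
  have hcS : c ∈ Subgroup.closure (S' : Set G) := Subgroup.subset_closure (by simp [S'])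
  have hyS : (y : G) ∈ Subgroup.closure (S' : Set G) := hSS y.2
  have hxS : x ∈ Subgroup.closure (S' : Set G) := by
    have h1 : x = c⁻¹ * y * c := by rw [← hc']; group
    rw [h1]
    exact Subgroup.mul_mem _ (Subgroup.mul_mem _ (Subgroup.inv_mem _ hcS) hyS) hcS
  have h2 := hx S' hxS
  refine Lin.hom (Subgroup.inclusion hSS) (y := y) ?_
  refine Lin.conj ?_ h2
  refine isConj_iff.mpr ⟨⟨c, hcS⟩, ?_⟩
  exact Subtype.ext hc'

/-- Finitely generated groups. -/
theorem Lin.mild {G : Type u} [Group G] {T : Set G} (hT : T.Finite)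
    (hgen : Subgroup.closure T = ⊤) {x : G} (h : Lin.{w} x) : W.Mild x := by
  rcases h with h | ⟨K, _, h⟩
  · rcases linAm_fg T hT hgen (amRep_iff.1 h) with h1 | h1
    · exact W.mild_iff.2 (Or.inl (W.locCyc_of_locTame (locTame_of_locCharged h1)))
    · exact W.mild_iff.2 (Or.inr h1)
  · exact W.mild_of_V (V.mild_of_linDetected h)

theorem Lin.mild_fg {G : Type u} [Group G] (hG : Group.FG G) {x : G} (h : Lin.{w} x) :
    W.Mild x := by
  obtain ⟨T, hT⟩ := hG.out
  exact h.mild T.finite_toSet hT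

theorem LocLin.mild_closure {G : Type u} [Group G] {x : G} (hx : LocLin.{w} x)
    (S : Finset G) (y : Subgroup.closure (S : Set G)) (hy : IsConj x y) : W.Mild y := by
  obtain ⟨T, hT, hT2⟩ := closure_coe_top S
  exact (hx.conj_closure S y hy).mild hT hT2

/-- Vanishing. -/
theorem LocLin.vanishesAt {G : Type u} [Group G] {x : G} (hx : LocLin.{w} x) :
    W.VanishesAt x := by
  refine vanishesAt_of_local.{u, u} x fun S => ?_
  obtain ⟨s, hs⟩ := liftsTo_closure S
  exact ⟨Subgroup.closure (S : Set G), inferInstance, _, s, hs, fun y hy =>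
    W.vanishesAt_of_mild (hx.mild_closure S y hy)⟩

/-- Elements satisfying `LocLin` have infinite order. -/
theorem Lin.infOrder {G : Type u} [Group G] {x : G} (hx : Lin.{w} x) : ¬ IsOfFinOrder x := by
  rcases hx with ⟨K, _, n, ρ, h1, _⟩ | ⟨K, _, n, ρ, h⟩
  · exact fun h => h1 (ρ.isOfFinOrder h)
  · intro h1
    rw [isOfFinOrder_iff_pow_eq_one] at h1
    obtain ⟨m, hm, h1⟩ := h1
    refine h m hm ?_
    rw [← map_pow, h1, map_one, sub_self]
    exact IsNilpotent.zero

theorem LocLin.infOrder {G : Type u} [Group G] {x : G} (hx : LocLin.{w} x) :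
    ¬ IsOfFinOrder x := by
  intro h
  have h1 : x ∈ Subgroup.closure (({x} : Finset G) : Set G) :=
    Subgroup.subset_closure (by simp)
  refine (hx {x} h1).infOrder ?_
  rw [← Submonoid.isOfFinOrder_coe (H := (Subgroup.closure (({x} : Finset G) : Set G)).toSubmonoid)]
  exact h

/-- Representations of degree at most three. -/
theorem lin_of_three {G : Type u} [Group G] {K : Type w} [Field K] {n : ℕ}
    (ρ : G →* (Matrix (Fin n) (Fin n) K)ˣ) {x : G} (hx : ¬ IsOfFinOrder (ρ x)) (h : n ≤ 3) :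
    Lin.{w} x := by
  rcases linDetected_or ρ hx with h1 | ⟨_, m, hm, h2, h3⟩
  · exact Or.inr ⟨K, inferInstance, h1⟩
  · refine Or.inl (amRep_iff.2 ⟨K, inferInstance, n, ρ, hx, ?_⟩)
    have h1 := amen_of_blocks_matrix (ρ.comp (Subgroup.centralizer ({x} : Set G)).subtype)
      ((ρ x : Matrix (Fin n) (Fin n) K) ^ m - 1) h2 (fun c => by
        have h2 : Commute (c : G) x := Subgroup.mem_centralizer_singleton_iff.mp c.2
        have h3 : Commute (ρ c) (ρ x) := h2.map ρ
        have h4 : Commute (ρ c : Matrix (Fin n) (Fin n) K) (ρ x : Matrix (Fin n) (Fin n) K) :=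
          h3.map (Units.coeHom _)
        exact (((h4.pow_right m).sub_right (Commute.one_right _)).eq))
      (Or.inl ⟨h, sub_ne_zero.2 h3⟩)
    rw [MonoidHom.range_comp, Subgroup.range_subtype] at h1
    exact h1

/-- Representations of any degree, Jordan blocks of different sizes. -/
theorem lin_of_blocks {G : Type u} [Group G] {K : Type w} [Field K] {n : ℕ}
    (ρ : G →* (Matrix (Fin n) (Fin n) K)ˣ) {x : G} (hx : ¬ IsOfFinOrder (ρ x))
    (h : DiffBlocks (ρ x : Matrix (Fin n) (Fin n) K)) : Lin.{w} x := by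
  refine Or.inl (amRep_iff.2 ⟨K, inferInstance, n, ρ, hx, ?_⟩)
  have h1 := amen_of_eigen_matrix (ρ.comp (Subgroup.centralizer ({x} : Set G)).subtype)
    (ρ x : Matrix (Fin n) (Fin n) K) (fun c => by
      have h2 : Commute (c : G) x := Subgroup.mem_centralizer_singleton_iff.mp c.2
      have h3 : Commute (ρ c) (ρ x) := h2.map ρ
      have h4 : Commute (ρ c : Matrix (Fin n) (Fin n) K) (ρ x : Matrix (Fin n) (Fin n) K) :=
        h3.map (Units.coeHom _)
      exact h4.eq) h
  rw [MonoidHom.range_comp, Subgroup.range_subtype] at h1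
  exact h1

/-- Representations of degree at most three over reduced rings. -/
theorem locLin_of_ring {G : Type u} [Group G] {R : Type w} [CommRing R] [IsReduced R] {n : ℕ}
    (hn : n ≤ 3) (ρ : G →* (Matrix (Fin n) (Fin n) R)ˣ) {x : G} (hx : ¬ IsOfFinOrder (ρ x)) :
    LocLin.{w} x := by
  intro S h
  obtain ⟨T, hT, hT2⟩ := closure_coe_top S
  obtain ⟨K, _, τ, hτ⟩ := exists_field_fg hT hT2 (ρ.comp (Subgroup.closure (S : Set G)).subtype)
    (x := ⟨x, h⟩) hx
  exact lin_of_three τ hτ hn

/-- Groups with locally finitely many classes of torsion elements. -/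
theorem nice_of_lin {G : Type u} [Group G] (hG : Group.FG G)
    (h : ∀ x : G, ¬ IsOfFinOrder x → LocLin.{w} x)
    (hfin : {C : ConjClasses G | ∀ g ∈ C.carrier, IsOfFinOrder g}.Finite) : W.Nice G := by
  obtain ⟨T, hT⟩ := hG.out
  refine W.nice_iff.2 ⟨fun x hx => W.mild_iff.1 ?_, tgoodL_of_tgoodD (tgoodD_of_finite hfin)⟩
  have h0 : x ∈ Subgroup.closure (T : Set G) := by
    rw [hT]
    exact Subgroup.mem_top x
  have h1 : Lin.{w} x := by
    let e : G →* Subgroup.closure (T : Set G) :=
      (MonoidHom.id G).codRestrict _ fun g => by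
        rw [hT]
        exact Subgroup.mem_top _
    exact Lin.hom e (y := x) (h x hx T h0)
  exact h1.mild T.finite_toSet hT

theorem locLin_sub {G : Type u} [Group G] {x : G} (hx : LocLin.{w} x) (S : Finset G)
    (h : x ∈ Subgroup.closure (S : Set G)) :
    LocLin.{w} (⟨x, h⟩ : Subgroup.closure (S : Set G)) :=
  Lin.loc (hx S h)

theorem l1Bass_of_lin {G : Type u} [Group G] (h : ∀ x : G, ¬ IsOfFinOrder x → LocLin.{w} x)
    (hfin : ∀ S : Finset G, {C : ConjClasses (Subgroup.closure (S : Set G)) |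
      ∀ g ∈ C.carrier, IsOfFinOrder g}.Finite) : W.L1Bass G :=
  l1Bass_of_tgoodL (fun x hx => (h x hx).vanishesAt) (tgoodL_of_locFin hfin)

/-- Torsion-free groups. -/
theorem finite_tors {G : Type u} [Group G] (h : ∀ x : G, x ≠ 1 → ¬ IsOfFinOrder x) :
    {C : ConjClasses G | ∀ g ∈ C.carrier, IsOfFinOrder g}.Finite := by
  refine (Set.finite_singleton (ConjClasses.mk (1 : G))).subset ?_
  intro C hC
  obtain ⟨x, rfl⟩ := ConjClasses.mk_surjective C
  have h1 : x = 1 := by
    by_contra h2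
    exact h x h2 (hC x (ConjClasses.mem_carrier_iff_mk_eq.2 rfl))
  rw [h1]
  rfl

theorem torsFree_sub {G : Type u} [Group G] (h : ∀ x : G, x ≠ 1 → LocLin.{w} x) (S : Finset G) :
    ∀ x : Subgroup.closure (S : Set G), x ≠ 1 → LocLin.{w} x := by
  rintro ⟨x, hx⟩ h1
  refine locLin_sub (h x fun h2 => h1 (Subtype.ext h2)) S hx

/-- Products. -/
theorem bass_prod_lin {G : Type u} {B : Type v} [Group G] [Group B]
    (h : ∀ x : B, x ≠ 1 → LocLin.{w} x) : W.L1Bass (G × B) ↔ W.L1Bass G := by
  refine H788.bass_prod_locNice fun S => ⟨?_, H788.torSep_of_torsionFree fun b hb => ?_⟩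
  · refine nice_of_lin ?_ (fun x hx => torsFree_sub h S x fun h1 => hx ?_)
      (finite_tors fun x hx => (torsFree_sub h S x hx).infOrder)
    · exact (Group.fg_iff_subgroup_fg _).mpr ⟨S, rfl⟩
    · rw [h1]
      exact IsOfFinOrder.one
  · by_contra h1
    exact (torsFree_sub h S b h1).infOrder hb

/-- Torsion-free linear groups of degree three over reduced rings. -/
theorem locLin_of_subgroup {R : Type w} [CommRing R] [IsReduced R]
    (B : Subgroup (Matrix (Fin 3) (Fin 3) R)ˣ) {x : B} (hx : ¬ IsOfFinOrder x) :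
    LocLin.{w} x := by
  refine locLin_of_ring le_rfl B.subtype fun h => hx ?_
  exact (Submonoid.isOfFinOrder_coe (H := B.toSubmonoid) (x := x)).mp h

/-- Relatively hyperbolic groups. -/
theorem relHyp_lin {G : Type u} [Group G] {ι : Type v} {H : ι → Subgroup G}
    (hG : W.IsRelHyp H) (hfg : ∀ k, Group.FG (H k))
    (hH : ∀ k, ∀ x : H k, ¬ IsOfFinOrder x → LocLin.{w} x)
    (hfin : ∀ k, {C : ConjClasses (H k) | ∀ g ∈ C.carrier, IsOfFinOrder g}.Finite) :
    W.Nice G :=
  W.relHyp_nice hG fun k => nice_of_lin (hfg k) (hH k) (hfin k)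

/-- General targets with property A. -/
theorem mild_of_propA {G : Type u} {L : Type v} [Group G] [Group L] (f : G →* L) {x : G}
    (hL : W.PropertyA L) (hx : ¬ IsOfFinOrder (f x)) (ha : W.CoAmenable ((W.Cen x).map f) ⊥) :
    W.Mild x :=
  W.mild_iff.2 (Or.inr (goodD_of_map f hL hx (V.isAmenable_of_coAmenable_bot ha)))

end Vale.Agent.P184.LA
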